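import Vale.Agent.P088.R2.H960.W.Weyl2

/-!
# P088, stage 3, zone II: the pointwise bounds of the frames, the fields, the cut-off, the weight

`En = e^u`, `N = Φ'(u)`, `r` the distance, `k` the convexity weight, all numbers at the point `z`;
`A ≥ 1` is a constant depending on `n` only.  `m = En r²`.
-/

open Set Filter
open scoped ContDiff Topology

noncomputable section

namespace Vale.Agent.P088.R2.H870.Z2

open Vale.Agent.P088.R2.H961.GW Vale.Agent.P088.R2.H960.W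

variable {E ι α : Type*} [NormedAddCommGroup E] [NormedSpace ℝ E] [Fintype ι] [Fintype α]

/-- The frames of the two metrics: `pᵀ p = s₁`, `qᵀ q = s₂`, `p - q = O(r)`. -/
structure MB (σ τ : Sl E ι) (p q : α → ι → E → ℝ) (A r : ℝ) (z : E) : Prop where
  f₁ : ∀ i j, ∑ a, p a i z * p a j z = σ.s i j z
  f₂ : ∀ i j, ∑ a, q a i z * q a j z = τ.s i j z
  df : ∀ a i, |p a i z - q a i z| ≤ A * r

/-- The fields `c = s₁ C₁`, `c' = s₂ C₂`. -/
structure FB (σ τ : Sl E ι) (C₁ C₂ c c' : ι → E → ℝ) (A En N r k : ℝ) (z : E) : Prop where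
  e₁ : ∀ i, c i z = ∑ j, σ.s i j z * C₁ j z
  e₂ : ∀ i, c' i z = ∑ j, τ.s i j z * C₂ j z
  b₁ : ∀ j, |C₁ j z| ≤ A
  b₂ : ∀ j, |C₂ j z| ≤ A
  df : ∀ j, |C₁ j z - C₂ j z| ≤ A * (r + (N + k) / (En * r))
  d₁ : ∀ i l, |σ.D i (c l) z| ≤ A * (1 + (N + k) / (En * r ^ 2))
  d₂ : ∀ i l, |τ.D i (c' l) z| ≤ A * (1 + (N + k) / (En * r ^ 2))

/-- The cut-off; `h` is a number (small on `supp Dχ`, `0` elsewhere). -/
structure CB (σ τ : Sl E ι) (χ : E → ℝ) (h r : ℝ) (z : E) : Prop where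
  x : ∀ i, |σ.D i χ z| ≤ h / r
  y : ∀ i, |τ.D i χ z| ≤ h / r
  s : ∀ i, |σ.D i χ z + τ.D i χ z| ≤ h

/-- The first derivatives of the weight. -/
structure W1 (σ τ : Sl E ι) (W : E → ℝ) (A En N r : ℝ) (z : E) : Prop where
  x : ∀ i, |σ.D i W z| ≤ A * (En * r)
  y : ∀ i, |τ.D i W z| ≤ A * (En * r)
  s : ∀ i, |σ.D i W z + τ.D i W z| ≤ A * (N + En * r ^ 2)
  F₁ : (En * r) ^ 2 ≤ A * σ.F W z
  F₂ : (En * r) ^ 2 ≤ A * τ.F W z

end Vale.Agent.P088.R2.H870.Z2
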