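import Vale.Agent.P088.R2.H870.Z2.On4
import Vale.Agent.P088.R2.H165.Tab

/-!
# P088, stage 3, zone II: the common form

From `zoneII'` (letters `g ~ 2 / r²`, `e ~ 2 En²`) to the zone inequality with the margin `MII` and
the cost `cII` of the table.
-/

open MeasureTheory Set Filter
open scoped ContDiff Topology

noncomputable section

namespace Vale.Agent.P088.R2.H870.Z2

open Vale.Agent.P088.R2.H961.GW Vale.Agent.P088.R2.H644 Vale.Agent.P088.R2.H960.W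
  Vale.Agent.P088.R2.H747.S Vale.Agent.P088.R2.H551.E Vale.Agent.P088.R2.H86.Z
  Vale.Agent.P088.R2.H972.E Vale.Agent.P088.R2.H165.Tab

section size

variable {α ι : Type*} [Fintype α] [Fintype ι]

theorem dt_ν {P : α → ι → ℝ} {s ν : ℝ} (hα : (Fintype.card α : ℝ) + 1 ≤ ν)
    (hι : (Fintype.card ι : ℝ) + 1 ≤ ν) (hP : ∀ a i, |P a i| ≤ s) (B : ι → ℝ) :
    dt (mv P B) (mv P B) ≤ ν ^ 2 * s ^ 2 * ∑ i, B i ^ 2 := by
  have h0 : (0 : ℝ) ≤ Fintype.card ι := Nat.cast_nonneg _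
  have h0' : (0 : ℝ) ≤ Fintype.card α := Nat.cast_nonneg _
  have hB : 0 ≤ ∑ i, B i ^ 2 := Finset.sum_nonneg fun _ _ => sq_nonneg _
  have h1 : ∀ a, mv P B a * mv P B a ≤ Fintype.card ι * s ^ 2 * ∑ i, B i ^ 2 := by
    intro a
    have h2 := Finset.sum_mul_sq_le_sq_mul_sq Finset.univ (P a) B
    have h3 : ∑ i, P a i ^ 2 ≤ Fintype.card ι * s ^ 2 := by
      have : ∑ i, P a i ^ 2 ≤ ∑ _i : ι, s ^ 2 := Finset.sum_le_sum fun i _ => by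
        have := pow_le_pow_left₀ (abs_nonneg _) (hP a i) 2
        rwa [sq_abs] at this
      rwa [Finset.sum_const, Finset.card_univ, nsmul_eq_mul] at this
    have h4 := mul_le_mul_of_nonneg_right h3 hB
    unfold mv
    rw [← sq]
    exact h2.trans h4
  have h2 : dt (mv P B) (mv P B) ≤ ∑ _a : α, Fintype.card ι * s ^ 2 * ∑ i, B i ^ 2 :=
    Finset.sum_le_sum fun a _ => h1 a
  rw [Finset.sum_const, Finset.card_univ, nsmul_eq_mul] at h2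
  refine h2.trans ?_
  have h3 : (Fintype.card α : ℝ) * Fintype.card ι ≤ ν ^ 2 := by nlinarith
  have h4 := mul_le_mul_of_nonneg_right h3 (mul_nonneg (sq_nonneg s) hB)
  linarith

theorem dt_add_le (u v : α → ℝ) : dt (u + v) (u + v) ≤ 2 * dt u u + 2 * dt v v := by
  have h := dt_self_nonneg (u - v)
  rw [dt_sub_right, dt_sub_left, dt_sub_left] at h
  rw [dt_add_right, dt_add_left, dt_add_left]
  linarith

theorem dt_add_ge (u v : α → ℝ) : 1 / 2 * dt u u - dt v v ≤ dt (u + v) (u + v) := by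
  have h := dt_self_nonneg ((1 / 2 : ℝ) • u + v)
  have h2 := dt_self_nonneg u
  rw [dt_add_right, dt_add_left, dt_add_left, dt_smul_left, dt_smul_right, dt_smul_left,
    dt_smul_right] at h
  rw [dt_add_right, dt_add_left, dt_add_left]
  have h3 : dt u v = dt v u := dt_comm _ _
  rw [h3] at h ⊢
  nlinarith

/-- `|pA - qB|²` against `|A - B|²`. -/
theorem wq_two {P Q : α → ι → ℝ} {s : ι → ι → ℝ} {t ν : ℝ} (hα : (Fintype.card α : ℝ) + 1 ≤ ν)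
    (hι : (Fintype.card ι : ℝ) + 1 ≤ ν) (f₁ : ∀ i j, ∑ a, P a i * P a j = s i j)
    (up : ∀ A : ι → ℝ, ∑ i, ∑ j, s i j * A i * A j ≤ 2 * ∑ i, A i ^ 2)
    (lo : ∀ A : ι → ℝ, ∑ i, A i ^ 2 ≤ 2 * ∑ i, ∑ j, s i j * A i * A j)
    (ed : ∀ a i, |P a i - Q a i| ≤ t) (A B : ι → ℝ) :
    dt (mv P A - mv Q B) (mv P A - mv Q B) ≤ 4 * ∑ i, (A i - B i) ^ 2 +
        2 * (ν ^ 2 * t ^ 2 * ∑ i, B i ^ 2) ∧
      1 / 4 * ∑ i, (A i - B i) ^ 2 - ν ^ 2 * t ^ 2 * ∑ i, B i ^ 2 ≤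
        dt (mv P A - mv Q B) (mv P A - mv Q B) := by
  have e : mv P A - mv Q B = mv P (A - B) + mv (fun a i => P a i - Q a i) B := by
    rw [mv_sub, mv_sub_left]; abel
  have h1 := dt_ν hα hι ed B
  have h2 : dt (mv P (A - B)) (mv P (A - B)) = ∑ i, ∑ j, s i j * (A - B) i * (A - B) j :=
    dt_mv f₁ _ _
  have h3 := up (A - B)
  have h4 := lo (A - B)
  rw [← h2] at h3 h4
  have h5 : ∑ i, (A - B) i ^ 2 = ∑ i, (A i - B i) ^ 2 := rfl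
  rw [h5] at h3 h4
  have h6 := dt_add_le (mv P (A - B)) (mv (fun a i => P a i - Q a i) B)
  have h7 := dt_add_ge (mv P (A - B)) (mv (fun a i => P a i - Q a i) B)
  rw [e]
  exact ⟨by linarith, by linarith⟩

end size

variable {E ι α : Type*} [NormedAddCommGroup E] [NormedSpace ℝ E] [Fintype ι] [Fintype α]

/-- The frames and the letters `g`, `e` at a point. -/
structure Lt (σ τ : Sl E ι) (p q : α → ι → E → ℝ) (g e : E → ℝ) (ν₀ : Nu E) (A : ℝ) (z : E) :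
    Prop where
  f₁ : ∀ i j, ∑ a, p a i z * p a j z = σ.s i j z
  r2 : 0 < ν₀.r2 z
  df : ∀ a i, |p a i z - q a i z| ≤ A * √(ν₀.r2 z)
  g₁ : 2 ≤ g z * ν₀.r2 z
  g₂ : g z * ν₀.r2 z ≤ 4
  e₁ : 2 * ν₀.En z ^ 2 ≤ e z
  e₂ : e z ≤ 4 * ν₀.En z ^ 2

section pw

variable {σ τ : Sl E ι} {W χ v₁ v₂ k g e Z a b : E → ℝ} {c c' : ι → E → ℝ}
  {p q : α → ι → E → ℝ} {z : E} {A ν C₁ : ℝ} {ν₀ : Nu E}

theorem wq_nY (hα : (Fintype.card α : ℝ) + 1 ≤ ν) (hι : (Fintype.card ι : ℝ) + 1 ≤ ν)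
    (el : El σ z) (lt : Lt σ τ p q g e ν₀ A z) (W a b : E → ℝ) :
    wq p q z (Ch.XX σ W a z) (Ch.XX τ W b z) ≤ 4 * nY σ τ W a b z +
        2 * (ν ^ 2 * A ^ 2 * ν₀.r2 z * nX τ W b z) ∧
      1 / 4 * nY σ τ W a b z - ν ^ 2 * A ^ 2 * ν₀.r2 z * nX τ W b z ≤
        wq p q z (Ch.XX σ W a z) (Ch.XX τ W b z) := by
  have t4 : wq p q z (Ch.XX σ W a z) (Ch.XX τ W b z) =
      dt (mv (fun a i => p a i z) (Ch.XX σ W a z) - mv (fun a i => q a i z) (Ch.XX τ W b z))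
        (mv (fun a i => p a i z) (Ch.XX σ W a z) - mv (fun a i => q a i z) (Ch.XX τ W b z)) := by
    unfold wq dt
    exact Finset.sum_congr rfl fun a _ => by rw [sq]; rfl
  have h := wq_two (P := fun a i => p a i z) (Q := fun a i => q a i z) hα hι lt.f₁ el.up el.lo
    lt.df (Ch.XX σ W a z) (Ch.XX τ W b z)
  have e1 : (A * √(ν₀.r2 z)) ^ 2 = A ^ 2 * ν₀.r2 z := by
    rw [mul_pow, Real.sq_sqrt lt.r2.le]
  rw [e1, ← t4] at h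
  have e2 : nY σ τ W a b z = ∑ i, (Ch.XX σ W a z i - Ch.XX τ W b z i) ^ 2 := rfl
  have e3 : nX τ W b z = ∑ i, Ch.XX τ W b z i ^ 2 := rfl
  rw [e2, e3]
  exact ⟨by linarith [h.1], by linarith [h.2]⟩

/-- The margin, at a point. -/
theorem mg_le (hα : (Fintype.card α : ℝ) + 1 ≤ ν) (hι : (Fintype.card ι : ℝ) + 1 ≤ ν)
    (el : El σ z) (lt : Lt σ τ p q g e ν₀ A z) (hk : ν₀.k z = k z)
    (hF₁ : ν₀.F₁ z = σ.F W z) (hF₂ : ν₀.F₂ z = τ.F W z) (hk1 : 4 * (ν ^ 2 * A ^ 2) ≤ k z) :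
    (MII ν₀).dens σ τ v₁ v₂ W a b z ≤
      1 / 2 * sqd σ τ v₁ v₂ W a b z + k z * (∑ i, XX σ W a i z ^ 2) +
      k z * (∑ i, XX τ W b i z ^ 2) + 1 / 4 * (k z * σ.F W z * a z ^ 2) +
      1 / 4 * (k z * τ.F W z * b z ^ 2) +
      1 / 2 * (g z * wq p q z (Ch.XX σ W a z) (Ch.XX τ W b z)) +
      1 / 2 * (e z * (a z + b z) ^ 2) := by
  have h := (wq_nY hα hι el lt W a b).2
  have n1 : 0 ≤ nX σ W a z := Q8.nX_nonneg σ W a z
  have n2 : 0 ≤ nX τ W b z := Q8.nX_nonneg τ W b z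
  have n3 : 0 ≤ nY σ τ W a b z := Q8.nY_nonneg σ τ W a b z
  have r2 := lt.r2
  have g0 : 0 ≤ g z := by
    by_contra hc
    have := mul_neg_of_neg_of_pos (not_le.1 hc) r2
    linarith [lt.g₁]
  have va : 0 ≤ ν ^ 2 * A ^ 2 := by positivity
  have h1 := mul_le_mul_of_nonneg_left h g0
  have h2 : 1 / 2 * (ν₀.r2 z)⁻¹ * nY σ τ W a b z ≤ 1 / 4 * g z * nY σ τ W a b z := by
    have : 1 / 2 * (ν₀.r2 z)⁻¹ ≤ 1 / 4 * g z := by
      rw [← div_eq_mul_inv, div_le_iff₀ r2]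
      linarith [lt.g₁]
    exact mul_le_mul_of_nonneg_right this n3
  have h3 : g z * (ν ^ 2 * A ^ 2 * ν₀.r2 z * nX τ W b z) ≤ k z * nX τ W b z := by
    have e1 : g z * (ν ^ 2 * A ^ 2 * ν₀.r2 z * nX τ W b z) =
      g z * ν₀.r2 z * (ν ^ 2 * A ^ 2) * nX τ W b z := by ring
    rw [e1]
    have := mul_le_mul_of_nonneg_right lt.g₂ va
    exact mul_le_mul_of_nonneg_right (by linarith) n2
  have h4 : ν₀.En z ^ 2 * (a z + b z) ^ 2 ≤ 1 / 2 * (e z * (a z + b z) ^ 2) := by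
    have := mul_le_mul_of_nonneg_right lt.e₁ (sq_nonneg (a z + b z))
    linarith
  have x1 : ∑ i, XX σ W a i z ^ 2 = nX σ W a z := rfl
  have x2 : ∑ i, XX τ W b i z ^ 2 = nX τ W b z := rfl
  have k0 : 0 ≤ k z := by linarith
  have h5 : 0 ≤ k z * nX σ W a z := mul_nonneg k0 n1
  unfold Q8.dens MII
  simp only [hk, hF₁, hF₂, zero_mul, add_zero]
  rw [x1, x2]
  linarith

/-- The cost, at a point. -/
theorem co_ge (hα : (Fintype.card α : ℝ) + 1 ≤ ν) (hι : (Fintype.card ι : ℝ) + 1 ≤ ν)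
    (el : El σ z) (lt : Lt σ τ p q g e ν₀ A z)
    (hF₁ : ν₀.F₁ z = σ.F W z) (hF₂ : ν₀.F₂ z = τ.F W z) (h0₁ : 0 ≤ σ.F W z)
    (h0₂ : 0 ≤ τ.F W z) (hC : 0 ≤ C₁) (hZ : 0 ≤ Z z) :
    (C₁ + 6) * (Z z * ud σ τ W g e p q a b z) ≤
      (cII ν₀ ((C₁ + 6) * (17 + 8 * (ν ^ 2 * A ^ 2))) Z).dens σ τ v₁ v₂ W a b z := by
  have h := (wq_nY hα hι el lt W a b).1
  have n1 : 0 ≤ nX σ W a z := Q8.nX_nonneg σ W a z
  have n2 : 0 ≤ nX τ W b z := Q8.nX_nonneg τ W b z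
  have n3 : 0 ≤ nY σ τ W a b z := Q8.nY_nonneg σ τ W a b z
  have r2 := lt.r2
  have g0 : 0 ≤ g z := by
    by_contra hc
    have := mul_neg_of_neg_of_pos (not_le.1 hc) r2
    linarith [lt.g₁]
  have va : 0 ≤ ν ^ 2 * A ^ 2 := by positivity
  have h1 := mul_le_mul_of_nonneg_left h g0
  have h2 : g z * (4 * nY σ τ W a b z) ≤ 16 * ((ν₀.r2 z)⁻¹ * nY σ τ W a b z) := by
    have : g z ≤ 4 * (ν₀.r2 z)⁻¹ := by
      rw [← div_eq_mul_inv, le_div_iff₀ r2]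
      exact lt.g₂
    have := mul_le_mul_of_nonneg_right this n3
    linarith
  have h3 : g z * (2 * (ν ^ 2 * A ^ 2 * ν₀.r2 z * nX τ W b z)) ≤
      8 * (ν ^ 2 * A ^ 2) * nX τ W b z := by
    have e1 : g z * (2 * (ν ^ 2 * A ^ 2 * ν₀.r2 z * nX τ W b z)) =
      2 * (g z * ν₀.r2 z * (ν ^ 2 * A ^ 2) * nX τ W b z) := by ring
    rw [e1]
    have h5 := mul_le_mul_of_nonneg_right lt.g₂ va
    have := mul_le_mul_of_nonneg_right h5 n2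
    linarith
  have h4 : e z * (a z + b z) ^ 2 ≤ 4 * (ν₀.En z ^ 2 * (a z + b z) ^ 2) := by
    have := mul_le_mul_of_nonneg_right lt.e₂ (sq_nonneg (a z + b z))
    linarith
  have s0 := sq_nonneg (a z + b z)
  have y1 : 0 ≤ (ν₀.r2 z)⁻¹ * nY σ τ W a b z := mul_nonneg (inv_nonneg.2 r2.le) n3
  have y2 : 0 ≤ ν₀.En z ^ 2 * (a z + b z) ^ 2 := mul_nonneg (sq_nonneg _) s0
  have y3 : 0 ≤ σ.F W z * a z ^ 2 := mul_nonneg h0₁ (sq_nonneg _)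
  have y4 : 0 ≤ τ.F W z * b z ^ 2 := mul_nonneg h0₂ (sq_nonneg _)
  have x1 : ∑ i, Ch.XX σ W a z i ^ 2 = nX σ W a z := rfl
  have x2 : ∑ i, Ch.XX τ W b z i ^ 2 = nX τ W b z := rfl
  have h6 : ud σ τ W g e p q a b z ≤ (17 + 8 * (ν ^ 2 * A ^ 2)) * (nX σ W a z + nX τ W b z +
      (ν₀.r2 z)⁻¹ * nY σ τ W a b z + σ.F W z * a z ^ 2 + τ.F W z * b z ^ 2 +
      ν₀.En z ^ 2 * (a z + b z) ^ 2) := by
    unfold ud H86.Z.uf
    rw [x1, x2]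
    have z1 := mul_nonneg va n1
    have z2 := mul_nonneg va n2
    have z3 := mul_nonneg va y1
    have z4 := mul_nonneg va y2
    have z5 := mul_nonneg va y3
    have z6 := mul_nonneg va y4
    linarith
  have h7 : (cII ν₀ ((C₁ + 6) * (17 + 8 * (ν ^ 2 * A ^ 2))) Z).dens σ τ v₁ v₂ W a b z =
      (C₁ + 6) * (Z z * ((17 + 8 * (ν ^ 2 * A ^ 2)) * (nX σ W a z + nX τ W b z +
      (ν₀.r2 z)⁻¹ * nY σ τ W a b z + σ.F W z * a z ^ 2 + τ.F W z * b z ^ 2 +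
      ν₀.En z ^ 2 * (a z + b z) ^ 2))) := by
    unfold cII
    rw [Q8.dens_sm]
    unfold Q8.dens H165.Tab.uf
    simp only [hF₁, hF₂, zero_mul, add_zero]
    ring
  rw [h7]
  exact mul_le_mul_of_nonneg_left (mul_le_mul_of_nonneg_left h6 hZ) (by linarith)

end pw

variable [MeasureSpace E] [FiniteDimensional ℝ E] [BorelSpace E]
  [(volume : Measure E).IsAddHaarMeasure]

section integral

variable {σ τ : Sl E ι} {U : Set E} {θ : E → ℝ} {v₁ v₂ W χ k g e Z : E → ℝ}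
  {c c' : ι → E → ℝ} {p q : α → ι → E → ℝ} {A ν η L₀ C₁ C₂ δ : ℝ} {ν₀ : Nu E}

omit [NormedSpace ℝ E] [Fintype ι] [FiniteDimensional ℝ E] [(volume : Measure E).IsAddHaarMeasure] [Fintype α] in
theorem In_le {f h : E → ℝ} (hU : IsOpen U) (hθ : ∀ z ∈ U, 0 < θ z)
    (hf : IntegrableOn (fun z => θ z * f z) U) (hh : IntegrableOn (fun z => θ z * h z) U)
    (H : ∀ z ∈ U, f z ≤ h z) : In U θ f ≤ In U θ h :=
  setIntegral_mono_on hf hh hU.measurableSet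
    fun z hz => mul_le_mul_of_nonneg_left (H z hz) (hθ z hz).le

/-- **Zone II in the common form.** -/
theorem zone_MII (ok : σ.Ok U θ) (ot : τ.Ok U θ) (hv₁ : Sm U v₁) (hv₂ : Sm U v₂)
    (el₁ : ∀ z ∈ U, El σ z) (el₂ : ∀ z ∈ U, El τ z)
    (hW : Sm U W) (hχ : Sm U χ) (hk : Sm U k) (hg : Sm U g) (he : Sm U e) (hZ : Sm U Z)
    (hp : ∀ r i, Sm U (p r i)) (hq : ∀ r i, Sm U (q r i))
    (hc : ∀ i, Sm U (c i)) (hc' : ∀ i, Sm U (c' i))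
    (hk0 : ∀ z ∈ U, 0 ≤ k z) (hg0 : ∀ z ∈ U, 0 ≤ g z) (he0 : ∀ z ∈ U, 0 ≤ e z)
    (hZ0 : ∀ z ∈ U, 0 ≤ Z z)
    (hs₁ : ∀ z ∈ U, χ z ≠ 0 → HS' σ W χ k Z v₁ c (1 / 8) η z)
    (hs₂ : ∀ z ∈ U, χ z ≠ 0 → HS' τ W χ k Z v₂ c' (1 / 8) η z)
    (hp' : ∀ z ∈ U, χ z ≠ 0 → HP' σ τ v₁ v₂ W χ k g e Z p q c c' L₀ C₁ η z)
    (hη : 0 ≤ η) (hη1 : η * (C₁ + 10) ≤ 1 / 10) (hC1 : 0 ≤ C₁) (hδ : (C₁ + 1) * δ ≤ 1 / 8)
    (hL : (C₁ + 1) * C₂ + 1 ≤ L₀)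
    (kt : ∀ a b : E → ℝ, Te U a → Te U b →
      In U θ (fun z => χ z ^ 2 * (e z * (a z + b z) ^ 2)) ≤
      C₂ * In U θ (fun z => χ z ^ 2 * (g z * wq p q z (Ch.XX σ W a z) (Ch.XX τ W b z))) +
      δ * In U θ (fun z => χ z ^ 2 * sqd σ τ v₁ v₂ W a b z) +
      η * (In U θ (fun z => χ z ^ 2 * (k z * σ.F W z * a z ^ 2)) +
        In U θ (fun z => χ z ^ 2 * (k z * τ.F W z * b z ^ 2))) +
      In U θ (fun z => Z z * ud σ τ W g e p q a b z))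
    (hα : (Fintype.card α : ℝ) + 1 ≤ ν) (hι : (Fintype.card ι : ℝ) + 1 ≤ ν)
    (lt : ∀ z ∈ U, χ z ≠ 0 ∨ Z z ≠ 0 → Lt σ τ p q g e ν₀ A z)
    (nk : ∀ z ∈ U, χ z ≠ 0 → ν₀.k z = k z)
    (hk1 : ∀ z ∈ U, χ z ≠ 0 → 4 * (ν ^ 2 * A ^ 2) ≤ k z)
    (nF₁ : ∀ z ∈ U, χ z ≠ 0 ∨ Z z ≠ 0 → ν₀.F₁ z = σ.F W z)
    (nF₂ : ∀ z ∈ U, χ z ≠ 0 ∨ Z z ≠ 0 → ν₀.F₂ z = τ.F W z)
    (cg : ((MII ν₀).sm fun z => χ z ^ 2).Ct U)
    (cc : (cII ν₀ ((C₁ + 6) * (17 + 8 * (ν ^ 2 * A ^ 2))) Z).Ct U) :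
    Zone σ τ U θ v₁ v₂ W χ ((MII ν₀).sm fun z => χ z ^ 2)
      (cII ν₀ ((C₁ + 6) * (17 + 8 * (ν ^ 2 * A ^ 2))) Z) := by
  intro a b ha hb
  have hU := ok.op
  have key := zoneII' ok ot hv₁ hv₂ el₁ el₂ hW hχ hk hg he hZ hp hq hc hc' ha hb hk0 hg0 he0
    hZ0 hs₁ hs₂ hp' hη hη1 hC1 hδ hL (kt a b ha hb)
  have hχ2 : Sm U fun z => χ z ^ 2 := hχ.pow 2
  have t1 := (tsqd ok ot hv₁ hv₂ hW ha hb).mul_left hU hχ2
  have t2 := ((H86.Z.tsum ok hW ha).mul_left hU hk).mul_left hU hχ2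
  have t3 := ((H86.Z.tsum ot hW hb).mul_left hU hk).mul_left hU hχ2
  have t4 : Te U fun z => χ z ^ 2 * (k z * σ.F W z * a z ^ 2) :=
    ((ha.sq hU).mul_left hU (hk.mul (ok.sF hW))).mul_left hU hχ2
  have t5 : Te U fun z => χ z ^ 2 * (k z * τ.F W z * b z ^ 2) :=
    ((hb.sq hU).mul_left hU (hk.mul (ot.sF hW))).mul_left hU hχ2
  have t6 := ((twq ok ot hp hq hW ha hb).mul_left hU hg).mul_left hU hχ2
  have t7 := (((ha.add hU hb).sq hU).mul_left hU he).mul_left hU hχ2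
  have tu := (tud ok ot hp hq hg he hW ha hb).mul_left hU hZ
  have i1 := Q8.int_dens ok ot hv₁ hv₂ hW ha hb cg
  have i2 := Q8.int_dens ok ot hv₁ hv₂ hW ha hb cc
  -- the sum of the margins
  have tS := ((((((t1.cmul hU (1 / 2)).add hU t2).add hU t3).add hU (t4.cmul hU (1 / 4))).add hU
    (t5.cmul hU (1 / 4))).add hU (t6.cmul hU (1 / 2))).add hU (t7.cmul hU (1 / 2))
  have m1 : In U θ (((MII ν₀).sm fun z => χ z ^ 2).dens σ τ v₁ v₂ W a b) ≤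
      1 / 2 * In U θ (fun z => χ z ^ 2 * sqd σ τ v₁ v₂ W a b z) +
      In U θ (fun z => χ z ^ 2 * (k z * ∑ i, XX σ W a i z ^ 2)) +
      In U θ (fun z => χ z ^ 2 * (k z * ∑ i, XX τ W b i z ^ 2)) +
      1 / 4 * In U θ (fun z => χ z ^ 2 * (k z * σ.F W z * a z ^ 2)) +
      1 / 4 * In U θ (fun z => χ z ^ 2 * (k z * τ.F W z * b z ^ 2)) +
      1 / 2 * In U θ (fun z => χ z ^ 2 * (g z * wq p q z (Ch.XX σ W a z) (Ch.XX τ W b z))) +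
      1 / 2 * In U θ (fun z => χ z ^ 2 * (e z * (a z + b z) ^ 2)) := by
    rw [← In_cmul, ← In_cmul, ← In_cmul, ← In_cmul, ← In_cmul,
      ← In_add hU ok.ts (t1.cmul hU (1 / 2)) t2,
      ← In_add hU ok.ts ((t1.cmul hU (1 / 2)).add hU t2) t3,
      ← In_add hU ok.ts (((t1.cmul hU (1 / 2)).add hU t2).add hU t3) (t4.cmul hU (1 / 4)),
      ← In_add hU ok.ts ((((t1.cmul hU (1 / 2)).add hU t2).add hU t3).add hU
        (t4.cmul hU (1 / 4))) (t5.cmul hU (1 / 4)),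
      ← In_add hU ok.ts (((((t1.cmul hU (1 / 2)).add hU t2).add hU t3).add hU
        (t4.cmul hU (1 / 4))).add hU (t5.cmul hU (1 / 4))) (t6.cmul hU (1 / 2)),
      ← In_add hU ok.ts ((((((t1.cmul hU (1 / 2)).add hU t2).add hU t3).add hU
        (t4.cmul hU (1 / 4))).add hU (t5.cmul hU (1 / 4))).add hU (t6.cmul hU (1 / 2)))
        (t7.cmul hU (1 / 2))]
    refine In_le hU ok.tp i1 (te_int hU ok.ts tS) fun z hz => ?_
    rw [Q8.dens_sm]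
    by_cases hχz : χ z = 0
    · rw [hχz]; simp
    · have h := mg_le (v₁ := v₁) (v₂ := v₂) (a := a) (b := b) hα hι (el₁ z hz)
        (lt z hz (Or.inl hχz)) (nk z hz hχz) (nF₁ z hz (Or.inl hχz)) (nF₂ z hz (Or.inl hχz))
        (hk1 z hz hχz)
      have := mul_le_mul_of_nonneg_left h (sq_nonneg (χ z))
      refine this.trans (le_of_eq ?_)
      ring
  have m2 : (C₁ + 6) * In U θ (fun z => Z z * ud σ τ W g e p q a b z) ≤
      In U θ ((cII ν₀ ((C₁ + 6) * (17 + 8 * (ν ^ 2 * A ^ 2))) Z).dens σ τ v₁ v₂ W a b) := by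
    rw [← In_cmul]
    refine In_le hU ok.tp (te_int hU ok.ts (tu.cmul hU _)) i2 fun z hz => ?_
    by_cases hZz : Z z = 0
    · have e1 : (cII ν₀ ((C₁ + 6) * (17 + 8 * (ν ^ 2 * A ^ 2))) Z).dens σ τ v₁ v₂ W a b z = 0 := by
        unfold cII
        rw [Q8.dens_sm, hZz]; ring
      rw [e1, hZz]; simp
    · exact co_ge hα hι (el₁ z hz) (lt z hz (Or.inr hZz)) (nF₁ z hz (Or.inr hZz))
        (nF₂ z hz (Or.inr hZz)) ((el₁ z hz).F0 W) ((el₂ z hz).F0 W) hC1 (hZ0 z hz)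
  linarith

end integral

end Vale.Agent.P088.R2.H870.Z2
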