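import Vale.Agent.P088.R2.H870.Z2.Fin
import Vale.Agent.P088.R2.H814.B2.KT4

/-!
# P088, stage 3, zone II: the assembly with one pointwise structure
-/

open MeasureTheory Set Filter
open scoped ContDiff Topology

noncomputable section

namespace Vale.Agent.P088.R2.H870.Z2

open Vale.Agent.P088.R2.H961.GW Vale.Agent.P088.R2.H644 Vale.Agent.P088.R2.H960.W
  Vale.Agent.P088.R2.H747.S Vale.Agent.P088.R2.H551.E Vale.Agent.P088.R2.H86.Z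
  Vale.Agent.P088.R2.H972.E Vale.Agent.P088.R2.H165.Tab Vale.Agent.P088.R2.H814.B2

variable {E ι α : Type*} [NormedAddCommGroup E] [NormedSpace ℝ E] [Fintype ι] [Fintype α]

/-- The functions of zone II. -/
structure Fn (E ι α : Type*) where
  v₁ : E → ℝ
  v₂ : E → ℝ
  W : E → ℝ
  χ : E → ℝ
  /-- the convexity weight -/
  k : E → ℝ
  /-- `~ 2 / r²` -/
  g : E → ℝ
  /-- `~ 2 En²` -/
  e : E → ℝ
  /-- the cost letter -/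
  Z : E → ℝ
  /-- `ζ² = L g` -/
  ζ : E → ℝ
  /-- the frames -/
  p : α → ι → E → ℝ
  q : α → ι → E → ℝ
  /-- the fields -/
  c : ι → E → ℝ
  c' : ι → E → ℝ
  /-- the covectors of the fields -/
  C₁ : ι → E → ℝ
  C₂ : ι → E → ℝ

/-- The constants of zone II: `ν > card`, `A` sizes, `L` gain, `K₁` the constant of the zero order
terms. -/
structure Cs2 where
  ν : ℝ
  A : ℝ
  L : ℝ
  K₁ : ℝ

/-- `η`. -/
def Cs2.η (s : Cs2) : ℝ := 1 / (10 * (s.K₁ + 10))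

/-- `η'`. -/
def Cs2.η' (s : Cs2) : ℝ := 1 / (16 * (s.K₁ + 1))

/-- `L₀`. -/
def Cs2.L₀ (s : Cs2) : ℝ := (s.K₁ + 1) * (8 * s.L) + 1

/-- The constant of the cost. -/
def Cs2.cC (s : Cs2) : ℝ := (s.K₁ + 6) * (17 + 8 * (s.ν ^ 2 * s.A ^ 2))

/-- The constants are good. -/
structure Cs2.Ok (s : Cs2) : Prop where
  A1 : 1 ≤ s.A
  K0 : 0 ≤ s.K₁

/-- **The pointwise hypotheses of zone II** where `χ ≠ 0`. -/
structure PtII (σ τ : Sl E ι) (f : Fn E ι α) (s : Cs2) (En N r d dp : ℝ) (z : E) : Prop where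
  En0 : 0 < En
  r0 : 0 < r
  N0 : 0 ≤ N
  k1 : 4 * (s.ν ^ 2 * s.A ^ 2) ≤ f.k z
  /-- the frames -/
  mb : MB σ τ f.p f.q s.A r z
  /-- the fields -/
  fb : FB σ τ f.C₁ f.C₂ f.c f.c' s.A En N r (f.k z) z
  /-- the cut-off -/
  ct : Cut σ τ f.χ f.k f.Z s.ν s.A s.η En N r d dp z
  /-- the weight -/
  wb : W1 σ τ f.W s.A En N r z
  g₁ : 2 ≤ f.g z * r ^ 2
  g₂ : f.g z * r ^ 2 ≤ 4
  e₁ : 2 * En ^ 2 ≤ f.e z
  e₂ : f.e z ≤ 4 * En ^ 2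
  /-- the energies -/
  en₁ : |f.k z * σ.Λ f.W z + σ.Γ f.k f.W z| ≤ s.η * (f.k z * σ.F f.W z)
  en₂ : |f.k z * τ.Λ f.W z + τ.Γ f.k f.W z| ≤ s.η * (f.k z * τ.F f.W z)
  /-- the errors of the fields -/
  er₁ : ∀ a : E → ℝ, 8 * |eC σ f.c f.v₁ f.W a z| + 16 / (1 / 8) * cY σ f.c f.W a z ^ 2 ≤
    s.η * (f.k z * ((∑ i, YY σ f.W a i z ^ 2) + σ.F f.W z * a z ^ 2))
  er₂ : ∀ a : E → ℝ, 8 * |eC τ f.c' f.v₂ f.W a z| + 16 / (1 / 8) * cY τ f.c' f.W a z ^ 2 ≤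
    s.η * (f.k z * ((∑ i, YY τ f.W a i z ^ 2) + τ.F f.W z * a z ^ 2))
  /-- the certificate, with all zero order terms -/
  tot : ∀ (A : ι → ℝ) (B : ι → ℝ) (x y : ℝ),
    4 * (f.k z * ((∑ i, A i ^ 2) + ∑ j, B j ^ 2)) + s.L₀ * (f.g z * wq f.p f.q z A B) -
      s.K₁ * (f.e z * (x + y) ^ 2) -
      s.η * (f.k z * σ.F f.W z * x ^ 2 + f.k z * τ.F f.W z * y ^ 2) ≤
    8 * (Ch.TH σ τ f.W z A B + tc σ f.c f.W z A + tc τ f.c' f.W z B) +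
      qf σ τ f.v₁ f.v₂ f.W z A B x y +
      16 * (dF σ f.c f.W z * x ^ 2 + dF τ f.c' f.W z * y ^ 2)
  /-- helper814's hypotheses -/
  kp : KP σ τ f.p f.q f.v₁ f.v₂ f.W f.ζ f.k f.e s.η' s.η z

/-- Smoothness and signs of the functions. -/
structure Fn.Ok (f : Fn E ι α) (U : Set E) (s : Cs2) : Prop where
  v₁ : Sm U f.v₁
  v₂ : Sm U f.v₂
  W : Sm U f.W
  χ : Sm U f.χ
  k : Sm U f.k
  g : Sm U f.g
  e : Sm U f.e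
  Z : Sm U f.Z
  ζ : Sm U f.ζ
  c : ∀ i, Sm U (f.c i)
  c' : ∀ i, Sm U (f.c' i)
  k0 : ∀ z ∈ U, 0 ≤ f.k z
  g0 : ∀ z ∈ U, 0 ≤ f.g z
  e0 : ∀ z ∈ U, 0 ≤ f.e z
  Z0 : ∀ z ∈ U, 0 ≤ f.Z z
  L : ∀ z ∈ U, f.ζ z ^ 2 = s.L * f.g z

variable [MeasureSpace E] [FiniteDimensional ℝ E] [BorelSpace E]
  [(volume : Measure E).IsAddHaarMeasure]

variable {σ τ : Sl E ι} {U : Set E} {θ : E → ℝ} {f : Fn E ι α} {s : Cs2} {ν₀ : Nu E}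

/-- **Zone II from the pointwise structure.** -/
theorem zone_glue (F : Fr σ τ f.p f.q U θ) (fo : f.Ok U s) (so : s.Ok)
    (hα : (Fintype.card α : ℝ) + 1 ≤ s.ν) (hι : (Fintype.card ι : ℝ) + 1 ≤ s.ν)
    (el₁ : ∀ z ∈ U, El σ z) (el₂ : ∀ z ∈ U, El τ z)
    (pt : ∀ z ∈ U, f.χ z ≠ 0 → ∃ En N r d dp : ℝ, PtII σ τ f s En N r d dp z)
    (kz : ∀ z ∈ U, KZ σ τ f.p f.q f.W f.χ f.ζ f.e f.Z z)
    (lt : ∀ z ∈ U, f.χ z ≠ 0 ∨ f.Z z ≠ 0 → Lt σ τ f.p f.q f.g f.e ν₀ s.A z)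
    (nk : ∀ z ∈ U, f.χ z ≠ 0 → ν₀.k z = f.k z)
    (nF₁ : ∀ z ∈ U, f.χ z ≠ 0 ∨ f.Z z ≠ 0 → ν₀.F₁ z = σ.F f.W z)
    (nF₂ : ∀ z ∈ U, f.χ z ≠ 0 ∨ f.Z z ≠ 0 → ν₀.F₂ z = τ.F f.W z)
    (cg : ((MII ν₀).sm fun z => f.χ z ^ 2).Ct U) (cc : (cII ν₀ s.cC f.Z).Ct U) :
    Zone σ τ U θ f.v₁ f.v₂ f.W f.χ ((MII ν₀).sm fun z => f.χ z ^ 2) (cII ν₀ s.cC f.Z) := by
  have K0 := so.K0
  have hη : 0 < s.η := by unfold Cs2.η; positivity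
  have hη' : 0 < s.η' := by unfold Cs2.η'; positivity
  have hη1 : s.η * (s.K₁ + 10) ≤ 1 / 10 := by
    unfold Cs2.η
    have : s.K₁ + 10 ≠ 0 := by positivity
    field_simp
    exact le_rfl
  have hδ : (s.K₁ + 1) * (2 * s.η') ≤ 1 / 8 := by
    unfold Cs2.η'
    have : s.K₁ + 1 ≠ 0 := by positivity
    have e : (s.K₁ + 1) * (2 * (1 / (16 * (s.K₁ + 1)))) = 1 / 8 := by field_simp; norm_num
    rw [e]
  refine zone_MII (η := s.η) (L₀ := s.L₀) (C₁ := s.K₁) (C₂ := 8 * s.L) (δ := 2 * s.η')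
    F.ok F.ot fo.v₁ fo.v₂ el₁ el₂ fo.W fo.χ fo.k fo.g fo.e fo.Z F.hp F.hq fo.c fo.c' fo.k0 fo.g0
    fo.e0 fo.Z0 ?_ ?_ ?_ hη.le hη1 K0 hδ le_rfl ?_ hα hι lt nk ?_ nF₁ nF₂ cg cc
  · intro z hz hχ
    obtain ⟨En, N, r, d, dp, h⟩ := pt z hz hχ
    exact ⟨h.en₁, ch₁ so.A1 hι h.En0 h.r0 h.N0 hη (el₁ z hz) h.mb h.ct h.wb, h.er₁⟩
  · intro z hz hχ
    obtain ⟨En, N, r, d, dp, h⟩ := pt z hz hχ
    exact ⟨h.en₂, ch₂ so.A1 hι h.En0 h.r0 h.N0 hη (el₂ z hz) h.mb h.ct h.wb, h.er₂⟩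
  · intro z hz hχ
    obtain ⟨En, N, r, d, dp, h⟩ := pt z hz hχ
    refine ⟨h.tot, on' so.A1 hα hι h.En0 h.r0 h.N0 hη (el₁ z hz) (el₂ z hz) h.mb h.fb h.ct h.wb
      (by linarith [h.g₁]) (by nlinarith [h.e₁, sq_nonneg En])⟩
  · intro a b ha hb
    exact ktII F fo.v₁ fo.v₂ el₁ el₂ fo.W fo.χ fo.ζ fo.k fo.g fo.e fo.Z ha hb fo.k0 fo.g0 fo.e0
      fo.Z0 fo.L hη' hη.le (fun z hz hχ => by
        obtain ⟨En, N, r, d, dp, h⟩ := pt z hz hχ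
        exact h.kp) kz
  · intro z hz hχ
    obtain ⟨En, N, r, d, dp, h⟩ := pt z hz hχ
    exact h.k1

end Vale.Agent.P088.R2.H870.Z2
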