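import Vale.Agent.P088.R2.H814.B2.Kp3

/-!
# P088, stage 3, zone II: the input (kt) with a part of the gain for the cut-off

`ktII2`: helper814's `ktII`, where the condition with one derivative of `χ` may use `χ² e / 2`;
`kz2_of`: the conditions from `Z (e r²)² ≥ C d²`.
-/

open MeasureTheory Set Filter
open scoped ContDiff Topology

noncomputable section

namespace Vale.Agent.P088.R2.H870.Z2

open Vale.Agent.P088.R2.H961.GW Vale.Agent.P088.R2.H644 Vale.Agent.P088.R2.H960.W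
  Vale.Agent.P088.R2.H551.E Vale.Agent.P088.R2.H86.Z Vale.Agent.P088.R2.H814.B2
  Vale.Agent.P088.R2.H814.An

section pw

variable {E ι κ α : Type*} [NormedAddCommGroup E] [NormedSpace ℝ E] [Fintype ι] [Fintype κ]
  [Fintype α]

/-- The pointwise hypotheses with derivatives of `χ`. -/
structure KZ2 (σ : Sl E ι) (τ : Sl E κ) (p : α → ι → E → ℝ) (q : α → κ → E → ℝ)
    (W χ ζ e Z : E → ℝ) (z : E) : Prop where
  z1 : |2 * χ z * ∑ a, gg σ τ p q a χ z * (ζ z ^ 2 * gg σ τ p q a W z)| ≤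
    1 / 4 * (Z z * e z) + 1 / 2 * (χ z ^ 2 * e z)
  z2 : 40 * ∑ a, ζ z ^ 2 * gg σ τ p q a χ z ^ 2 ≤ 1 / 4 * (Z z * e z)

end pw

section pt

variable {E ι β : Type*} [NormedAddCommGroup E] [NormedSpace ℝ E] [Fintype ι] [Fintype β]
variable {σ τ : Sl E ι} {p q : β → ι → E → ℝ} {v₁ v₂ W ζ ee χ Z : E → ℝ}
  {r e N K lam Λ : ℝ} {z : E}

/-- The constant of `kz2_of`. -/
def cKZ (cβ cι K Λ : ℝ) : ℝ :=
  (4 * cβ * cι * K ^ 2 * Λ) ^ 2 / 2 + 80 * cβ * (2 * (cι * K)) ^ 2 * Λ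

omit [Fintype β] in
/-- The derivative of `χ` in the difference frame. -/
theorem kz_gg (b : Kb σ τ p q v₁ v₂ W r e N K z) (hK : 0 ≤ K) {d : ℝ}
    (d1 : ∀ i, |σ.D i χ z| ≤ d) (d2 : ∀ i, |τ.D i χ z| ≤ d) (a : β) :
    |gg σ τ p q a χ z| ≤ 2 * (Fintype.card ι * K) * d := by
  unfold H814.B2.gg fD
  refine (abs_sub _ _).trans ?_
  have t1 : |∑ i, p a i z * σ.D i χ z| ≤ Fintype.card ι * (K * d) := by
    refine (Finset.abs_sum_le_sum_abs _ _).trans ?_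
    have : ∀ i, |p a i z * σ.D i χ z| ≤ K * d := fun i => by
      rw [abs_mul]
      exact mul_le_mul (b.p1 a i) (d1 i) (abs_nonneg _) hK
    refine (Finset.sum_le_sum fun i _ => this i).trans (le_of_eq ?_)
    rw [Finset.sum_const, Finset.card_univ, nsmul_eq_mul]
  have t2 : |∑ i, q a i z * τ.D i χ z| ≤ Fintype.card ι * (K * d) := by
    refine (Finset.abs_sum_le_sum_abs _ _).trans ?_
    have : ∀ i, |q a i z * τ.D i χ z| ≤ K * d := fun i => by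
      rw [abs_mul]
      exact mul_le_mul (b.q1 a i) (d2 i) (abs_nonneg _) hK
    refine (Finset.sum_le_sum fun i _ => this i).trans (le_of_eq ?_)
    rw [Finset.sum_const, Finset.card_univ, nsmul_eq_mul]
  linarith

/-- The first sum. -/
theorem kz_1 (b : Kb σ τ p q v₁ v₂ W r e N K z) (hr : 0 < r) (he : 0 < e)
    (hK : 1 ≤ K) (hζ : ζ z ^ 2 * r ^ 2 = lam) (hΛ : lam ≤ Λ) {d : ℝ} (hd : 0 ≤ d)
    (d1 : ∀ i, |σ.D i χ z| ≤ d) (d2 : ∀ i, |τ.D i χ z| ≤ d) :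
    |2 * χ z * ∑ a, gg σ τ p q a χ z * (ζ z ^ 2 * gg σ τ p q a W z)| * r ≤
      (4 * Fintype.card β * Fintype.card ι * K ^ 2 * Λ) * (|χ z| * d * e) := by
  have K0 : 0 ≤ K := zero_le_one.trans hK
  have rr : 0 < r ^ 2 := by positivity
  have l0 : 0 ≤ lam := hζ ▸ by positivity
  have nb : (0 : ℝ) ≤ Fintype.card β := Nat.cast_nonneg _
  have ni : (0 : ℝ) ≤ Fintype.card ι := Nat.cast_nonneg _
  refine le_of_mul_le_mul_right ?_ hr
  have q1 : |∑ a, gg σ τ p q a χ z * (r ^ 2 * ζ z ^ 2 * gg σ τ p q a W z)| ≤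
      Fintype.card β * (2 * (Fintype.card ι * K) * d * (lam * (K * (e * r)))) := by
    refine (Finset.abs_sum_le_sum_abs _ _).trans ?_
    have : ∀ a, |gg σ τ p q a χ z * (r ^ 2 * ζ z ^ 2 * gg σ τ p q a W z)| ≤
        2 * (Fintype.card ι * K) * d * (lam * (K * (e * r))) := fun a => by
      rw [abs_mul, abs_mul]
      have : |r ^ 2 * ζ z ^ 2| = lam := by
        rw [abs_of_nonneg (by positivity), ← hζ]; ring
      rw [this]
      exact mul_le_mul (kz_gg b K0 d1 d2 a) (mul_le_mul_of_nonneg_left (b.G a) l0)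
        (by positivity) (by positivity)
    refine (Finset.sum_le_sum fun i _ => this i).trans (le_of_eq ?_)
    rw [Finset.sum_const, Finset.card_univ, nsmul_eq_mul]
  have q3 : ∑ a, gg σ τ p q a χ z * (r ^ 2 * ζ z ^ 2 * gg σ τ p q a W z) =
      r ^ 2 * ∑ a, gg σ τ p q a χ z * (ζ z ^ 2 * gg σ τ p q a W z) := by
    rw [Finset.mul_sum]
    exact Finset.sum_congr rfl fun a _ => by ring
  rw [q3, abs_mul, abs_of_pos rr] at q1
  rw [abs_mul, abs_mul, abs_two]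
  generalize |∑ a, gg σ τ p q a χ z * (ζ z ^ 2 * gg σ τ p q a W z)| = S at q1 ⊢
  have q4 := mul_le_mul_of_nonneg_left q1 (by positivity : 0 ≤ 2 * |χ z|)
  calc 2 * |χ z| * S * r * r = 2 * |χ z| * (r ^ 2 * S) := by ring
    _ ≤ _ := q4
    _ = 4 * Fintype.card β * Fintype.card ι * K ^ 2 * (|χ z| * d * e * r) * lam := by ring
    _ ≤ 4 * Fintype.card β * Fintype.card ι * K ^ 2 * (|χ z| * d * e * r) * Λ :=
      mul_le_mul_of_nonneg_left hΛ (by positivity)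
    _ = _ := by ring

/-- The second sum. -/
theorem kz_2 (b : Kb σ τ p q v₁ v₂ W r e N K z)
    (hK : 1 ≤ K) (hζ : ζ z ^ 2 * r ^ 2 = lam) (hΛ : lam ≤ Λ) {d : ℝ}
    (d1 : ∀ i, |σ.D i χ z| ≤ d) (d2 : ∀ i, |τ.D i χ z| ≤ d) :
    r ^ 2 * (40 * ∑ a, ζ z ^ 2 * gg σ τ p q a χ z ^ 2) ≤
      (80 * Fintype.card β * (2 * (Fintype.card ι * K)) ^ 2 * Λ * d ^ 2) / 2 := by
  have K0 : 0 ≤ K := zero_le_one.trans hK
  have l0 : 0 ≤ lam := hζ ▸ by positivity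
  have e1 : r ^ 2 * (40 * ∑ a, ζ z ^ 2 * gg σ τ p q a χ z ^ 2) ≤
      40 * (Fintype.card β * (lam * (2 * (Fintype.card ι * K) * d) ^ 2)) := by
    have q1 : r ^ 2 * (40 * ∑ a, ζ z ^ 2 * gg σ τ p q a χ z ^ 2) =
        40 * ∑ a, lam * gg σ τ p q a χ z ^ 2 := by
      rw [← hζ, Finset.mul_sum, Finset.mul_sum, Finset.mul_sum]
      exact Finset.sum_congr rfl fun a _ => by ring
    rw [q1]
    refine mul_le_mul_of_nonneg_left ?_ (by norm_num)
    have : ∀ a, lam * gg σ τ p q a χ z ^ 2 ≤ lam * (2 * (Fintype.card ι * K) * d) ^ 2 := by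
      intro a
      have h := pow_le_pow_left₀ (abs_nonneg _) (kz_gg b K0 d1 d2 a) 2
      rw [sq_abs] at h
      exact mul_le_mul_of_nonneg_left h l0
    refine (Finset.sum_le_sum fun i _ => this i).trans (le_of_eq ?_)
    rw [Finset.sum_const, Finset.card_univ, nsmul_eq_mul]
  have e2 : 40 * (Fintype.card β * (lam * (2 * (Fintype.card ι * K) * d) ^ 2)) ≤
      (80 * Fintype.card β * (2 * (Fintype.card ι * K)) ^ 2 * Λ * d ^ 2) / 2 := by
    have : 0 ≤ 40 * (Fintype.card β : ℝ) * (2 * (Fintype.card ι * K)) ^ 2 * d ^ 2 := by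
      positivity
    have h := mul_le_mul_of_nonneg_left hΛ this
    calc _ = 40 * (Fintype.card β : ℝ) * (2 * (Fintype.card ι * K)) ^ 2 * d ^ 2 * lam := by ring
      _ ≤ _ := h
      _ = _ := by ring
  exact e1.trans e2

/-- **`KZ2` from the size of `Z`.** -/
theorem kz2_of (b : Kb σ τ p q v₁ v₂ W r e N K z) (hr : 0 < r) (he : 0 < e)
    (hK : 1 ≤ K) (hζ : ζ z ^ 2 * r ^ 2 = lam) (hΛ : lam ≤ Λ) {d₀ : ℝ} (hd : 0 ≤ d₀)
    (d1 : ∀ i, |σ.D i χ z| ≤ d₀ / r) (d2 : ∀ i, |τ.D i χ z| ≤ d₀ / r)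
    (hee : 2 * e ^ 2 ≤ ee z) (hZ0 : 0 ≤ Z z)
    (hZ : cKZ (Fintype.card β) (Fintype.card ι) K Λ * d₀ ^ 2 ≤ Z z * (e * r ^ 2) ^ 2) :
    KZ2 σ τ p q W χ ζ ee Z z := by
  have K0 : 0 ≤ K := zero_le_one.trans hK
  have rr : 0 < r ^ 2 := by positivity
  have l0 : 0 ≤ lam := hζ ▸ by positivity
  have L0 : 0 ≤ Λ := l0.trans hΛ
  have nb : (0 : ℝ) ≤ Fintype.card β := Nat.cast_nonneg _
  have ni : (0 : ℝ) ≤ Fintype.card ι := Nat.cast_nonneg _
  have hd' : 0 ≤ d₀ / r := by positivity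
  have h1 := kz_1 b hr he hK hζ hΛ hd' d1 d2
  have h2 := kz_2 b hK hζ hΛ d1 d2
  have er : (d₀ / r) * r = d₀ := by field_simp
  generalize d₀ / r = d at hd' h1 h2 er
  set C₁ : ℝ := 4 * Fintype.card β * Fintype.card ι * K ^ 2 * Λ with hC
  set C₂ : ℝ := 80 * Fintype.card β * (2 * (Fintype.card ι * K)) ^ 2 * Λ with hC2
  have C0 : 0 ≤ C₁ := by positivity
  have C20 : 0 ≤ C₂ := by positivity
  have hZ' : (C₁ ^ 2 / 2 + C₂) * d ^ 2 ≤ Z z * e ^ 2 * r ^ 2 := by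
    refine le_of_mul_le_mul_right ?_ rr
    have : (C₁ ^ 2 / 2 + C₂) * d₀ ^ 2 ≤ Z z * (e * r ^ 2) ^ 2 := hZ
    rw [← er] at this
    calc _ = (C₁ ^ 2 / 2 + C₂) * (d * r) ^ 2 := by ring
      _ ≤ _ := this
      _ = _ := by ring
  have q1 : C₁ ^ 2 / 2 * d ^ 2 ≤ Z z * e ^ 2 * r ^ 2 := by
    have : 0 ≤ C₂ * d ^ 2 := by positivity
    linarith
  have q2 : C₂ * d ^ 2 ≤ Z z * e ^ 2 * r ^ 2 := by
    have : 0 ≤ C₁ ^ 2 / 2 * d ^ 2 := by positivity
    linarith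
  have hZe : Z z * (2 * e ^ 2) ≤ Z z * ee z := mul_le_mul_of_nonneg_left hee hZ0
  constructor
  · generalize |2 * χ z * ∑ a, gg σ τ p q a χ z * (ζ z ^ 2 * gg σ τ p q a W z)| = S at h1 ⊢
    have s1 : C₁ * (|χ z| * d * e) ≤ ((χ z ^ 2 * e ^ 2) + Z z * e ^ 2 / 2) * r := by
      refine le_of_mul_le_mul_right ?_ hr
      have a1 : C₁ * (|χ z| * d * e) * r ≤ (|χ z| * e * r) ^ 2 + (C₁ * d) ^ 2 / 4 := by
        nlinarith [sq_nonneg (|χ z| * e * r - C₁ * d / 2)]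
      have a2 : (|χ z| * e * r) ^ 2 = χ z ^ 2 * e ^ 2 * r ^ 2 := by
        rw [mul_pow, mul_pow, sq_abs]
      have a3 : (C₁ * d) ^ 2 / 4 = (C₁ ^ 2 / 2 * d ^ 2) / 2 := by ring
      rw [a2, a3] at a1
      calc _ ≤ χ z ^ 2 * e ^ 2 * r ^ 2 + (C₁ ^ 2 / 2 * d ^ 2) / 2 := a1
        _ ≤ χ z ^ 2 * e ^ 2 * r ^ 2 + (Z z * e ^ 2 * r ^ 2) / 2 := by linarith
        _ = _ := by ring
    have s2 : (χ z ^ 2 * e ^ 2) + Z z * e ^ 2 / 2 ≤
        1 / 4 * (Z z * ee z) + 1 / 2 * (χ z ^ 2 * ee z) := by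
      have := mul_le_mul_of_nonneg_left hee (sq_nonneg (χ z))
      linarith
    refine le_of_mul_le_mul_right ?_ hr
    exact (h1.trans s1).trans (mul_le_mul_of_nonneg_right s2 hr.le)
  · refine le_of_mul_le_mul_left ?_ rr
    have e3 := mul_le_mul_of_nonneg_left hZe rr.le
    linarith

end pt

section integral

variable {E ι κ α : Type*} [NormedAddCommGroup E] [NormedSpace ℝ E] [Fintype ι] [Fintype κ]
  [Fintype α]
variable [MeasureSpace E] [FiniteDimensional ℝ E] [BorelSpace E]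
  [(volume : Measure E).IsAddHaarMeasure]

variable {σ : Sl E ι} {τ : Sl E κ} {U : Set E} {θ : E → ℝ}
  {v₁ v₂ W a b ζ χ k g e Z : E → ℝ} {p : α → ι → E → ℝ} {q : α → κ → E → ℝ} {η' η L : ℝ}

/-- **The input (kt) of `zoneII`**, with a part of the gain in `z1`. -/
theorem ktII2 (F : Fr σ τ p q U θ) (h₁ : Sm U v₁) (h₂ : Sm U v₂)
    (el₁ : ∀ z ∈ U, El σ z) (el₂ : ∀ z ∈ U, El τ z) (hW : Sm U W)
    (hχ : Sm U χ) (hζ : Sm U ζ) (hk : Sm U k) (hg : Sm U g) (he : Sm U e) (hZ : Sm U Z)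
    (ha : Te U a) (hb : Te U b) (hg0 : ∀ z ∈ U, 0 ≤ g z)
    (he0 : ∀ z ∈ U, 0 ≤ e z) (hZ0 : ∀ z ∈ U, 0 ≤ Z z)
    (hL : ∀ z ∈ U, ζ z ^ 2 = L * g z) (hη' : 0 < η')
    (hp : ∀ z ∈ U, χ z ≠ 0 → KP σ τ p q v₁ v₂ W ζ k e η' η z)
    (hz' : ∀ z ∈ U, KZ2 σ τ p q W χ ζ e Z z) :
    In U θ (fun z => χ z ^ 2 * (e z * (a z + b z) ^ 2)) ≤
      8 * L * In U θ (fun z => χ z ^ 2 * (g z * wq p q z (Ch.XX σ W a z) (Ch.XX τ W b z))) +
      2 * η' * In U θ (fun z => χ z ^ 2 * sqd σ τ v₁ v₂ W a b z) +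
      η * (In U θ (fun z => χ z ^ 2 * (k z * σ.F W z * a z ^ 2)) +
        In U θ (fun z => χ z ^ 2 * (k z * τ.F W z * b z ^ 2))) +
      In U θ (fun z => Z z * ud σ τ W g e p q a b z) := by
  have hU := F.ok.op
  have ok := F.ok
  have ot := F.ot
  have hχ2 : Sm U fun z => χ z ^ 2 := hχ.pow 2
  have hζ2 : Sm U fun z => ζ z ^ 2 := hζ.pow 2
  have key := kt F h₁ h₂ hW ha hb (hχ.mul hζ) hχ (hχ.mul hζ2)
    (fun z _ => by ring) (ε := 1) (η := η') one_pos hη'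
  have sab := ha.add hU hb
  have dab := ha.sub hU hb
  -- the test functions
  have tE : Te U fun z => χ z ^ 2 * (e z * (a z + b z) ^ 2) :=
    ((sab.sq hU).mul_left hU he).mul_left hU hχ2
  have tQ : Te U fun z => χ z ^ 2 * (g z * wq p q z (Ch.XX σ W a z) (Ch.XX τ W b z)) :=
    ((twq ok ot F.hp F.hq hW ha hb).mul_left hU hg).mul_left hU hχ2
  have tsq := (tsqd ok ot h₁ h₂ hW ha hb).mul_left hU hχ2
  have tF1 : Te U fun z => χ z ^ 2 * (k z * σ.F W z * a z ^ 2) :=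
    ((ha.sq hU).mul_left hU (hk.mul (ok.sF hW))).mul_left hU hχ2
  have tF2 : Te U fun z => χ z ^ 2 * (k z * τ.F W z * b z ^ 2) :=
    ((hb.sq hU).mul_left hU (hk.mul (ot.sF hW))).mul_left hU hχ2
  have tud' := (tud ok ot F.hp F.hq hg he hW ha hb).mul_left hU hZ
  have tO : Te U fun z => kO σ τ p q W (fun z => (χ z * ζ z) ^ 2) z * (a z + b z) ^ 2 :=
    (sab.sq hU).mul_left hU (s_kO F hW ((hχ.mul hζ).pow 2))
  have tS : Te U fun z => kS σ τ p q (fun z => χ z * ζ z) (fun z => χ z * ζ z ^ 2) 1 η' z *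
      (a z + b z) ^ 2 := (sab.sq hU).mul_left hU (s_kS F (hχ.mul hζ) (hχ.mul hζ2) 1 η')
  have tT : Te U fun z => kT σ τ p q v₁ v₂ W (fun z => χ z * ζ z) 1 z * (a z - b z) ^ 2 :=
    (dab.sq hU).mul_left hU (s_kT F h₁ h₂ hW (hχ.mul hζ) 1)
  have tPP : Te U fun z => χ z ^ 2 * (σ.P v₁ W (fun z => a z - b z) z ^ 2 +
      τ.P v₂ W (fun z => a z - b z) z ^ 2) :=
    (((ok.tP h₁ hW dab).sq hU).add hU ((ot.tP h₂ hW dab).sq hU)).mul_left hU hχ2
  -- the unit density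
  have uZ : ∀ z ∈ U, e z * (a z + b z) ^ 2 ≤ ud σ τ W g e p q a b z := by
    intro z hz
    have h1 := mul_nonneg (hg0 z hz) (wq_nonneg p q z (Ch.XX σ W a z) (Ch.XX τ W b z))
    have h2 : 0 ≤ (∑ i, Ch.XX σ W a z i ^ 2) + ∑ i, Ch.XX τ W b z i ^ 2 :=
      add_nonneg (Finset.sum_nonneg fun _ _ => sq_nonneg _)
        (Finset.sum_nonneg fun _ _ => sq_nonneg _)
    have h3 := mul_nonneg ((el₁ z hz).F0 W) (sq_nonneg (a z))
    have h4 := mul_nonneg ((el₂ z hz).F0 W) (sq_nonneg (b z))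
    unfold ud Vale.Agent.P088.R2.H86.Z.uf
    linarith
  -- the comparisons
  have c1 : 5 / 4 * In U θ (fun z => χ z ^ 2 * (e z * (a z + b z) ^ 2)) -
      1 / 2 * In U θ (fun z => Z z * ud σ τ W g e p q a b z) ≤
      In U θ (fun z => kO σ τ p q W (fun z => (χ z * ζ z) ^ 2) z * (a z + b z) ^ 2) -
      In U θ (fun z => kS σ τ p q (fun z => χ z * ζ z) (fun z => χ z * ζ z ^ 2) 1 η' z *
        (a z + b z) ^ 2) := by
    rw [← In_cmul, ← In_cmul, ← In_sub hU ok.ts (tE.cmul hU _) (tud'.cmul hU _),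
      ← In_sub hU ok.ts tO tS]
    refine In_mono hU ok.tp ok.ts ((tE.cmul hU _).sub hU (tud'.cmul hU _)) (tO.sub hU tS)
      fun z hz => ?_
    have hk1 := kO_eq F hW hχ hζ hz
    have hk2 := kS_le F hχ hζ η' hz
    obtain ⟨z1, z2⟩ := hz' z hz
    have h1 := (abs_le.1 z1).1
    have hu := mul_le_mul_of_nonneg_left (uZ z hz) (hZ0 z hz)
    have s0 := sq_nonneg (a z + b z)
    have main : 5 / 4 * (χ z ^ 2 * e z) - 1 / 2 * (Z z * e z) ≤
        kO σ τ p q W (fun z => (χ z * ζ z) ^ 2) z -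
        kS σ τ p q (fun z => χ z * ζ z) (fun z => χ z * ζ z ^ 2) 1 η' z := by
      by_cases hχz : χ z = 0
      · rw [hk1]
        rw [hχz] at hk2 h1 ⊢
        nlinarith
      · have hP := hp z hz hχz
        have g1 := mul_le_mul_of_nonneg_left hP.gain (sq_nonneg (χ z))
        have g2 := mul_le_mul_of_nonneg_left hP.ls (sq_nonneg (χ z))
        rw [hk1]
        linarith
    have m2 := mul_le_mul_of_nonneg_right main s0
    nlinarith [m2, hu]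
  have c2 : In U θ (fun z => kT σ τ p q v₁ v₂ W (fun z => χ z * ζ z) 1 z * (a z - b z) ^ 2) ≤
      η * (In U θ (fun z => χ z ^ 2 * (k z * σ.F W z * a z ^ 2)) +
        In U θ (fun z => χ z ^ 2 * (k z * τ.F W z * b z ^ 2))) := by
    rw [← In_add hU ok.ts tF1 tF2, ← In_cmul]
    refine In_mono hU ok.tp ok.ts tT ((tF1.add hU tF2).cmul hU η) fun z hz => ?_
    rw [kT_eq]
    by_cases hχz : χ z = 0
    · rw [hχz]; simp
    · have hP := hp z hz hχz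
      set K := 2 * ζ z ^ 2 * (v₁ z - v₂ z) ^ 2 + ∑ a, (8 * (ζ z ^ 2 * kn σ τ p q W a z ^ 2) +
        2 * (ζ z ^ 2 * kk σ τ p q W a z ^ 2)) with hK
      have hK0 : 0 ≤ K := by
        refine add_nonneg (by positivity) (Finset.sum_nonneg fun i _ => by positivity)
      have h1 := mul_le_mul_of_nonneg_right hP.lt1 (sq_nonneg (a z))
      have h2 := mul_le_mul_of_nonneg_right hP.lt2 (sq_nonneg (b z))
      have h3 : K * (a z - b z) ^ 2 ≤ 2 * (K * a z ^ 2) + 2 * (K * b z ^ 2) := by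
        nlinarith [mul_nonneg hK0 (sq_nonneg (a z + b z))]
      have h4 : K * (a z - b z) ^ 2 ≤ η * (k z * σ.F W z * a z ^ 2 + k z * τ.F W z * b z ^ 2) := by
        linarith
      have h5 := mul_le_mul_of_nonneg_left h4 (sq_nonneg (χ z))
      linarith
  have c3 : In U θ (fun z => χ z ^ 2 * (σ.P v₁ W (fun z => a z - b z) z ^ 2 +
      τ.P v₂ W (fun z => a z - b z) z ^ 2)) ≤
      2 * In U θ (fun z => χ z ^ 2 * sqd σ τ v₁ v₂ W a b z) := by
    rw [← In_cmul]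
    refine In_mono hU ok.tp ok.ts tPP (tsq.cmul hU 2) fun z hz => ?_
    rw [P_sub' ok v₁ ha.sm hb.sm hz, P_sub' ot v₂ ha.sm hb.sm hz]
    have h1 := sq_nonneg (σ.P v₁ W a z + σ.P v₁ W b z)
    have h2 := sq_nonneg (τ.P v₂ W a z + τ.P v₂ W b z)
    have h3 := mul_nonneg (sq_nonneg (χ z)) h1
    have h4 := mul_nonneg (sq_nonneg (χ z)) h2
    unfold sqd
    nlinarith
  have c4 : In U θ (fun z => (χ z * ζ z) ^ 2 * ∑ r, (fX σ p W a r z - fX τ q W b r z) ^ 2) =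
      L * In U θ (fun z => χ z ^ 2 * (g z * wq p q z (Ch.XX σ W a z) (Ch.XX τ W b z))) := by
    rw [← In_cmul]
    refine In_congr hU fun z hz => ?_
    have e1 : wq p q z (Ch.XX σ W a z) (Ch.XX τ W b z) =
        ∑ r, (fX σ p W a r z - fX τ q W b r z) ^ 2 := rfl
    rw [e1, mul_pow, hL z hz]
    ring
  have n1 : 0 ≤ In U θ (fun z => ∑ r, (χ z * ζ z) ^ 2 *
      gg σ τ p q r (fun z => a z + b z) z ^ 2) :=
    In_nonneg hU ok.tp fun z _ => Finset.sum_nonneg fun _ _ => by positivity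
  have n2 : 0 ≤ In U θ (fun z => ∑ r, (χ z * ζ z) ^ 2 *
      Ks σ τ p q W r (fun z => a z - b z) z ^ 2) :=
    In_nonneg hU ok.tp fun z _ => Finset.sum_nonneg fun _ _ => by positivity
  have n3 : 0 ≤ In U θ (fun z => χ z ^ 2 * (e z * (a z + b z) ^ 2)) :=
    In_nonneg hU ok.tp fun z hz => mul_nonneg (sq_nonneg _)
      (mul_nonneg (he0 z hz) (sq_nonneg _))
  have n4 : 0 ≤ In U θ (fun z => Z z * ud σ τ W g e p q a b z) :=
    In_nonneg hU ok.tp fun z hz => mul_nonneg (hZ0 z hz)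
      ((mul_nonneg (he0 z hz) (sq_nonneg _)).trans (uZ z hz))
  rw [c4] at key
  have c5 := mul_le_mul_of_nonneg_left c3 hη'.le
  linarith

end integral

end Vale.Agent.P088.R2.H870.Z2
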