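import Vale.Agent.P088.R2.H870.Z2.Glue
import Vale.Agent.P088.R2.H870.Z2.KT5

/-!
# P088, stage 3, zone II: the assembly, second form

`FB0`: the bounds of the fields without their derivatives (helper606); `PtII2`, `zone_glue2`:
`PtII`, `zone_glue` with `FB0` and `KZ2`.
-/

open MeasureTheory Set Filter
open scoped ContDiff Topology

noncomputable section

namespace Vale.Agent.P088.R2.H870.Z2

open Vale.Agent.P088.R2.H961.GW Vale.Agent.P088.R2.H644 Vale.Agent.P088.R2.H960.W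
  Vale.Agent.P088.R2.H747.S Vale.Agent.P088.R2.H551.E Vale.Agent.P088.R2.H86.Z
  Vale.Agent.P088.R2.H972.E Vale.Agent.P088.R2.H165.Tab Vale.Agent.P088.R2.H814.B2

variable {E ι α : Type*} [NormedAddCommGroup E] [NormedSpace ℝ E] [Fintype ι] [Fintype α]

/-- The fields `c = s₁ C₁`, `c' = s₂ C₂`: no derivatives. -/
structure FB0 (σ τ : Sl E ι) (C₁ C₂ c c' : ι → E → ℝ) (A En N r k : ℝ) (z : E) : Prop where
  e₁ : ∀ i, c i z = ∑ j, σ.s i j z * C₁ j z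
  e₂ : ∀ i, c' i z = ∑ j, τ.s i j z * C₂ j z
  b₁ : ∀ j, |C₁ j z| ≤ A
  b₂ : ∀ j, |C₂ j z| ≤ A
  df : ∀ j, |C₁ j z - C₂ j z| ≤ A * (r + (N + k) / (En * r))

section

variable {σ τ : Sl E ι} {C₁ C₂ c c' : ι → E → ℝ} {A En N r k : ℝ} {z : E}

omit [Fintype ι] in
theorem D_cst (σ : Sl E ι) (i : ι) (t : ℝ) (z : E) : σ.D i (fun _ => t) z = 0 := by
  unfold Sl.D
  simp

theorem FB.to0 (h : FB σ τ C₁ C₂ c c' A En N r k z) :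
    FB0 σ τ C₁ C₂ c c' A En N r k z :=
  ⟨h.e₁, h.e₂, h.b₁, h.b₂, h.df⟩

/-- The fields, frozen at the point. -/
theorem FB0.fr (h : FB0 σ τ C₁ C₂ c c' A En N r k z) (hA : 0 ≤ A) (hE : 0 < En) (hN : 0 ≤ N)
    (hr : 0 < r) (hk : 0 ≤ k) :
    FB σ τ C₁ C₂ (fun i _ => c i z) (fun i _ => c' i z) A En N r k z :=
  { e₁ := h.e₁
    e₂ := h.e₂
    b₁ := h.b₁
    b₂ := h.b₂
    df := h.df
    d₁ := fun i l => by rw [D_cst, abs_zero]; positivity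
    d₂ := fun i l => by rw [D_cst, abs_zero]; positivity }

/-- The field `on`, without derivatives of the fields. -/
theorem on0 {p q : α → ι → E → ℝ} {W g e χ f Z : E → ℝ} {ν η d₀ dp : ℝ}
    (hA : 1 ≤ A) (hα : (Fintype.card α : ℝ) + 1 ≤ ν)
    (hι : (Fintype.card ι : ℝ) + 1 ≤ ν) (hEn : 0 < En) (hr : 0 < r) (hN : 0 ≤ N)
    (hη : 0 < η) (el₁ : El σ z) (el₂ : El τ z) (mb : MB σ τ p q A r z)
    (fb : FB0 σ τ C₁ C₂ c c' A En N r (f z) z) (ct : Cut σ τ χ f Z ν A η En N r d₀ dp z)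
    (wb : W1 σ τ W A En N r z) (hg : 1 ≤ g z * r ^ 2) (he : En ^ 2 ≤ e z)
    (X Y : ι → ℝ) (x y : ℝ) :
    |2 * χ z * (8 * (onf σ c χ z (fun i => 2 * x * σ.D i W z - X i) +
        onf τ c' χ z (fun i => 2 * y * τ.D i W z - Y i)) +
      16 * (cD σ c χ z * σ.F W z * x ^ 2 + cD τ c' χ z * τ.F W z * y ^ 2))| ≤
    Z z * H86.Z.uf σ τ W g e p q z X Y x y + η * (χ z ^ 2 * um σ τ W f g e p q z X Y x y) :=
  on' (c := fun i _ => c i z) (c' := fun i _ => c' i z) hA hα hι hEn hr hN hη el₁ el₂ mb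
    (fb.fr (by linarith) hEn hN hr ct.k0.le) ct wb hg he X Y x y

end

/-- **The pointwise hypotheses of zone II** where `χ ≠ 0`. -/
structure PtII2 (σ τ : Sl E ι) (f : Fn E ι α) (s : Cs2) (En N r d dp : ℝ) (z : E) : Prop where
  En0 : 0 < En
  r0 : 0 < r
  N0 : 0 ≤ N
  k1 : 4 * (s.ν ^ 2 * s.A ^ 2) ≤ f.k z
  /-- the frames -/
  mb : MB σ τ f.p f.q s.A r z
  /-- the fields -/
  fb : FB0 σ τ f.C₁ f.C₂ f.c f.c' s.A En N r (f.k z) z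
  /-- the cut-off -/
  ct : Cut σ τ f.χ f.k f.Z s.ν s.A s.η En N r d dp z
  /-- the weight -/
  wb : W1 σ τ f.W s.A En N r z
  g₁ : 2 ≤ f.g z * r ^ 2
  g₂ : f.g z * r ^ 2 ≤ 4
  e₁ : 2 * En ^ 2 ≤ f.e z
  e₂ : f.e z ≤ 4 * En ^ 2
  /-- the energies -/
  en₁ : |f.k z * σ.Λ f.W z + σ.Γ f.k f.W z| ≤ s.η * (f.k z * σ.F f.W z)
  en₂ : |f.k z * τ.Λ f.W z + τ.Γ f.k f.W z| ≤ s.η * (f.k z * τ.F f.W z)
  /-- the errors of the fields -/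
  er₁ : ∀ a : E → ℝ, 8 * |eC σ f.c f.v₁ f.W a z| + 16 / (1 / 8) * cY σ f.c f.W a z ^ 2 ≤
    s.η * (f.k z * ((∑ i, YY σ f.W a i z ^ 2) + σ.F f.W z * a z ^ 2))
  er₂ : ∀ a : E → ℝ, 8 * |eC τ f.c' f.v₂ f.W a z| + 16 / (1 / 8) * cY τ f.c' f.W a z ^ 2 ≤
    s.η * (f.k z * ((∑ i, YY τ f.W a i z ^ 2) + τ.F f.W z * a z ^ 2))
  /-- the certificate, with all zero order terms -/
  tot : ∀ (A : ι → ℝ) (B : ι → ℝ) (x y : ℝ),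
    4 * (f.k z * ((∑ i, A i ^ 2) + ∑ j, B j ^ 2)) + s.L₀ * (f.g z * wq f.p f.q z A B) -
      s.K₁ * (f.e z * (x + y) ^ 2) -
      s.η * (f.k z * σ.F f.W z * x ^ 2 + f.k z * τ.F f.W z * y ^ 2) ≤
    8 * (Ch.TH σ τ f.W z A B + tc σ f.c f.W z A + tc τ f.c' f.W z B) +
      qf σ τ f.v₁ f.v₂ f.W z A B x y +
      16 * (dF σ f.c f.W z * x ^ 2 + dF τ f.c' f.W z * y ^ 2)
  /-- helper814's hypotheses -/
  kp : KP σ τ f.p f.q f.v₁ f.v₂ f.W f.ζ f.k f.e s.η' s.η z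

variable [MeasureSpace E] [FiniteDimensional ℝ E] [BorelSpace E]
  [(volume : Measure E).IsAddHaarMeasure]

variable {σ τ : Sl E ι} {U : Set E} {θ : E → ℝ} {f : Fn E ι α} {s : Cs2} {ν₀ : Nu E}

/-- **Zone II from the pointwise structure.** -/
theorem zone_glue2 (F : Fr σ τ f.p f.q U θ) (fo : f.Ok U s) (so : s.Ok)
    (hα : (Fintype.card α : ℝ) + 1 ≤ s.ν) (hι : (Fintype.card ι : ℝ) + 1 ≤ s.ν)
    (el₁ : ∀ z ∈ U, El σ z) (el₂ : ∀ z ∈ U, El τ z)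
    (pt : ∀ z ∈ U, f.χ z ≠ 0 → ∃ En N r d dp : ℝ, PtII2 σ τ f s En N r d dp z)
    (kz : ∀ z ∈ U, KZ2 σ τ f.p f.q f.W f.χ f.ζ f.e f.Z z)
    (lt : ∀ z ∈ U, f.χ z ≠ 0 ∨ f.Z z ≠ 0 → Lt σ τ f.p f.q f.g f.e ν₀ s.A z)
    (nk : ∀ z ∈ U, f.χ z ≠ 0 → ν₀.k z = f.k z)
    (nF₁ : ∀ z ∈ U, f.χ z ≠ 0 ∨ f.Z z ≠ 0 → ν₀.F₁ z = σ.F f.W z)
    (nF₂ : ∀ z ∈ U, f.χ z ≠ 0 ∨ f.Z z ≠ 0 → ν₀.F₂ z = τ.F f.W z)
    (cg : ((MII ν₀).sm fun z => f.χ z ^ 2).Ct U) (cc : (cII ν₀ s.cC f.Z).Ct U) :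
    Zone σ τ U θ f.v₁ f.v₂ f.W f.χ ((MII ν₀).sm fun z => f.χ z ^ 2) (cII ν₀ s.cC f.Z) := by
  have K0 := so.K0
  have hη : 0 < s.η := by unfold Cs2.η; positivity
  have hη' : 0 < s.η' := by unfold Cs2.η'; positivity
  have hη1 : s.η * (s.K₁ + 10) ≤ 1 / 10 := by
    unfold Cs2.η
    have : s.K₁ + 10 ≠ 0 := by positivity
    field_simp
    exact le_rfl
  have hδ : (s.K₁ + 1) * (2 * s.η') ≤ 1 / 8 := by
    unfold Cs2.η'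
    have : s.K₁ + 1 ≠ 0 := by positivity
    have e : (s.K₁ + 1) * (2 * (1 / (16 * (s.K₁ + 1)))) = 1 / 8 := by field_simp; norm_num
    rw [e]
  refine zone_MII (η := s.η) (L₀ := s.L₀) (C₁ := s.K₁) (C₂ := 8 * s.L) (δ := 2 * s.η')
    F.ok F.ot fo.v₁ fo.v₂ el₁ el₂ fo.W fo.χ fo.k fo.g fo.e fo.Z F.hp F.hq fo.c fo.c' fo.k0 fo.g0
    fo.e0 fo.Z0 ?_ ?_ ?_ hη.le hη1 K0 hδ le_rfl ?_ hα hι lt nk ?_ nF₁ nF₂ cg cc
  · intro z hz hχ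
    obtain ⟨En, N, r, d, dp, h⟩ := pt z hz hχ
    exact ⟨h.en₁, ch₁ so.A1 hι h.En0 h.r0 h.N0 hη (el₁ z hz) h.mb h.ct h.wb, h.er₁⟩
  · intro z hz hχ
    obtain ⟨En, N, r, d, dp, h⟩ := pt z hz hχ
    exact ⟨h.en₂, ch₂ so.A1 hι h.En0 h.r0 h.N0 hη (el₂ z hz) h.mb h.ct h.wb, h.er₂⟩
  · intro z hz hχ
    obtain ⟨En, N, r, d, dp, h⟩ := pt z hz hχ
    refine ⟨h.tot, on0 so.A1 hα hι h.En0 h.r0 h.N0 hη (el₁ z hz) (el₂ z hz) h.mb h.fb h.ct h.wb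
      (by linarith [h.g₁]) (by nlinarith [h.e₁, sq_nonneg En])⟩
  · intro a b ha hb
    exact ktII2 F fo.v₁ fo.v₂ el₁ el₂ fo.W fo.χ fo.ζ fo.k fo.g fo.e fo.Z ha hb fo.g0 fo.e0
      fo.Z0 fo.L hη' (fun z hz hχ => by
        obtain ⟨En, N, r, d, dp, h⟩ := pt z hz hχ
        exact h.kp) kz
  · intro z hz hχ
    obtain ⟨En, N, r, d, dp, h⟩ := pt z hz hχ
    exact h.k1

end Vale.Agent.P088.R2.H870.Z2
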