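import Vale.Agent.P088.R2.H870.Z2.On4
import Vale.Agent.P088.R2.H814.B2.KT4

/-!
# P088, stage 3, zone II: the hypotheses `KP`, `KZ` of `ktII` from pointwise bounds

`m = En r²`.  The gain is `ζ² |ω|²`, `ω = p DW - q D'W`, `|ω| ≥ En r / A`.
-/

open Set Filter
open scoped ContDiff Topology

noncomputable section

namespace Vale.Agent.P088.R2.H870.Z2

open Vale.Agent.P088.R2.H961.GW Vale.Agent.P088.R2.H960.W Vale.Agent.P088.R2.H86.Z
  Vale.Agent.P088.R2.H814.B2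

variable {E ι α : Type*} [NormedAddCommGroup E] [NormedSpace ℝ E] [Fintype ι] [Fintype α]

/-- The bounds of the frames, the second derivatives of `W` and of `ζ` at a point. -/
structure KB (σ τ : Sl E ι) (p q : α → ι → E → ℝ) (v₁ v₂ W ζ g : E → ℝ)
    (A L En r : ℝ) (z : E) : Prop where
  p0 : ∀ a i, |p a i z| ≤ A
  q0 : ∀ a i, |q a i z| ≤ A
  p1 : ∀ a i j, |σ.D j (p a i) z| ≤ A
  q1 : ∀ a i j, |τ.D j (q a i) z| ≤ A
  fl₁ : ∀ a, |fl σ p a z| ≤ A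
  fl₂ : ∀ a, |fl τ q a z| ≤ A
  gr1 : ∀ a, |gg σ τ p q a (gr σ τ p q a) z| ≤ A
  xx : ∀ i j, |σ.D i (σ.D j W) z| ≤ A * En
  xy : ∀ i j, |σ.D i (τ.D j W) z| ≤ A * En
  yx : ∀ i j, |τ.D i (σ.D j W) z| ≤ A * En
  yy : ∀ i j, |τ.D i (τ.D j W) z| ≤ A * En
  ζ0 : 0 ≤ ζ z
  ζx : ∀ i, |σ.D i ζ z| ≤ A * (ζ z / r)
  ζy : ∀ i, |τ.D i ζ z| ≤ A * (ζ z / r)
  v : |v₁ z - v₂ z| ≤ A
  L : ζ z ^ 2 = L * g z
  g₁ : 2 ≤ g z * r ^ 2
  g₂ : g z * r ^ 2 ≤ 4

/-! ## Sums -/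

theorem sum_le_card {β : Type*} [Fintype β] {f : β → ℝ} {t : ℝ} (h : ∀ i, |f i| ≤ t) :
    |∑ i, f i| ≤ Fintype.card β * t := by
  refine (Finset.abs_sum_le_sum_abs _ _).trans ?_
  have : ∑ i, |f i| ≤ ∑ _i : β, t := Finset.sum_le_sum fun i _ => h i
  rwa [Finset.sum_const, Finset.card_univ, nsmul_eq_mul] at this

section

variable {σ τ : Sl E ι} {p q : α → ι → E → ℝ} {U : Set E} {θ : E → ℝ}
  {v₁ v₂ W ζ g χ f k e Z : E → ℝ} {A L En N r ν d₀ η η' : ℝ} {z : E}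

omit [Fintype α] in
/-- `|p_a · D f|`. -/
theorem fD_le (hι : (Fintype.card ι : ℝ) + 1 ≤ ν) (hA : 0 ≤ A) (hp : ∀ a i, |p a i z| ≤ A)
    {t : ℝ} (ht : 0 ≤ t) (hf : ∀ i, |σ.D i f z| ≤ t) (a : α) : |fD σ p a f z| ≤ ν * (A * t) := by
  have h := sum_le_card (f := fun i => p a i z * σ.D i f z) (t := A * t) fun i => by
    rw [abs_mul]; exact mul_le_mul (hp a i) (hf i) (abs_nonneg _) hA
  exact h.trans (mul_le_mul_of_nonneg_right (by linarith) (mul_nonneg hA ht))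

omit [Fintype α] in
theorem gg_le (hι : (Fintype.card ι : ℝ) + 1 ≤ ν) (hA : 0 ≤ A) (hp : ∀ a i, |p a i z| ≤ A)
    (hq : ∀ a i, |q a i z| ≤ A) {t : ℝ} (ht : 0 ≤ t) (hf : ∀ i, |σ.D i f z| ≤ t)
    (hf' : ∀ i, |τ.D i f z| ≤ t) (a : α) : |gg σ τ p q a f z| ≤ 2 * ν * (A * t) := by
  have h1 := fD_le (σ := σ) (p := p) hι hA hp ht hf a
  have h2 := fD_le (σ := τ) (p := q) hι hA hq ht hf' a
  unfold gg
  have := abs_sub (fD σ p a f z) (fD τ q a f z)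
  linarith

/-- The second difference derivative of `W`. -/
theorem gg2_le (F : Fr σ τ p q U θ) (hW : Sm U W) (hz : z ∈ U)
    (hι : (Fintype.card ι : ℝ) + 1 ≤ ν) (hA : 1 ≤ A) (hEn : 0 < En) (hr1 : r ≤ 1)
    (kb : KB σ τ p q v₁ v₂ W ζ g A L En r z) (wx : ∀ i, |σ.D i W z| ≤ A * (En * r))
    (wy : ∀ i, |τ.D i W z| ≤ A * (En * r)) (a : α) :
    |gg σ τ p q a (gg σ τ p q a W) z| ≤ 6 * ν ^ 2 * (A ^ 3 * En) := by
  have hU := F.ok.op
  have hA0 : 0 ≤ A := by linarith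
  have hν0 : 0 ≤ ν := by
    have : (0 : ℝ) ≤ Fintype.card ι := Nat.cast_nonneg _
    linarith
  have sD1 := fun i => F.ok.sD hW i
  have sD2 := fun i => F.ot.sD hW i
  have Er : A * (En * r) ≤ A * En := by
    have : En * r ≤ En := mul_le_of_le_one_right hEn.le hr1
    exact mul_le_mul_of_nonneg_left this hA0
  -- the derivative in a direction of the first slot
  have e1 : ∀ j, σ.D j (gg σ τ p q a W) z = ∑ i, (σ.D j (p a i) z * σ.D i W z +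
      p a i z * σ.D j (σ.D i W) z - q a i z * σ.D j (τ.D i W) z) := by
    intro j
    have e : gg σ τ p q a W = fun z => (∑ i, p a i z * σ.D i W z) - ∑ i, q a i z * τ.D i W z := rfl
    rw [e, D_sub σ hU (Sm.sum _ fun i _ => (F.hp a i).mul (sD1 i))
      (Sm.sum _ fun i _ => (F.hq a i).mul (sD2 i)) j hz,
      D_sum σ hU _ (fun i _ => (F.hp a i).mul (sD1 i)) j hz,
      D_sum σ hU _ (fun i _ => (F.hq a i).mul (sD2 i)) j hz, ← Finset.sum_sub_distrib]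
    refine Finset.sum_congr rfl fun i _ => ?_
    rw [D_mul σ hU (F.hp a i) (sD1 i) j hz, D_mul σ hU (F.hq a i) (sD2 i) j hz,
      F.hq0 z hz a i j]
    ring
  have e2 : ∀ j, τ.D j (gg σ τ p q a W) z = ∑ i, (p a i z * τ.D j (σ.D i W) z -
      (τ.D j (q a i) z * τ.D i W z + q a i z * τ.D j (τ.D i W) z)) := by
    intro j
    have e : gg σ τ p q a W = fun z => (∑ i, p a i z * σ.D i W z) - ∑ i, q a i z * τ.D i W z := rfl
    rw [e, D_sub τ hU (Sm.sum _ fun i _ => (F.hp a i).mul (sD1 i))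
      (Sm.sum _ fun i _ => (F.hq a i).mul (sD2 i)) j hz,
      D_sum τ hU _ (fun i _ => (F.hp a i).mul (sD1 i)) j hz,
      D_sum τ hU _ (fun i _ => (F.hq a i).mul (sD2 i)) j hz, ← Finset.sum_sub_distrib]
    refine Finset.sum_congr rfl fun i _ => ?_
    rw [D_mul τ hU (F.hp a i) (sD1 i) j hz, D_mul τ hU (F.hq a i) (sD2 i) j hz,
      F.hp0 z hz a i j]
    ring
  have m3 : ∀ x y : ℝ, |x| ≤ A → |y| ≤ A * En → |x * y| ≤ A ^ 2 * En := by
    intro x y hx hy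
    rw [abs_mul]
    calc _ ≤ A * (A * En) := mul_le_mul hx hy (abs_nonneg _) hA0
      _ = _ := by ring
  have b1 : ∀ j, |σ.D j (gg σ τ p q a W) z| ≤ ν * (3 * (A ^ 2 * En)) := by
    intro j
    rw [e1]
    have h := sum_le_card (f := fun i => σ.D j (p a i) z * σ.D i W z +
      p a i z * σ.D j (σ.D i W) z - q a i z * σ.D j (τ.D i W) z) (t := 3 * (A ^ 2 * En))
      fun i => by
        have a1 := m3 _ _ (kb.p1 a i j) ((wx i).trans Er)
        have a2 := m3 _ _ (kb.p0 a i) (kb.xx j i)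
        have a3 := m3 _ _ (kb.q0 a i) (kb.xy j i)
        have a4 := abs_sub (σ.D j (p a i) z * σ.D i W z + p a i z * σ.D j (σ.D i W) z)
          (q a i z * σ.D j (τ.D i W) z)
        have a5 := abs_add_le (σ.D j (p a i) z * σ.D i W z) (p a i z * σ.D j (σ.D i W) z)
        linarith
    exact h.trans (mul_le_mul_of_nonneg_right (by linarith) (by positivity))
  have b2 : ∀ j, |τ.D j (gg σ τ p q a W) z| ≤ ν * (3 * (A ^ 2 * En)) := by
    intro j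
    rw [e2]
    have h := sum_le_card (f := fun i => p a i z * τ.D j (σ.D i W) z -
      (τ.D j (q a i) z * τ.D i W z + q a i z * τ.D j (τ.D i W) z)) (t := 3 * (A ^ 2 * En))
      fun i => by
        have a1 := m3 _ _ (kb.q1 a i j) ((wy i).trans Er)
        have a2 := m3 _ _ (kb.p0 a i) (kb.yx j i)
        have a3 := m3 _ _ (kb.q0 a i) (kb.yy j i)
        have a4 := abs_sub (p a i z * τ.D j (σ.D i W) z)
          (τ.D j (q a i) z * τ.D i W z + q a i z * τ.D j (τ.D i W) z)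
        have a5 := abs_add_le (τ.D j (q a i) z * τ.D i W z) (q a i z * τ.D j (τ.D i W) z)
        linarith
    exact h.trans (mul_le_mul_of_nonneg_right (by linarith) (by positivity))
  have h := gg_le (f := gg σ τ p q a W) hι hA0 kb.p0 kb.q0
    (by positivity : 0 ≤ ν * (3 * (A ^ 2 * En))) b1 b2 a
  calc _ ≤ _ := h
    _ = _ := by ring

/-- Components and the sum of squares of `ω = p DW - q D'W`. -/
theorem om_ge (hA : 1 ≤ A) (hα : (Fintype.card α : ℝ) + 1 ≤ ν)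
    (hι : (Fintype.card ι : ℝ) + 1 ≤ ν) (hr : 0 < r) (hEn : 0 < En) (hN : 0 ≤ N)
    (el : El σ z) (mb : MB σ τ p q A r z) (wb : W1 σ τ W A En N r z)
    (hs : KC ν A * A * (N + En * r ^ 2) ≤ En * r) :
    (En * r) ^ 2 / A ^ 2 ≤ ∑ a, gg σ τ p q a W z ^ 2 := by
  set P : α → ι → ℝ := fun a i => p a i z with hP
  set Q : α → ι → ℝ := fun a i => q a i z with hQ
  set w : ι → ℝ := fun i => σ.D i W z with hw
  set w' : ι → ℝ := fun i => τ.D i W z with hw'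
  have hA0 : 0 < A := by linarith
  have hν : 1 ≤ ν := by
    have : (0 : ℝ) ≤ Fintype.card ι := Nat.cast_nonneg _
    linarith
  have K1 := KC_one hA hν
  have F1 : σ.F W z = dt (mv P w) (mv P w) := by rw [dt_mv mb.f₁]; rfl
  have hV := wb.F₁
  rw [F1] at hV
  have Er : 0 < En * r := by positivity
  have M1 : 1 + N / (En * r ^ 2) ≤ 1 + N / (En * r ^ 2) := le_rfl
  have g6 := geo_w hA hα hι hr hEn hN le_rfl M1 mb.f₁ el.up mb.df wb.y wb.s hV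
  have n0 := nm_nonneg (mv P w)
  -- `|ŵ| ≥ En r / A`
  have hV' : En * r ≤ A * nm (mv P w) := by
    rw [← nm_sq] at hV
    refine le_of_sq_le_sq ?_ (mul_nonneg hA0.le n0)
    have : A * nm (mv P w) ^ 2 ≤ A ^ 2 * nm (mv P w) ^ 2 :=
      mul_le_mul_of_nonneg_right (by nlinarith) (sq_nonneg _)
    rw [mul_pow]; linarith
  -- `|ŵ + ŵ'| ≤ |ŵ|`
  have s1 : nm (mv P w + mv Q w') ≤ nm (mv P w) := by
    have a1 : 1 / r * nm (mv P w + mv Q w') ≤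
        KC ν A * (1 + N / (En * r ^ 2)) * nm (mv P w) := by
      rw [one_mul] at g6; exact g6
    have a2 : nm (mv P w + mv Q w') ≤ r * (KC ν A * (1 + N / (En * r ^ 2))) * nm (mv P w) := by
      have := mul_le_mul_of_nonneg_left a1 hr.le
      have e : r * (1 / r * nm (mv P w + mv Q w')) = nm (mv P w + mv Q w') := by field_simp
      rw [e] at this
      linarith
    have a3 : r * (KC ν A * (1 + N / (En * r ^ 2))) ≤ 1 := by
      have e : r * (KC ν A * (1 + N / (En * r ^ 2))) =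
          KC ν A * (N + En * r ^ 2) / (En * r) := by
        field_simp
        ring
      rw [e, div_le_one Er]
      have p1 : 0 ≤ KC ν A * (N + En * r ^ 2) := by positivity
      have : KC ν A * (N + En * r ^ 2) ≤ KC ν A * (N + En * r ^ 2) * A :=
        le_mul_of_one_le_right p1 hA
      linarith
    have := mul_le_mul_of_nonneg_right a3 n0
    linarith
  have s2 : nm (mv P w) ≤ nm (mv P w - mv Q w') := by
    have e : (2 : ℝ) • mv P w = (mv P w + mv Q w') + (mv P w - mv Q w') := by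
      funext a; simp only [Pi.add_apply, Pi.sub_apply, Pi.smul_apply, smul_eq_mul]; ring
    have a1 := nm_add_le (mv P w + mv Q w') (mv P w - mv Q w')
    rw [← e, nm_smul, abs_of_nonneg (by norm_num : (0 : ℝ) ≤ 2)] at a1
    linarith
  have s3 : ∑ a, gg σ τ p q a W z ^ 2 = nm (mv P w - mv Q w') ^ 2 := by
    rw [nm_sq]
    exact Finset.sum_congr rfl fun a _ => by rw [sq]; rfl
  rw [s3, div_le_iff₀ (by positivity)]
  have s4 : En * r ≤ A * nm (mv P w - mv Q w') := by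
    have := mul_le_mul_of_nonneg_left s2 hA0.le
    linarith
  have := pow_le_pow_left₀ Er.le s4 2
  rw [mul_pow] at this
  linarith

theorem gs_le (hA : 1 ≤ A) (hα : (Fintype.card α : ℝ) + 1 ≤ ν)
    (hι : (Fintype.card ι : ℝ) + 1 ≤ ν) (hr : 0 < r) (hEn : 0 < En) (hN : 0 ≤ N)
    (el : El σ z) (mb : MB σ τ p q A r z) (wb : W1 σ τ W A En N r z) (a : α) :
    |gs σ τ p q a W z| ≤ KC ν A * (N + En * r ^ 2) := by
  set P : α → ι → ℝ := fun a i => p a i z with hP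
  set Q : α → ι → ℝ := fun a i => q a i z with hQ
  set w : ι → ℝ := fun i => σ.D i W z with hw
  set w' : ι → ℝ := fun i => τ.D i W z with hw'
  have hA0 : 0 ≤ A := by linarith
  have hν : 1 ≤ ν := by
    have : (0 : ℝ) ≤ Fintype.card ι := Nat.cast_nonneg _
    linarith
  have r0 : 0 ≤ A * r := mul_nonneg hA0 hr.le
  have Er : 0 ≤ En * r := by positivity
  have ed' : ∀ a i, |Q a i - P a i| ≤ A * r := fun a i => by rw [abs_sub_comm]; exact mb.df a i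
  have e : mv P w + mv Q w' = mv P (w + w') + mv (fun a i => Q a i - P a i) w' := by
    rw [mv_add, mv_sub_left]; abel
  have p1 : 0 ≤ N + En * r ^ 2 := by positivity
  have a1 := nm_mv_el mb.f₁ el.up (mul_nonneg hA0 p1) hι (u := w + w') wb.s
  have a2 := nm_mv_sm r0 (mul_nonneg hA0 Er) hα hι ed' (u := w') wb.y
  have a3 := nm_add_le (mv P (w + w')) (mv (fun a i => Q a i - P a i) w')
  have a4 : ν ^ 2 * (A * r * (A * (En * r))) ≤ ν ^ 2 * A ^ 2 * (N + En * r ^ 2) := by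
    have : ν ^ 2 * (A * r * (A * (En * r))) = ν ^ 2 * A ^ 2 * (En * r ^ 2) := by ring
    rw [this]
    exact mul_le_mul_of_nonneg_left (by linarith) (by positivity)
  have a5 := mul_le_mul_of_nonneg_right (KC_ge hA hν hA0 (A13 hA) (A23 hA)) p1
  have a6 : nm (mv P w + mv Q w') ≤ KC ν A * (N + En * r ^ 2) := by rw [e]; linarith
  have a7 : |gs σ τ p q a W z| ≤ nm (mv P w + mv Q w') := by
    unfold nm
    refine Real.abs_le_sqrt ?_
    have h1 : gs σ τ p q a W z = (mv P w + mv Q w') a := rfl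
    rw [h1, sq]
    exact Finset.single_le_sum (f := fun a => (mv P w + mv Q w') a * (mv P w + mv Q w') a)
      (fun _ _ => mul_self_nonneg _) (Finset.mem_univ a)
  exact a7.trans a6

/-! ## Arithmetic -/

theorem gain_ar {G Q e En r A ν L g ζ2 : ℝ} (hA : 1 ≤ A) (hEn : 0 < En) (hr : 0 < r)
    (hζ : 0 ≤ ζ2) (hL : ζ2 = L * g) (hg : 2 ≤ g * r ^ 2) (hL1 : 8 * A ^ 2 ≤ L)
    (he : e ≤ 4 * En ^ 2) (hm : 36 * (ν ^ 3 * A ^ 6) ≤ En * r ^ 2)
    (hQ : (En * r) ^ 2 / A ^ 2 ≤ Q) (hG : ζ2 * Q - 18 * (ν ^ 3 * A ^ 4) * (ζ2 * En) ≤ G) :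
    2 * e ≤ G := by
  have hA0 : 0 < A := by linarith
  have hA2 : 0 < A ^ 2 := by positivity
  have h1 : 18 * (ν ^ 3 * A ^ 4) * En ≤ 1 / 2 * ((En * r) ^ 2 / A ^ 2) := by
    have h2 : 36 * (ν ^ 3 * A ^ 6) * En ≤ (En * r) ^ 2 := by
      have := mul_le_mul_of_nonneg_right hm hEn.le
      calc _ ≤ _ := this
        _ = _ := by ring
    have h3 : 1 / 2 * ((En * r) ^ 2 / A ^ 2) = (1 / 2 * (En * r) ^ 2) / A ^ 2 := by ring
    rw [h3, le_div_iff₀ hA2]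
    calc _ = 1 / 2 * (36 * (ν ^ 3 * A ^ 6) * En) := by ring
      _ ≤ _ := mul_le_mul_of_nonneg_left h2 (by norm_num)
  have h4 : ζ2 * (1 / 2 * ((En * r) ^ 2 / A ^ 2)) ≤ G := by
    have h5 := mul_le_mul_of_nonneg_left hQ hζ
    have h6 := mul_le_mul_of_nonneg_left h1 hζ
    linarith
  refine le_trans ?_ h4
  have h7 : 8 * En ^ 2 ≤ ζ2 * (1 / 2 * ((En * r) ^ 2 / A ^ 2)) := by
    have e1 : ζ2 * (1 / 2 * ((En * r) ^ 2 / A ^ 2)) = L * (g * r ^ 2) * En ^ 2 / (2 * A ^ 2) := by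
      rw [hL]; field_simp
    rw [e1, le_div_iff₀ (by positivity)]
    have L0 : 0 ≤ L := by linarith [hA2]
    have h8 : 8 * A ^ 2 * 2 ≤ L * (g * r ^ 2) := mul_le_mul hL1 hg (by norm_num) L0
    have h9 := mul_le_mul_of_nonneg_right h8 (sq_nonneg En)
    calc _ = 8 * A ^ 2 * 2 * En ^ 2 := by ring
      _ ≤ _ := h9
  linarith

theorem ls_ar {S e En r A ν L g ζ2 η' : ℝ} (hη' : 0 < η') (hr : 0 < r) (hr1 : r ≤ 1)
    (hA : 1 ≤ A) (hν : 1 ≤ ν) (hL0 : 0 ≤ L)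
    (hζ : 0 ≤ ζ2) (hL : ζ2 = L * g) (hg : g * r ^ 2 ≤ 4)
    (he : 2 * En ^ 2 ≤ e) (hm : 256 * L ^ 2 / η' + 2000 * (ν ^ 3 * A ^ 4) * L ≤ (En * r ^ 2) ^ 2)
    (hS : S ≤ 234 * (ν ^ 3 * A ^ 4) * (ζ2 / r ^ 2)) :
    8 / η' * ζ2 ^ 2 + 2 * ζ2 + S ≤ 1 / 4 * e := by
  have r2 : 0 < r ^ 2 := by positivity
  have r4 : 0 < r ^ 4 := by positivity
  have z1 : ζ2 ≤ 4 * L / r ^ 2 := by
    rw [le_div_iff₀ r2, hL]
    have := mul_le_mul_of_nonneg_left hg hL0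
    linarith
  have z2 : ζ2 ≤ 4 * L / r ^ 4 := by
    refine z1.trans ?_
    have : r ^ 4 ≤ r ^ 2 := pow_le_pow_of_le_one hr.le hr1 (by norm_num)
    gcongr
  have z3 : ζ2 / r ^ 2 ≤ 4 * L / r ^ 4 := by
    rw [div_le_iff₀ r2]
    refine z1.trans (le_of_eq ?_)
    field_simp
  have z4 : ζ2 ^ 2 ≤ 16 * L ^ 2 / r ^ 4 := by
    have := pow_le_pow_left₀ hζ z1 2
    refine this.trans (le_of_eq ?_)
    field_simp; ring
  have h1 : 8 / η' * ζ2 ^ 2 ≤ 8 / η' * (16 * L ^ 2 / r ^ 4) :=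
    mul_le_mul_of_nonneg_left z4 (by positivity)
  have νA : 1 ≤ ν ^ 3 * A ^ 4 := one_le_mul_of_one_le_of_one_le (one_le_pow₀ hν) (one_le_pow₀ hA)
  have h2 : 234 * (ν ^ 3 * A ^ 4) * (ζ2 / r ^ 2) ≤ 234 * (ν ^ 3 * A ^ 4) * (4 * L / r ^ 4) :=
    mul_le_mul_of_nonneg_left z3 (by positivity)
  have h3 : 8 / η' * (16 * L ^ 2 / r ^ 4) + 2 * (4 * L / r ^ 4) +
      234 * (ν ^ 3 * A ^ 4) * (4 * L / r ^ 4) ≤ 1 / 2 * En ^ 2 := by
    have e1 : 8 / η' * (16 * L ^ 2 / r ^ 4) + 2 * (4 * L / r ^ 4) +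
      234 * (ν ^ 3 * A ^ 4) * (4 * L / r ^ 4) =
      (128 * L ^ 2 / η' + 8 * L + 936 * (ν ^ 3 * A ^ 4) * L) / r ^ 4 := by field_simp; ring
    rw [e1, div_le_iff₀ r4]
    have e2 : 1 / 2 * En ^ 2 * r ^ 4 = 1 / 2 * (En * r ^ 2) ^ 2 := by ring
    rw [e2]
    have h4 : L ≤ ν ^ 3 * A ^ 4 * L := le_mul_of_one_le_left hL0 νA
    have e3 : 256 * L ^ 2 / η' = 2 * (128 * L ^ 2 / η') := by ring
    rw [e3] at hm
    linarith
  linarith

theorem lt_ar {S F kk En r A ν L g ζ2 Nm N K η : ℝ} (hr : 0 < r) (hEn : 0 < En)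
    (hA : 1 ≤ A) (hν : 1 ≤ ν) (hL0 : 0 ≤ L) (hL : ζ2 = L * g) (hg : g * r ^ 2 ≤ 4)
    (hNm : Nm = N + En * r ^ 2) (hF : (En * r) ^ 2 ≤ A * F) (hηk : 0 ≤ η * kk)
    (hS : S ≤ 124 * (ν * A ^ 2 * K ^ 2) * (ζ2 * Nm ^ 2))
    (hk : 1000 * (L * ν * A ^ 3 * K ^ 2) * (1 + N / (En * r ^ 2)) ^ 2 ≤ η * kk) :
    S ≤ η / 2 * (kk * F) := by
  have r2 : 0 < r ^ 2 := by positivity
  have m0 : 0 < En * r ^ 2 := by positivity
  have hA0 : 0 < A := by linarith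
  have z1 : ζ2 ≤ 4 * L / r ^ 2 := by
    rw [le_div_iff₀ r2, hL]
    have := mul_le_mul_of_nonneg_left hg hL0
    linarith
  have h1 : ζ2 * Nm ^ 2 ≤ 4 * L / r ^ 2 * Nm ^ 2 := mul_le_mul_of_nonneg_right z1 (sq_nonneg _)
  have h2 : Nm ^ 2 = (En * r ^ 2) ^ 2 * (1 + N / (En * r ^ 2)) ^ 2 := by
    rw [hNm]; field_simp; ring
  have h3 : F ≥ (En * r) ^ 2 / A := by
    rw [ge_iff_le, div_le_iff₀ hA0]; linarith
  have h4 : η * kk * ((En * r) ^ 2 / A) ≤ η * kk * F := mul_le_mul_of_nonneg_left h3 hηk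
  have h5 := mul_le_mul_of_nonneg_right hk (by positivity : 0 ≤ (En * r) ^ 2 / A)
  have h6 : 1000 * (L * ν * A ^ 3 * K ^ 2) * (1 + N / (En * r ^ 2)) ^ 2 * ((En * r) ^ 2 / A) =
      1000 * (L * ν * A ^ 2 * K ^ 2) * (1 + N / (En * r ^ 2)) ^ 2 * (En * r) ^ 2 := by
    field_simp
  have h7 : 4 * L / r ^ 2 * Nm ^ 2 = 4 * L * (1 + N / (En * r ^ 2)) ^ 2 * (En * r) ^ 2 := by
    rw [h2]; field_simp
  have h8 := mul_le_mul_of_nonneg_left h1
    (by positivity : 0 ≤ 124 * (ν * A ^ 2 * K ^ 2))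
  rw [h7] at h8
  have h9 : 0 ≤ L * ν * A ^ 2 * K ^ 2 * (1 + N / (En * r ^ 2)) ^ 2 * (En * r) ^ 2 := by positivity
  have h10 : 124 * (ν * A ^ 2 * K ^ 2) * (4 * L * (1 + N / (En * r ^ 2)) ^ 2 * (En * r) ^ 2) =
      496 * (L * ν * A ^ 2 * K ^ 2 * (1 + N / (En * r ^ 2)) ^ 2 * (En * r) ^ 2) := by ring
  linarith

/-! ## `KP` -/

/-- **The structure `KP`.** -/
theorem kp_of (F : Fr σ τ p q U θ) (hW : Sm U W) (hζ : Sm U ζ) (hz : z ∈ U) (hA : 1 ≤ A)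
    (hα : (Fintype.card α : ℝ) + 1 ≤ ν) (hι : (Fintype.card ι : ℝ) + 1 ≤ ν) (hEn : 0 < En)
    (hr : 0 < r) (hr1 : r ≤ 1) (hN : 0 ≤ N) (el : El σ z) (mb : MB σ τ p q A r z)
    (wb : W1 σ τ W A En N r z) (kb : KB σ τ p q v₁ v₂ W ζ g A L En r z)
    (he₁ : 2 * En ^ 2 ≤ e z) (he₂ : e z ≤ 4 * En ^ 2) (hη' : 0 < η') (hL : 8 * A ^ 2 ≤ L)
    (hs : KC ν A * A * (N + En * r ^ 2) ≤ En * r)
    (hm₁ : 36 * (ν ^ 3 * A ^ 6) ≤ En * r ^ 2)
    (hm₂ : 256 * L ^ 2 / η' + 2000 * (ν ^ 3 * A ^ 4) * L ≤ (En * r ^ 2) ^ 2)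
    (hηk : 0 ≤ η * k z)
    (hk : 1000 * (L * ν * A ^ 3 * KC ν A ^ 2) * (1 + N / (En * r ^ 2)) ^ 2 ≤ η * k z) :
    KP σ τ p q v₁ v₂ W ζ k e η' η z := by
  have hU := F.ok.op
  have hA0 : 0 ≤ A := by linarith
  have hν : 1 ≤ ν := by
    have : (0 : ℝ) ≤ Fintype.card ι := Nat.cast_nonneg _
    linarith
  have hν0 : 0 ≤ ν := by linarith
  have hζ0 := kb.ζ0
  have L0 : 0 ≤ L := by linarith [sq_nonneg A]
  have hζ2 : 0 ≤ ζ z ^ 2 := sq_nonneg _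
  have K1 := KC_one hA hν
  have KA : A ≤ KC ν A := by
    have h1 := KC_ge (t := 0) hA hν hA0 (A13 hA) (by positivity)
    have : A ≤ 2 * ν * A := by nlinarith
    linarith
  -- the pieces
  have b1 : ∀ a, |gg σ τ p q a ζ z| ≤ 2 * ν * A ^ 2 * (ζ z / r) := fun a => by
    have h := gg_le (f := ζ) hι hA0 kb.p0 kb.q0
      (mul_nonneg hA0 (div_nonneg hζ0 hr.le)) kb.ζx kb.ζy a
    calc _ ≤ _ := h
      _ = _ := by ring
  have b2 : ∀ a, |gg σ τ p q a W z| ≤ 2 * ν * A ^ 2 * (En * r) := fun a => by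
    have h := gg_le (f := W) hι hA0 kb.p0 kb.q0
      (by positivity : 0 ≤ A * (En * r)) wb.x wb.y a
    calc _ ≤ _ := h
      _ = _ := by ring
  have b3 := gg2_le F hW hz hι hA hEn hr1 kb wb.x wb.y
  have b4 : ∀ a, |gl σ τ p q a z| ≤ 2 * A := fun a => by
    unfold gl
    have := abs_sub (fl σ p a z) (fl τ q a z)
    linarith [kb.fl₁ a, kb.fl₂ a]
  have b5 : ∀ a, |gr σ τ p q a z| ≤ A := fun a => by
    unfold gr
    rw [abs_mul, abs_of_nonneg (by norm_num : (0 : ℝ) ≤ 1 / 2)]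
    have := abs_add_le (fl σ p a z) (fl τ q a z)
    linarith [kb.fl₁ a, kb.fl₂ a]
  have b6 := gs_le hA hα hι hr hEn hN el mb wb
  have hcα : (Fintype.card α : ℝ) ≤ ν := by linarith
  set Nm : ℝ := N + En * r ^ 2 with hNm
  have m1 : 1 ≤ En * r ^ 2 := by
    have : 1 ≤ ν ^ 3 * A ^ 6 :=
      one_le_mul_of_one_le_of_one_le (one_le_pow₀ hν) (one_le_pow₀ hA)
    linarith
  have Nm1 : 1 ≤ Nm := by linarith
  have Nm0 : 0 ≤ Nm := by linarith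
  -- the loss in `(a - b)²`
  have tt : 2 * ζ z ^ 2 * (v₁ z - v₂ z) ^ 2 + ∑ a, (8 * (ζ z ^ 2 * kn σ τ p q W a z ^ 2) +
      2 * (ζ z ^ 2 * kk σ τ p q W a z ^ 2)) ≤
      124 * (ν * A ^ 2 * KC ν A ^ 2) * (ζ z ^ 2 * Nm ^ 2) := by
    have KN : 1 ≤ KC ν A * Nm := one_le_mul_of_one_le_of_one_le K1 Nm1
    have AKN : A ≤ KC ν A * Nm := KA.trans (le_mul_of_one_le_right (by linarith) Nm1)
    have c1 : ∀ a, |kn σ τ p q W a z| ≤ 3 * (KC ν A * Nm) := fun a => by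
      unfold kn
      have := abs_add_le (2 * gs σ τ p q a W z) (gr σ τ p q a z)
      rw [abs_mul, abs_of_nonneg (by norm_num : (0 : ℝ) ≤ 2)] at this
      linarith [b6 a, b5 a]
    have c2 : ∀ a, |kk σ τ p q W a z| ≤ 5 * (A * (KC ν A * Nm)) := fun a => by
      unfold kk
      have h1 := abs_add_le (gl σ τ p q a z * gs σ τ p q a W z + gg σ τ p q a (gr σ τ p q a) z)
        (gl σ τ p q a z * gr σ τ p q a z)
      have h2 := abs_add_le (gl σ τ p q a z * gs σ τ p q a W z) (gg σ τ p q a (gr σ τ p q a) z)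
      have h3 : |gl σ τ p q a z * gs σ τ p q a W z| ≤ 2 * A * (KC ν A * Nm) := by
        rw [abs_mul]; exact mul_le_mul (b4 a) (b6 a) (abs_nonneg _) (by linarith)
      have h4 : |gl σ τ p q a z * gr σ τ p q a z| ≤ 2 * A * A := by
        rw [abs_mul]; exact mul_le_mul (b4 a) (b5 a) (abs_nonneg _) (by linarith)
      have h5 : A ≤ A * (KC ν A * Nm) := le_mul_of_one_le_right hA0 KN
      have h6 : A * A ≤ A * (KC ν A * Nm) := mul_le_mul_of_nonneg_left AKN hA0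
      linarith [kb.gr1 a]
    have c3 : ∀ a, 8 * (ζ z ^ 2 * kn σ τ p q W a z ^ 2) + 2 * (ζ z ^ 2 * kk σ τ p q W a z ^ 2) ≤
        122 * (A ^ 2 * KC ν A ^ 2) * (ζ z ^ 2 * Nm ^ 2) := fun a => by
      have h1 := pow_le_pow_left₀ (abs_nonneg _) (c1 a) 2
      have h2 := pow_le_pow_left₀ (abs_nonneg _) (c2 a) 2
      rw [sq_abs] at h1 h2
      have h3 := mul_le_mul_of_nonneg_left h1 hζ2
      have h4 := mul_le_mul_of_nonneg_left h2 hζ2
      have h5 : ζ z ^ 2 * (3 * (KC ν A * Nm)) ^ 2 ≤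
          9 * (A ^ 2 * KC ν A ^ 2) * (ζ z ^ 2 * Nm ^ 2) := by
        have e : ζ z ^ 2 * (3 * (KC ν A * Nm)) ^ 2 =
          9 * (1 * (KC ν A ^ 2 * (ζ z ^ 2 * Nm ^ 2))) := by ring
        have e' : 9 * (A ^ 2 * KC ν A ^ 2) * (ζ z ^ 2 * Nm ^ 2) =
          9 * (A ^ 2 * (KC ν A ^ 2 * (ζ z ^ 2 * Nm ^ 2))) := by ring
        rw [e, e']
        have : 1 * (KC ν A ^ 2 * (ζ z ^ 2 * Nm ^ 2)) ≤
            A ^ 2 * (KC ν A ^ 2 * (ζ z ^ 2 * Nm ^ 2)) :=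
          mul_le_mul_of_nonneg_right (one_le_pow₀ hA) (by positivity)
        linarith
      have h6 : ζ z ^ 2 * (5 * (A * (KC ν A * Nm))) ^ 2 =
          25 * (A ^ 2 * KC ν A ^ 2) * (ζ z ^ 2 * Nm ^ 2) := by ring
      linarith
    have c4 : ∑ a, (8 * (ζ z ^ 2 * kn σ τ p q W a z ^ 2) +
        2 * (ζ z ^ 2 * kk σ τ p q W a z ^ 2)) ≤
        ν * (122 * (A ^ 2 * KC ν A ^ 2) * (ζ z ^ 2 * Nm ^ 2)) := by
      have h1 : ∑ a, (8 * (ζ z ^ 2 * kn σ τ p q W a z ^ 2) +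
        2 * (ζ z ^ 2 * kk σ τ p q W a z ^ 2)) ≤
        ∑ _a : α, 122 * (A ^ 2 * KC ν A ^ 2) * (ζ z ^ 2 * Nm ^ 2) :=
        Finset.sum_le_sum fun a _ => c3 a
      rw [Finset.sum_const, Finset.card_univ, nsmul_eq_mul] at h1
      exact h1.trans (mul_le_mul_of_nonneg_right hcα (by positivity))
    have c5 : (v₁ z - v₂ z) ^ 2 ≤ A ^ 2 := by
      have := pow_le_pow_left₀ (abs_nonneg _) kb.v 2
      rwa [sq_abs] at this
    have c6 : 2 * ζ z ^ 2 * (v₁ z - v₂ z) ^ 2 ≤ 2 * (ν * A ^ 2 * KC ν A ^ 2) *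
        (ζ z ^ 2 * Nm ^ 2) := by
      have h1 : A ^ 2 ≤ ν * A ^ 2 * KC ν A ^ 2 * Nm ^ 2 := by
        have y1 : 1 ≤ ν * (KC ν A ^ 2 * Nm ^ 2) :=
          one_le_mul_of_one_le_of_one_le hν
            (one_le_mul_of_one_le_of_one_le (one_le_pow₀ K1) (one_le_pow₀ Nm1))
        have y2 := le_mul_of_one_le_right (sq_nonneg A) y1
        calc _ ≤ _ := y2
          _ = _ := by ring
      have h2 := mul_le_mul_of_nonneg_left (c5.trans h1) (by positivity : 0 ≤ 2 * ζ z ^ 2)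
      calc _ ≤ _ := h2
        _ = _ := by ring
    linarith
  refine ⟨?_, ?_, ?_, ?_⟩
  · -- the gain
    have hQ := om_ge hA hα hι hr hEn hN el mb wb hs
    have t0 : ∀ a, ζ z ^ 2 * gg σ τ p q a W z ^ 2 - 18 * (ν ^ 2 * A ^ 4) * (ζ z ^ 2 * En) ≤
        ζ z ^ 2 * gg σ τ p q a W z ^ 2 +
        gg σ τ p q a (fun z => ζ z ^ 2 * gg σ τ p q a W z) z +
        gl σ τ p q a z * (ζ z ^ 2 * gg σ τ p q a W z) := by
      intro a
      rw [gg_mul hU (hζ.pow 2) (s_gg F hW a) a hz, gg_sq hU hζ a hz]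
      have x1 : |2 * ζ z * gg σ τ p q a ζ z * gg σ τ p q a W z| ≤
          8 * (ν ^ 2 * A ^ 4) * (ζ z ^ 2 * En) := by
        rw [abs_mul, abs_mul, abs_mul, abs_of_nonneg (by norm_num : (0 : ℝ) ≤ 2),
          abs_of_nonneg hζ0]
        have y1 := mul_le_mul (b1 a) (b2 a) (abs_nonneg _) (by positivity)
        have y2 := mul_le_mul_of_nonneg_left y1 (by positivity : 0 ≤ 2 * ζ z)
        have e1 : 2 * ζ z * (2 * ν * A ^ 2 * (ζ z / r) * (2 * ν * A ^ 2 * (En * r))) =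
          8 * (ν ^ 2 * A ^ 4) * (ζ z ^ 2 * En) := by field_simp; ring
        calc _ = 2 * ζ z * (|gg σ τ p q a ζ z| * |gg σ τ p q a W z|) := by ring
          _ ≤ _ := y2
          _ = _ := e1
      have x2 : |ζ z ^ 2 * gg σ τ p q a (gg σ τ p q a W) z| ≤
          6 * (ν ^ 2 * A ^ 4) * (ζ z ^ 2 * En) := by
        rw [abs_mul, abs_of_nonneg hζ2]
        have y1 := mul_le_mul_of_nonneg_left (b3 a) hζ2
        have y2 : A ^ 3 ≤ A ^ 4 := pow_le_pow_right₀ hA (by norm_num)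
        have y3 := mul_le_mul_of_nonneg_right y2 (by positivity : 0 ≤ 6 * ν ^ 2 * (ζ z ^ 2 * En))
        linarith
      have x3 : |gl σ τ p q a z * (ζ z ^ 2 * gg σ τ p q a W z)| ≤
          4 * (ν ^ 2 * A ^ 4) * (ζ z ^ 2 * En) := by
        rw [abs_mul, abs_mul, abs_of_nonneg hζ2]
        have y1 := mul_le_mul_of_nonneg_left (b2 a) hζ2
        have y2 := mul_le_mul (b4 a) y1 (by positivity) (by positivity)
        have y3 : 2 * A * (ζ z ^ 2 * (2 * ν * A ^ 2 * (En * r))) ≤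
            4 * (ν ^ 2 * A ^ 4) * (ζ z ^ 2 * En) := by
          have z1 : ν * A ^ 3 * r ≤ ν ^ 2 * A ^ 4 * 1 := by
            have w1 : ν ≤ ν ^ 2 := le_self_pow₀ hν (by norm_num)
            have w2 : A ^ 3 ≤ A ^ 4 := pow_le_pow_right₀ hA (by norm_num)
            exact mul_le_mul (mul_le_mul w1 w2 (by positivity) (by positivity)) hr1 hr.le
              (by positivity)
          have z2 := mul_le_mul_of_nonneg_right z1 (by positivity : 0 ≤ 4 * (ζ z ^ 2 * En))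
          linarith
        exact y2.trans y3
      have := neg_abs_le (2 * ζ z * gg σ τ p q a ζ z * gg σ τ p q a W z)
      have := neg_abs_le (ζ z ^ 2 * gg σ τ p q a (gg σ τ p q a W) z)
      have := neg_abs_le (gl σ τ p q a z * (ζ z ^ 2 * gg σ τ p q a W z))
      linarith
    have t1 := Finset.sum_le_sum fun a (_ : a ∈ (Finset.univ : Finset α)) => t0 a
    rw [Finset.sum_sub_distrib, ← Finset.mul_sum, Finset.sum_const, Finset.card_univ,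
      nsmul_eq_mul] at t1
    refine gain_ar (Q := ∑ a, gg σ τ p q a W z ^ 2) (g := g z) (ν := ν) hA hEn hr hζ2 kb.L kb.g₁
      hL he₂ hm₁ hQ ?_
    refine le_trans ?_ t1
    have : (Fintype.card α : ℝ) * (18 * (ν ^ 2 * A ^ 4) * (ζ z ^ 2 * En)) ≤
        ν * (18 * (ν ^ 2 * A ^ 4) * (ζ z ^ 2 * En)) :=
      mul_le_mul_of_nonneg_right hcα (by positivity)
    have e1 : ν * (18 * (ν ^ 2 * A ^ 4) * (ζ z ^ 2 * En)) =
      18 * (ν ^ 3 * A ^ 4) * (ζ z ^ 2 * En) := by ring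
    linarith
  · -- the loss in `(a + b)²`
    have t0 : ∀ a, 8 * (2 * gg σ τ p q a ζ z + 1 / 2 * gl σ τ p q a z * ζ z) ^ 2 +
        8 * gg σ τ p q a ζ z ^ 2 + 2 * ζ z ^ 2 ≤ 234 * (ν ^ 2 * A ^ 4) * (ζ z ^ 2 / r ^ 2) := by
      intro a
      have νA : 1 ≤ ν * A := one_le_mul_of_one_le_of_one_le hν hA
      have x0 : ζ z ≤ ζ z / r := by
        rw [le_div_iff₀ hr]; exact mul_le_of_le_one_right hζ0 hr1
      have zr : 0 ≤ ζ z / r := div_nonneg hζ0 hr.le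
      have x1 : |2 * gg σ τ p q a ζ z + 1 / 2 * gl σ τ p q a z * ζ z| ≤
          5 * (ν * A ^ 2 * (ζ z / r)) := by
        have y1 := abs_add_le (2 * gg σ τ p q a ζ z) (1 / 2 * gl σ τ p q a z * ζ z)
        have y2 : |2 * gg σ τ p q a ζ z| ≤ 4 * (ν * A ^ 2 * (ζ z / r)) := by
          rw [abs_mul, abs_of_nonneg (by norm_num : (0 : ℝ) ≤ 2)]
          linarith [b1 a]
        have y3 : |1 / 2 * gl σ τ p q a z * ζ z| ≤ ν * A ^ 2 * (ζ z / r) := by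
          rw [abs_mul, abs_mul, abs_of_nonneg (by norm_num : (0 : ℝ) ≤ 1 / 2),
            abs_of_nonneg hζ0]
          have y4 : 1 / 2 * |gl σ τ p q a z| ≤ A := by linarith [b4 a]
          have y5 : 1 / 2 * |gl σ τ p q a z| * ζ z ≤ A * (ζ z / r) :=
            mul_le_mul y4 x0 hζ0 hA0
          have y6 : A * (ζ z / r) ≤ ν * A * (A * (ζ z / r)) :=
            le_mul_of_one_le_left (mul_nonneg hA0 zr) νA
          linarith
        linarith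
      have x2 := pow_le_pow_left₀ (abs_nonneg _) x1 2
      have x3 := pow_le_pow_left₀ (abs_nonneg _) (b1 a) 2
      rw [sq_abs] at x2 x3
      have e1 : (5 * (ν * A ^ 2 * (ζ z / r))) ^ 2 = 25 * (ν ^ 2 * A ^ 4) * (ζ z ^ 2 / r ^ 2) := by
        rw [mul_pow, mul_pow, mul_pow, div_pow]; ring
      have e2 : (2 * ν * A ^ 2 * (ζ z / r)) ^ 2 = 4 * (ν ^ 2 * A ^ 4) * (ζ z ^ 2 / r ^ 2) := by
        rw [mul_pow, mul_pow, mul_pow, div_pow]; ring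
      rw [e1] at x2
      rw [e2] at x3
      have x4 : ζ z ^ 2 ≤ ν ^ 2 * A ^ 4 * (ζ z ^ 2 / r ^ 2) := by
        have y1 : ζ z ^ 2 ≤ ζ z ^ 2 / r ^ 2 := by
          rw [le_div_iff₀ (by positivity)]
          exact mul_le_of_le_one_right hζ2 (pow_le_one₀ hr.le hr1)
        have y2 : ζ z ^ 2 / r ^ 2 ≤ ν ^ 2 * A ^ 4 * (ζ z ^ 2 / r ^ 2) :=
          le_mul_of_one_le_left (by positivity)
            (one_le_mul_of_one_le_of_one_le (one_le_pow₀ hν) (one_le_pow₀ hA))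
        exact y1.trans y2
      linarith
    have t1 : ∑ a, (8 * (2 * gg σ τ p q a ζ z + 1 / 2 * gl σ τ p q a z * ζ z) ^ 2 +
        8 * gg σ τ p q a ζ z ^ 2 + 2 * ζ z ^ 2) ≤
        ∑ _a : α, 234 * (ν ^ 2 * A ^ 4) * (ζ z ^ 2 / r ^ 2) :=
      Finset.sum_le_sum fun a _ => t0 a
    rw [Finset.sum_const, Finset.card_univ, nsmul_eq_mul] at t1
    have t2 : ∑ a, (8 * (2 * gg σ τ p q a ζ z + 1 / 2 * gl σ τ p q a z * ζ z) ^ 2 +
        8 * gg σ τ p q a ζ z ^ 2 + 2 * ζ z ^ 2) ≤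
        234 * (ν ^ 3 * A ^ 4) * (ζ z ^ 2 / r ^ 2) := by
      refine t1.trans ?_
      have : (Fintype.card α : ℝ) * (234 * (ν ^ 2 * A ^ 4) * (ζ z ^ 2 / r ^ 2)) ≤
          ν * (234 * (ν ^ 2 * A ^ 4) * (ζ z ^ 2 / r ^ 2)) :=
        mul_le_mul_of_nonneg_right hcα (by positivity)
      calc _ ≤ _ := this
        _ = _ := by ring
    have h := ls_ar (ν := ν) hη' hr hr1 hA hν L0 hζ2 kb.L kb.g₂ he₁ hm₂ t2
    have e4 : ζ z ^ 4 = (ζ z ^ 2) ^ 2 := by ring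
    rw [e4]
    exact h
  · exact lt_ar (L := L) hr hEn hA hν L0 kb.L kb.g₂ hNm wb.F₁ hηk tt hk
  · exact lt_ar (L := L) hr hEn hA hν L0 kb.L kb.g₂ hNm wb.F₂ hηk tt hk

/-! ## `KZ` -/

/-- **The structure `KZ`.** -/
theorem kz_of (hA : 1 ≤ A) (hα : (Fintype.card α : ℝ) + 1 ≤ ν)
    (hι : (Fintype.card ι : ℝ) + 1 ≤ ν) (hEn : 0 < En) (hr : 0 < r)
    {dp : ℝ} (wb : W1 σ τ W A En N r z) (kb : KB σ τ p q v₁ v₂ W ζ g A L En r z)
    (cb : CB2 σ τ χ d₀ dp r z) (hd : 0 ≤ d₀) (hχ : |χ z| ≤ 1) (he₁ : 2 * En ^ 2 ≤ e z)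
    (hL0 : 0 ≤ L) (hZ : 0 ≤ Z z) (hz1 : 64 * (ν ^ 3 * A ^ 3 * L * d₀) ≤ Z z * (En * r ^ 2))
    (hz2 : 1280 * (ν ^ 3 * A ^ 2 * L * d₀ ^ 2) ≤ Z z * (En * r ^ 2) ^ 2) :
    KZ σ τ p q W χ ζ e Z z := by
  have hA0 : 0 ≤ A := by linarith
  have hν : 1 ≤ ν := by
    have : (0 : ℝ) ≤ Fintype.card ι := Nat.cast_nonneg _
    linarith
  have hν0 : 0 ≤ ν := by linarith
  have hζ2 : 0 ≤ ζ z ^ 2 := sq_nonneg _
  have hcα : (Fintype.card α : ℝ) ≤ ν := by linarith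
  have r2 : 0 < r ^ 2 := by positivity
  have z1 : ζ z ^ 2 ≤ 4 * L / r ^ 2 := by
    rw [le_div_iff₀ r2, kb.L]
    have := mul_le_mul_of_nonneg_left kb.g₂ hL0
    linarith
  have b1 : ∀ a, |gg σ τ p q a χ z| ≤ 2 * ν * A * (d₀ / r) := fun a => by
    have h := gg_le (f := χ) hι hA0 kb.p0 kb.q0 (div_nonneg hd hr.le) cb.x cb.y a
    calc _ ≤ _ := h
      _ = _ := by ring
  have b2 : ∀ a, |gg σ τ p q a W z| ≤ 2 * ν * A ^ 2 * (En * r) := fun a => by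
    have h := gg_le (f := W) hι hA0 kb.p0 kb.q0
      (by positivity : 0 ≤ A * (En * r)) wb.x wb.y a
    calc _ ≤ _ := h
      _ = _ := by ring
  have hZe : 1 / 2 * (Z z * En ^ 2) ≤ 1 / 4 * (Z z * e z) := by
    have := mul_le_mul_of_nonneg_left he₁ hZ
    linarith
  constructor
  · have t0 : ∀ a, |gg σ τ p q a χ z * (ζ z ^ 2 * gg σ τ p q a W z)| ≤
        16 * (ν ^ 2 * A ^ 3 * L * d₀) * (En / r ^ 2) := fun a => by
      rw [abs_mul, abs_mul, abs_of_nonneg hζ2]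
      have y1 := mul_le_mul z1 (b2 a) (abs_nonneg _) (by positivity)
      have y2 := mul_le_mul (b1 a) y1 (by positivity) (by positivity)
      refine y2.trans (le_of_eq ?_)
      field_simp; ring
    have t1 := sum_le_card t0
    have t2 : |∑ a, gg σ τ p q a χ z * (ζ z ^ 2 * gg σ τ p q a W z)| ≤
        16 * (ν ^ 3 * A ^ 3 * L * d₀) * (En / r ^ 2) := by
      refine t1.trans ?_
      have : (Fintype.card α : ℝ) * (16 * (ν ^ 2 * A ^ 3 * L * d₀) * (En / r ^ 2)) ≤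
          ν * (16 * (ν ^ 2 * A ^ 3 * L * d₀) * (En / r ^ 2)) :=
        mul_le_mul_of_nonneg_right hcα (by positivity)
      calc _ ≤ _ := this
        _ = _ := by ring
    rw [abs_mul, abs_mul, abs_of_nonneg (by norm_num : (0 : ℝ) ≤ 2)]
    have t3 : 2 * |χ z| * |∑ a, gg σ τ p q a χ z * (ζ z ^ 2 * gg σ τ p q a W z)| ≤
        2 * 1 * (16 * (ν ^ 3 * A ^ 3 * L * d₀) * (En / r ^ 2)) :=
      mul_le_mul (by linarith) t2 (abs_nonneg _) (by norm_num)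
    have t4 : 32 * (ν ^ 3 * A ^ 3 * L * d₀) * (En / r ^ 2) ≤ 1 / 2 * (Z z * En ^ 2) := by
      have y1 := mul_le_mul_of_nonneg_right hz1 (by positivity : 0 ≤ 1 / 2 * (En / r ^ 2))
      have e1 : Z z * (En * r ^ 2) * (1 / 2 * (En / r ^ 2)) = 1 / 2 * (Z z * En ^ 2) := by
        field_simp
      rw [e1] at y1
      linarith
    linarith
  · have t0 : ∀ a, ζ z ^ 2 * gg σ τ p q a χ z ^ 2 ≤
        16 * (ν ^ 2 * A ^ 2 * L * d₀ ^ 2) / r ^ 4 := fun a => by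
      have y0 := pow_le_pow_left₀ (abs_nonneg _) (b1 a) 2
      rw [sq_abs] at y0
      have y1 := mul_le_mul z1 y0 (sq_nonneg _) (by positivity)
      refine y1.trans (le_of_eq ?_)
      field_simp; ring
    have t1 : ∑ a, ζ z ^ 2 * gg σ τ p q a χ z ^ 2 ≤
        ∑ _a : α, 16 * (ν ^ 2 * A ^ 2 * L * d₀ ^ 2) / r ^ 4 := Finset.sum_le_sum fun a _ => t0 a
    rw [Finset.sum_const, Finset.card_univ, nsmul_eq_mul] at t1
    have t2 : ∑ a, ζ z ^ 2 * gg σ τ p q a χ z ^ 2 ≤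
        16 * (ν ^ 3 * A ^ 2 * L * d₀ ^ 2) / r ^ 4 := by
      refine t1.trans ?_
      have : (Fintype.card α : ℝ) * (16 * (ν ^ 2 * A ^ 2 * L * d₀ ^ 2) / r ^ 4) ≤
          ν * (16 * (ν ^ 2 * A ^ 2 * L * d₀ ^ 2) / r ^ 4) :=
        mul_le_mul_of_nonneg_right hcα (by positivity)
      calc _ ≤ _ := this
        _ = _ := by ring
    have t4 : 640 * (ν ^ 3 * A ^ 2 * L * d₀ ^ 2) / r ^ 4 ≤ 1 / 2 * (Z z * En ^ 2) := by
      rw [div_le_iff₀ (by positivity)]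
      have e1 : 1 / 2 * (Z z * En ^ 2) * r ^ 4 = 1 / 2 * (Z z * (En * r ^ 2) ^ 2) := by ring
      rw [e1]; linarith
    have e2 : 40 * (16 * (ν ^ 3 * A ^ 2 * L * d₀ ^ 2) / r ^ 4) =
      640 * (ν ^ 3 * A ^ 2 * L * d₀ ^ 2) / r ^ 4 := by ring
    linarith

/-- `KZ` where `Dχ = 0`. -/
theorem kz_zero (h₁ : ∀ i, σ.D i χ z = 0) (h₂ : ∀ i, τ.D i χ z = 0) (hZ : 0 ≤ Z z)
    (he : 0 ≤ e z) : KZ σ τ p q W χ ζ e Z z := by
  have h : ∀ a, gg σ τ p q a χ z = 0 := fun a => by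
    unfold gg fD
    rw [Finset.sum_eq_zero fun i _ => by rw [h₁, mul_zero],
      Finset.sum_eq_zero fun i _ => by rw [h₂, mul_zero], sub_zero]
  have hZe : 0 ≤ Z z * e z := mul_nonneg hZ he
  constructor
  · simp only [h, zero_mul, Finset.sum_const_zero, mul_zero, abs_zero]
    positivity
  · simp only [h, ne_eq, OfNat.ofNat_ne_zero, not_false_eq_true, zero_pow, mul_zero,
      Finset.sum_const_zero]
    positivity

end

end Vale.Agent.P088.R2.H870.Z2
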