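import Vale.Agent.P088.R2.H86.Z.Abs

/-!
# P088, stage 3, zone II: the turn-on terms

`ĝ = p Dχ` is the derivative of the cut-off in the frame of the first slot, `q Dχ = -ĝ + ĥ`; the
fields are `c = pᵀ ĉ`, `c' = qᵀ ĉ'`.  If `|ĝ| ≤ h √g`, `|ĥ| ≤ h M`, `√g |ĉ - ĉ'| ≤ C M`,
`√g |p DW + q DW| ≤ C M √F` and `g F ≤ C² e` (both slots), then the sum of the two turn-on forms is
at most `2200 C² |χ| h M` times the unit density.
-/

open Set Filter
open scoped ContDiff Topology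

noncomputable section

namespace Vale.Agent.P088.R2.H870.Z2

open Vale.Agent.P088.R2.H961.GW Vale.Agent.P088.R2.H960.W Vale.Agent.P088.R2.H86.Z

/-! ## Vectors -/

section vec

variable {α : Type*} [Fintype α]

/-- The scalar product. -/
def dt (u v : α → ℝ) : ℝ := ∑ r, u r * v r

/-- The norm. -/
def nm (u : α → ℝ) : ℝ := √(dt u u)

variable {u v w g c : α → ℝ}

theorem dt_comm (u v : α → ℝ) : dt u v = dt v u :=
  Finset.sum_congr rfl fun _ _ => mul_comm _ _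

theorem dt_add_right (u v w : α → ℝ) : dt u (v + w) = dt u v + dt u w := by
  unfold dt
  rw [← Finset.sum_add_distrib]
  exact Finset.sum_congr rfl fun _ _ => by simp only [Pi.add_apply]; ring

theorem dt_sub_right (u v w : α → ℝ) : dt u (v - w) = dt u v - dt u w := by
  unfold dt
  rw [← Finset.sum_sub_distrib]
  exact Finset.sum_congr rfl fun _ _ => by simp only [Pi.sub_apply]; ring

theorem dt_smul_right (t : ℝ) (u v : α → ℝ) : dt u (t • v) = t * dt u v := by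
  unfold dt
  rw [Finset.mul_sum]
  exact Finset.sum_congr rfl fun _ _ => by simp only [Pi.smul_apply, smul_eq_mul]; ring

theorem dt_add_left (u v w : α → ℝ) : dt (u + v) w = dt u w + dt v w := by
  rw [dt_comm, dt_add_right, dt_comm w, dt_comm w]

theorem dt_sub_left (u v w : α → ℝ) : dt (u - v) w = dt u w - dt v w := by
  rw [dt_comm, dt_sub_right, dt_comm w, dt_comm w]

theorem dt_smul_left (t : ℝ) (u v : α → ℝ) : dt (t • u) v = t * dt u v := by
  rw [dt_comm, dt_smul_right, dt_comm]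

theorem dt_self_nonneg (u : α → ℝ) : 0 ≤ dt u u :=
  Finset.sum_nonneg fun _ _ => mul_self_nonneg _

theorem nm_nonneg (u : α → ℝ) : 0 ≤ nm u := Real.sqrt_nonneg _

theorem nm_sq (u : α → ℝ) : nm u ^ 2 = dt u u := Real.sq_sqrt (dt_self_nonneg u)

theorem abs_dt_le (u v : α → ℝ) : |dt u v| ≤ nm u * nm v := by
  have h : dt u v ^ 2 ≤ dt u u * dt v v := by
    have := Finset.sum_mul_sq_le_sq_mul_sq Finset.univ u v
    unfold dt
    simpa only [sq] using this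
  have h2 : |dt u v| ≤ √(dt u u * dt v v) := Real.abs_le_sqrt h
  rwa [Real.sqrt_mul (dt_self_nonneg u)] at h2

theorem nm_le_of {t : ℝ} (ht : 0 ≤ t) (h : dt u u ≤ t ^ 2) : nm u ≤ t :=
  Real.sqrt_le_iff.2 ⟨ht, h⟩

theorem nm_add_le (u v : α → ℝ) : nm (u + v) ≤ nm u + nm v := by
  refine nm_le_of (add_nonneg (nm_nonneg u) (nm_nonneg v)) ?_
  rw [dt_add_right, dt_add_left, dt_add_left, dt_comm v u]
  have h := le_abs_self (dt u v)
  have h2 := abs_dt_le u v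
  have e1 := nm_sq u
  have e2 := nm_sq v
  nlinarith

theorem nm_smul (t : ℝ) (u : α → ℝ) : nm (t • u) = |t| * nm u := by
  unfold nm
  rw [dt_smul_right, dt_smul_left, ← mul_assoc, Real.sqrt_mul (mul_self_nonneg t),
    Real.sqrt_mul_self_eq_abs]

theorem nm_sub_le (u v : α → ℝ) : nm (u - v) ≤ nm u + nm v := by
  have h := nm_add_le u ((-1 : ℝ) • v)
  rw [nm_smul] at h
  have e : u + (-1 : ℝ) • v = u - v := by
    funext r; simp only [Pi.add_apply, Pi.sub_apply, Pi.smul_apply, smul_eq_mul]; ring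
  rw [e] at h
  simpa using h

/-- The turn-on form of one slot without the `F`-term. -/
def tq (g c u : α → ℝ) : ℝ := dt g u * dt c u - 1 / 2 * (dt c g * dt u u)

/-- The turn-on form of one slot, `w` in the place of `x DW`. -/
def Qn (g c A w : α → ℝ) : ℝ := 8 * tq g c ((2 : ℝ) • w - A) + 16 * (dt c g * dt w w)

theorem tq_sub (g c u v : α → ℝ) : tq g c u - tq g c v =
    1 / 2 * (dt g (u - v) * dt c (u + v) + dt g (u + v) * dt c (u - v)) -
      1 / 2 * (dt c g * dt (u - v) (u + v)) := by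
  unfold tq
  rw [dt_sub_right, dt_add_right, dt_sub_right, dt_add_right, dt_add_right, dt_sub_left,
    dt_sub_left, dt_comm v u]
  ring

theorem tq_le (g c u : α → ℝ) : |tq g c u| ≤ 3 / 2 * (nm g * nm c) * nm u ^ 2 := by
  have h1 := abs_dt_le g u
  have h2 := abs_dt_le c u
  have h3 := abs_dt_le c g
  have g0 := nm_nonneg g
  have c0 := nm_nonneg c
  have u0 := nm_nonneg u
  have h4 : |dt g u * dt c u| ≤ nm g * nm u * (nm c * nm u) := by
    rw [abs_mul]; exact mul_le_mul h1 h2 (abs_nonneg _) (by positivity)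
  have h5 : |1 / 2 * (dt c g * dt u u)| ≤ 1 / 2 * (nm c * nm g * nm u ^ 2) := by
    rw [abs_mul, abs_mul, nm_sq, abs_of_nonneg (dt_self_nonneg u),
      abs_of_nonneg (by norm_num : (0 : ℝ) ≤ 1 / 2)]
    exact mul_le_mul_of_nonneg_left (mul_le_mul_of_nonneg_right h3 (dt_self_nonneg u))
      (by norm_num)
  unfold tq
  have h6 := abs_sub (dt g u * dt c u) (1 / 2 * (dt c g * dt u u))
  nlinarith

theorem tq_sub_le (g c u v : α → ℝ) :
    |tq g c u - tq g c v| ≤ 3 / 2 * (nm g * nm c) * (nm (u - v) * nm (u + v)) := by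
  rw [tq_sub]
  have g0 := nm_nonneg g
  have c0 := nm_nonneg c
  have u0 := nm_nonneg (u - v)
  have v0 := nm_nonneg (u + v)
  have h1 : |dt g (u - v) * dt c (u + v)| ≤ nm g * nm (u - v) * (nm c * nm (u + v)) := by
    rw [abs_mul]
    exact mul_le_mul (abs_dt_le _ _) (abs_dt_le _ _) (abs_nonneg _) (by positivity)
  have h2 : |dt g (u + v) * dt c (u - v)| ≤ nm g * nm (u + v) * (nm c * nm (u - v)) := by
    rw [abs_mul]
    exact mul_le_mul (abs_dt_le _ _) (abs_dt_le _ _) (abs_nonneg _) (by positivity)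
  have h3 : |dt c g * dt (u - v) (u + v)| ≤ nm c * nm g * (nm (u - v) * nm (u + v)) := by
    rw [abs_mul]
    exact mul_le_mul (abs_dt_le _ _) (abs_dt_le _ _) (abs_nonneg _) (by positivity)
  rw [abs_le] at h1 h2 h3 ⊢
  constructor <;> nlinarith [h1.1, h1.2, h2.1, h2.2, h3.1, h3.2]

theorem Qn_le (g c A w : α → ℝ) :
    |Qn g c A w| ≤ 112 * (nm g * nm c) * (nm A ^ 2 + nm w ^ 2) := by
  have h1 := tq_le g c ((2 : ℝ) • w - A)
  have h2 := nm_sub_le ((2 : ℝ) • w) A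
  rw [nm_smul, abs_of_nonneg (by norm_num : (0 : ℝ) ≤ 2)] at h2
  have h3 := abs_dt_le c g
  have g0 := nm_nonneg g
  have c0 := nm_nonneg c
  have A0 := nm_nonneg A
  have w0 := nm_nonneg w
  have u0 := nm_nonneg ((2 : ℝ) • w - A)
  have gc : 0 ≤ nm g * nm c := mul_nonneg g0 c0
  have h4 : nm ((2 : ℝ) • w - A) ^ 2 ≤ 8 * nm w ^ 2 + 2 * nm A ^ 2 := by
    nlinarith [sq_nonneg (2 * nm w - nm A), pow_le_pow_left₀ u0 h2 2]
  have h5 : |16 * (dt c g * dt w w)| ≤ 16 * (nm g * nm c) * nm w ^ 2 := by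
    rw [abs_mul, abs_mul, nm_sq, abs_of_nonneg (dt_self_nonneg w),
      abs_of_nonneg (by norm_num : (0 : ℝ) ≤ 16)]
    nlinarith [mul_le_mul_of_nonneg_right h3 (dt_self_nonneg w)]
  have h6 : |8 * tq g c ((2 : ℝ) • w - A)| ≤ 12 * (nm g * nm c) * (8 * nm w ^ 2 + 2 * nm A ^ 2) := by
    rw [abs_mul, abs_of_nonneg (by norm_num : (0 : ℝ) ≤ 8)]
    nlinarith [mul_le_mul_of_nonneg_left h4 gc]
  unfold Qn
  have h7 := abs_add_le (8 * tq g c ((2 : ℝ) • w - A)) (16 * (dt c g * dt w w))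
  nlinarith [mul_nonneg gc (sq_nonneg (nm A))]

theorem Qn_sub_le (g c A B v w : α → ℝ) :
    |Qn g c A v - Qn g c B w| ≤ 32 * (nm g * nm c) *
      ((2 * (nm v + nm w) + (nm A + nm B)) * (nm (v - w) + nm (A - B))) := by
  have e1 : (2 : ℝ) • v - A - ((2 : ℝ) • w - B) = (2 : ℝ) • (v - w) - (A - B) := by
    funext r; simp only [Pi.sub_apply, Pi.smul_apply, smul_eq_mul]; ring
  have e2 : (2 : ℝ) • v - A + ((2 : ℝ) • w - B) = (2 : ℝ) • (v + w) - (A + B) := by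
    funext r; simp only [Pi.sub_apply, Pi.add_apply, Pi.smul_apply, smul_eq_mul]; ring
  have h1 := tq_sub_le g c ((2 : ℝ) • v - A) ((2 : ℝ) • w - B)
  rw [e1, e2] at h1
  have h2 := nm_sub_le ((2 : ℝ) • (v - w)) (A - B)
  have h3 := nm_sub_le ((2 : ℝ) • (v + w)) (A + B)
  rw [nm_smul, abs_of_nonneg (by norm_num : (0 : ℝ) ≤ 2)] at h2 h3
  have h4 := nm_add_le v w
  have h5 := nm_add_le A B
  have g0 := nm_nonneg g
  have c0 := nm_nonneg c
  have gc : 0 ≤ nm g * nm c := mul_nonneg g0 c0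
  have a0 := nm_nonneg (v - w)
  have a1 := nm_nonneg (A - B)
  have a2 := nm_nonneg (v + w)
  have a3 := nm_nonneg (A + B)
  have b0 := nm_nonneg v
  have b1 := nm_nonneg w
  have b2 := nm_nonneg A
  have b3 := nm_nonneg B
  have s0 := nm_nonneg ((2 : ℝ) • (v - w) - (A - B))
  have s1 := nm_nonneg ((2 : ℝ) • (v + w) - (A + B))
  set S := 2 * (nm v + nm w) + (nm A + nm B) with hS
  set d := nm (v - w) with hd
  set a := nm (A - B) with ha
  have S0 : 0 ≤ S := by positivity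
  have h6 : nm ((2 : ℝ) • (v - w) - (A - B)) * nm ((2 : ℝ) • (v + w) - (A + B)) ≤
      (2 * d + a) * S :=
    mul_le_mul h2 (by linarith) s1 (by positivity)
  have h7 : |8 * tq g c ((2 : ℝ) • v - A) - 8 * tq g c ((2 : ℝ) • w - B)| ≤
      12 * (nm g * nm c) * ((2 * d + a) * S) := by
    rw [← mul_sub, abs_mul, abs_of_nonneg (by norm_num : (0 : ℝ) ≤ 8)]
    nlinarith [mul_le_mul_of_nonneg_left h6 gc]
  have e3 : dt v v - dt w w = dt (v - w) (v + w) := by
    rw [dt_add_right, dt_sub_left, dt_sub_left, dt_comm w v]; ring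
  have h8 : |16 * (dt c g * dt v v) - 16 * (dt c g * dt w w)| ≤
      16 * (nm g * nm c) * (d * (S / 2)) := by
    rw [← mul_sub, ← mul_sub, e3, abs_mul, abs_mul, abs_of_nonneg (by norm_num : (0 : ℝ) ≤ 16)]
    have h9 := abs_dt_le c g
    have h10 := abs_dt_le (v - w) (v + w)
    have h11 : nm (v - w) * nm (v + w) ≤ d * (S / 2) :=
      mul_le_mul_of_nonneg_left (by linarith) a0
    have h12 : |dt c g| * |dt (v - w) (v + w)| ≤ nm c * nm g * (d * (S / 2)) :=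
      mul_le_mul h9 (h10.trans h11) (abs_nonneg _) (mul_nonneg c0 g0)
    nlinarith
  unfold Qn
  have h13 := abs_add_le (8 * tq g c ((2 : ℝ) • v - A) - 8 * tq g c ((2 : ℝ) • w - B))
    (16 * (dt c g * dt v v) - 16 * (dt c g * dt w w))
  have e4 : 8 * tq g c ((2 : ℝ) • v - A) + 16 * (dt c g * dt v v) -
      (8 * tq g c ((2 : ℝ) • w - B) + 16 * (dt c g * dt w w)) =
      8 * tq g c ((2 : ℝ) • v - A) - 8 * tq g c ((2 : ℝ) • w - B) +
        (16 * (dt c g * dt v v) - 16 * (dt c g * dt w w)) := by ring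
  rw [e4]
  have h14 : 12 * (nm g * nm c) * ((2 * d + a) * S) + 16 * (nm g * nm c) * (d * (S / 2)) ≤
      32 * (nm g * nm c) * (S * (d + a)) := by
    nlinarith [mul_nonneg gc (mul_nonneg S0 a1)]
  linarith

theorem tq_lin_g (g h c u : α → ℝ) : tq (h - g) c u = tq h c u - tq g c u := by
  unfold tq; rw [dt_sub_left, dt_sub_right]; ring

theorem Qn_lin_g (g h c A w : α → ℝ) : Qn (h - g) c A w = Qn h c A w - Qn g c A w := by
  unfold Qn; rw [tq_lin_g, dt_sub_right]; ring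

theorem tq_lin_c (g c d u : α → ℝ) : tq g (c - d) u = tq g c u - tq g d u := by
  unfold tq; rw [dt_sub_left, dt_sub_left]; ring

theorem Qn_lin_c (g c d A w : α → ℝ) : Qn g (c - d) A w = Qn g c A w - Qn g d A w := by
  unfold Qn; rw [tq_lin_c, dt_sub_left]; ring

theorem num_T {p q a b s G D E S T : ℝ} (hp : 0 ≤ p) (hq : 0 ≤ q) (ha : 0 ≤ a) (hb : 0 ≤ b)
    (hS : S = 2 * (p + q) + (a + b))
    (hT : T = G ^ 2 * D ^ 2 + E ^ 2 * s ^ 2 + (a ^ 2 / 2 + b ^ 2 / 2) + (p ^ 2 + q ^ 2)) :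
    S * (G * D) ≤ 8 * T ∧ S * (s * E) ≤ 8 * T ∧ S * ((p + q) / 2) ≤ 4 * T ∧
      b ^ 2 + q ^ 2 ≤ 2 * T := by
  have z1 : 0 ≤ G ^ 2 * D ^ 2 := by positivity
  have z2 : 0 ≤ E ^ 2 * s ^ 2 := by positivity
  have a2 := sq_nonneg a
  have b2 := sq_nonneg b
  have p2 := sq_nonneg p
  have q2 := sq_nonneg q
  have S0 : 0 ≤ S := by rw [hS]; positivity
  have sS : S ^ 2 ≤ 16 * (a ^ 2 / 2 + b ^ 2 / 2 + (p ^ 2 + q ^ 2)) := by
    have y1 : S ^ 2 ≤ 8 * (p + q) ^ 2 + 2 * (a + b) ^ 2 := by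
      rw [hS]; linarith [sq_nonneg (2 * (p + q) - (a + b))]
    have y2 : (p + q) ^ 2 ≤ 2 * (p ^ 2 + q ^ 2) := by linarith [sq_nonneg (p - q)]
    have y3 : (a + b) ^ 2 ≤ 2 * (a ^ 2 + b ^ 2) := by linarith [sq_nonneg (a - b)]
    linarith
  have k1 : 2 * (S * (G * D)) ≤ S ^ 2 + G ^ 2 * D ^ 2 := by linarith [sq_nonneg (S - G * D)]
  have k2 : 2 * (S * (s * E)) ≤ S ^ 2 + E ^ 2 * s ^ 2 := by linarith [sq_nonneg (S - s * E)]
  have k3 : S * ((p + q) / 2) ≤ S * (S / 4) :=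
    mul_le_mul_of_nonneg_left (by rw [hS]; linarith) S0
  refine ⟨by linarith, by linarith, by linarith, by linarith⟩

theorem num_M {Q₁ Q₂ Q₃ g c h d cd S L G C M E s w D T η W : ℝ} (hη : 0 ≤ η) (hC : 1 ≤ C)
    (hM : 1 ≤ M) (hS : 0 ≤ S) (hL : 0 ≤ L) (hW : 0 ≤ W) (hc : 0 ≤ c) (hd : 0 ≤ d)
    (hcd : 0 ≤ cd) (hG : 0 ≤ G) (hT : 0 ≤ T)
    (q₁ : Q₁ ≤ 32 * (g * c) * (S * L)) (q₂ : Q₂ ≤ 112 * (g * cd) * W)
    (q₃ : Q₃ ≤ 112 * (h * d) * W) (h1 : g ≤ η * G) (h2 : h ≤ η * M) (h3 : c ≤ C) (h4 : d ≤ C)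
    (h5 : G * cd ≤ C * M) (k : G * L ≤ C * (s * E) + C * M * w + G * D)
    (T1 : S * (G * D) ≤ 8 * T) (T2 : S * (s * E) ≤ 8 * T) (T3 : S * w ≤ 4 * T)
    (T4 : W ≤ 2 * T) : Q₁ + Q₂ + Q₃ ≤ 1088 * C ^ 2 * (η * M) * T := by
  have hC0 : 0 ≤ C := by linarith
  have hM0 : 0 ≤ M := by linarith
  have hCM : 0 ≤ C * M := mul_nonneg hC0 hM0
  have hCM1 : 1 ≤ C * M := one_le_mul_of_one_le_of_one_le hC hM
  have hηG : 0 ≤ η * G := mul_nonneg hη hG
  have e1 : 32 * (g * c) * (S * L) ≤ 640 * (η * C) * (C * M * T) := by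
    have a1 : g * c ≤ η * G * C := mul_le_mul h1 h3 hc hηG
    have a2 : g * c * (S * L) ≤ η * G * C * (S * L) :=
      mul_le_mul_of_nonneg_right a1 (mul_nonneg hS hL)
    have a3 : S * (G * L) ≤ S * (C * (s * E) + C * M * w + G * D) :=
      mul_le_mul_of_nonneg_left k hS
    have a4 : C * (S * (s * E)) ≤ C * (8 * T) := mul_le_mul_of_nonneg_left T2 hC0
    have a5 : C * M * (S * w) ≤ C * M * (4 * T) := mul_le_mul_of_nonneg_left T3 hCM
    have a6 : C * (8 * T) ≤ C * M * (8 * T) :=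
      mul_le_mul_of_nonneg_right (le_mul_of_one_le_right hC0 hM) (by linarith)
    have a7 : 1 * (8 * T) ≤ C * M * (8 * T) := mul_le_mul_of_nonneg_right hCM1 (by linarith)
    have a8 : S * (G * L) ≤ 20 * (C * M * T) := by
      have : S * (C * (s * E) + C * M * w + G * D) =
        C * (S * (s * E)) + C * M * (S * w) + S * (G * D) := by ring
      linarith
    have a9 : η * C * (S * (G * L)) ≤ η * C * (20 * (C * M * T)) :=
      mul_le_mul_of_nonneg_left a8 (mul_nonneg hη hC0)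
    have : η * G * C * (S * L) = η * C * (S * (G * L)) := by ring
    linarith
  have e2 : 112 * (g * cd) * W ≤ 224 * (η * (C * M)) * T := by
    have a1 : g * cd ≤ η * G * cd := mul_le_mul_of_nonneg_right h1 hcd
    have a2 : η * (G * cd) ≤ η * (C * M) := mul_le_mul_of_nonneg_left h5 hη
    have a3 : g * cd ≤ η * (C * M) := by linarith
    have a4 : g * cd * W ≤ η * (C * M) * (2 * T) :=
      mul_le_mul a3 T4 hW (mul_nonneg hη hCM)
    linarith
  have e3 : 112 * (h * d) * W ≤ 224 * (η * M * C) * T := by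
    have a3 : h * d ≤ η * M * C := mul_le_mul h2 h4 hd (mul_nonneg hη hM0)
    have a4 : h * d * W ≤ η * M * C * (2 * T) :=
      mul_le_mul a3 T4 hW (mul_nonneg (mul_nonneg hη hM0) hC0)
    linarith
  have e4 : η * M * T * C ≤ η * M * T * C ^ 2 :=
    mul_le_mul_of_nonneg_left (by nlinarith) (mul_nonneg (mul_nonneg hη hM0) hT)
  have : 1088 * C ^ 2 * (η * M) * T = 640 * (η * C) * (C * M * T) +
    448 * (η * M * T * C ^ 2) := by ring
  linarith

/-- `|x v - y w|`. -/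
theorem nm_xy (v w : α → ℝ) (x y : ℝ) : nm (x • v - y • w) ≤ |x + y| / 2 * (nm v + nm w) +
    (|x| + |y|) / 2 * nm (v + w) := by
  have e1 : x • v - y • w = ((x + y) / 2) • (v - w) + ((x - y) / 2) • (v + w) := by
    funext r; simp only [Pi.sub_apply, Pi.add_apply, Pi.smul_apply, smul_eq_mul]; ring
  rw [e1]
  refine (nm_add_le _ _).trans ?_
  rw [nm_smul, nm_smul]
  have k2 := nm_sub_le v w
  have k3 : |(x - y) / 2| ≤ (|x| + |y|) / 2 := by
    rw [abs_div, abs_of_nonneg (by norm_num : (0 : ℝ) ≤ 2)]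
    have := abs_sub x y
    linarith
  have k4 : |(x + y) / 2| = |x + y| / 2 := by
    rw [abs_div, abs_of_nonneg (by norm_num : (0 : ℝ) ≤ 2)]
  rw [k4]
  exact add_le_add (mul_le_mul_of_nonneg_left k2 (by positivity))
    (mul_le_mul_of_nonneg_right k3 (nm_nonneg _))

theorem nm_xy' {v w : α → ℝ} {x y G E M C : ℝ} (hG : 0 ≤ G)
    (h6 : G * nm (v + w) ≤ C * M * nm v) (h6' : G * nm (v + w) ≤ C * M * nm w)
    (h7 : G * nm v ≤ C * E) (h7' : G * nm w ≤ C * E) :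
    G * nm (x • v - y • w) ≤ C * (|x + y| * E) + C * M * ((|x| * nm v + |y| * nm w) / 2) := by
  have X0 := abs_nonneg x
  have Y0 := abs_nonneg y
  have k6 := mul_le_mul_of_nonneg_left (nm_xy v w x y) hG
  have k7 : |x + y| / 2 * (G * nm v + G * nm w) ≤ |x + y| / 2 * (C * E + C * E) :=
    mul_le_mul_of_nonneg_left (add_le_add h7 h7') (by positivity)
  have k8 : |x| * (G * nm (v + w)) ≤ |x| * (C * M * nm v) := mul_le_mul_of_nonneg_left h6 X0
  have k9 : |y| * (G * nm (v + w)) ≤ |y| * (C * M * nm w) := mul_le_mul_of_nonneg_left h6' Y0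
  have e : G * (|x + y| / 2 * (nm v + nm w) + (|x| + |y|) / 2 * nm (v + w)) =
    |x + y| / 2 * (G * nm v + G * nm w) + (|x| * (G * nm (v + w)) + |y| * (G * nm (v + w))) / 2 := by
    ring
  have e2 : C * M * ((|x| * nm v + |y| * nm w) / 2) =
    (|x| * (C * M * nm v) + |y| * (C * M * nm w)) / 2 := by ring
  rw [e2]
  linarith

/-- The sum over the two slots, in frames. -/
theorem Qn_pair {g h c d A B v w : α → ℝ} {x y G E M C η : ℝ} (hη : 0 ≤ η) (hC : 1 ≤ C)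
    (hM : 1 ≤ M) (hG : 0 ≤ G)
    (h1 : nm g ≤ η * G) (h2 : nm h ≤ η * M) (h3 : nm c ≤ C) (h4 : nm d ≤ C)
    (h5 : G * nm (c - d) ≤ C * M)
    (h6 : G * nm (v + w) ≤ C * M * nm v) (h6' : G * nm (v + w) ≤ C * M * nm w)
    (h7 : G * nm v ≤ C * E) (h7' : G * nm w ≤ C * E) :
    |Qn g c A (x • v) + Qn (h - g) d B (y • w)| ≤ 1088 * C ^ 2 * (η * M) *
      (G ^ 2 * dt (A - B) (A - B) + E ^ 2 * (x + y) ^ 2 + (dt A A / 2 + dt B B / 2) +
        (dt v v * x ^ 2 + dt w w * y ^ 2)) := by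
  have e0 : Qn g c A (x • v) + Qn (h - g) d B (y • w) =
      (Qn g c A (x • v) - Qn g c B (y • w)) + Qn g (c - d) B (y • w) + Qn h d B (y • w) := by
    rw [Qn_lin_g, Qn_lin_c]; ring
  have t1 := Qn_sub_le g c A B (x • v) (y • w)
  have t2 := Qn_le g (c - d) B (y • w)
  have t3 := Qn_le h d B (y • w)
  rw [nm_smul] at t2 t3
  rw [nm_smul, nm_smul] at t1
  have p0 : 0 ≤ |x| * nm v := mul_nonneg (abs_nonneg x) (nm_nonneg v)
  have q0 : 0 ≤ |y| * nm w := mul_nonneg (abs_nonneg y) (nm_nonneg w)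
  obtain ⟨T1, T2, T3, T4⟩ := num_T (G := G) (D := nm (A - B)) (E := E) (s := |x + y|) p0 q0
    (nm_nonneg A) (nm_nonneg B) rfl rfl
  have k5 : G * (nm (x • v - y • w) + nm (A - B)) ≤ C * (|x + y| * E) +
      C * M * ((|x| * nm v + |y| * nm w) / 2) + G * nm (A - B) := by
    rw [mul_add]
    exact add_le_add_left (nm_xy' hG h6 h6' h7 h7') _
  have key := num_M hη hC hM (by have := nm_nonneg A; have := nm_nonneg B; linarith)
    (add_nonneg (nm_nonneg (x • v - y • w)) (nm_nonneg (A - B)))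
    (by positivity) (nm_nonneg c) (nm_nonneg d) (nm_nonneg (c - d)) hG (by positivity)
    t1 t2 t3 h1 h2 h3 h4 h5 k5 T1 T2 T3 T4
  have eT : G ^ 2 * dt (A - B) (A - B) + E ^ 2 * (x + y) ^ 2 + (dt A A / 2 + dt B B / 2) +
        (dt v v * x ^ 2 + dt w w * y ^ 2) = G ^ 2 * nm (A - B) ^ 2 + E ^ 2 * |x + y| ^ 2 +
        (nm A ^ 2 / 2 + nm B ^ 2 / 2) + ((|x| * nm v) ^ 2 + (|y| * nm w) ^ 2) := by
    rw [mul_pow, mul_pow, nm_sq, nm_sq, nm_sq, nm_sq, nm_sq, sq_abs, sq_abs, sq_abs]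
    ring
  rw [eT, e0]
  refine le_trans ?_ key
  have z1 := abs_add_le (Qn g c A (x • v) - Qn g c B (y • w) + Qn g (c - d) B (y • w))
    (Qn h d B (y • w))
  have z2 := abs_add_le (Qn g c A (x • v) - Qn g c B (y • w)) (Qn g (c - d) B (y • w))
  linarith

end vec

end Vale.Agent.P088.R2.H870.Z2
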