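import Vale.Agent.P088.R2.H870.Z2.On
import Vale.Agent.P088.R2.H870.Z2.Spec

/-!
# P088, stage 3, zone II: the field `HP.on` from the pointwise bounds
-/

open Set Filter
open scoped ContDiff Topology

noncomputable section

namespace Vale.Agent.P088.R2.H870.Z2

open Vale.Agent.P088.R2.H961.GW Vale.Agent.P088.R2.H960.W Vale.Agent.P088.R2.H86.Z

section size

variable {α ι : Type*} [Fintype α] [Fintype ι]

theorem nm_card {u : α → ℝ} {t ν : ℝ} (ht : 0 ≤ t) (hν : (Fintype.card α : ℝ) + 1 ≤ ν)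
    (h : ∀ r, |u r| ≤ t) : nm u ≤ ν * t := by
  have h0 : (0 : ℝ) ≤ Fintype.card α := Nat.cast_nonneg _
  refine nm_le_of (mul_nonneg (by linarith) ht) ?_
  have h1 : dt u u ≤ ∑ _r : α, t ^ 2 := Finset.sum_le_sum fun r _ => by
    have := sq_le_sq' (by linarith [neg_le_of_abs_le (h r)]) (le_of_abs_le (h r))
    linarith [this, sq (u r)]
  rw [Finset.sum_const, Finset.card_univ, nsmul_eq_mul] at h1
  have h2 : (Fintype.card α : ℝ) ≤ ν ^ 2 := by nlinarith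
  have h3 := mul_le_mul_of_nonneg_right h2 (sq_nonneg t)
  calc _ ≤ _ := h1
    _ ≤ _ := h3
    _ = _ := by ring

/-- A matrix on a vector. -/
def mv (p : α → ι → ℝ) (u : ι → ℝ) (a : α) : ℝ := ∑ i, p a i * u i

omit [Fintype α] in
theorem mv_add (p : α → ι → ℝ) (u v : ι → ℝ) : mv p (u + v) = mv p u + mv p v := by
  funext a
  unfold mv
  rw [Pi.add_apply, ← Finset.sum_add_distrib]
  exact Finset.sum_congr rfl fun _ _ => by simp only [Pi.add_apply]; ring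

omit [Fintype α] in
theorem mv_sub (p : α → ι → ℝ) (u v : ι → ℝ) : mv p (u - v) = mv p u - mv p v := by
  funext a
  unfold mv
  rw [Pi.sub_apply, ← Finset.sum_sub_distrib]
  exact Finset.sum_congr rfl fun _ _ => by simp only [Pi.sub_apply]; ring

omit [Fintype α] in
theorem mv_smul (p : α → ι → ℝ) (t : ℝ) (u : ι → ℝ) : mv p (t • u) = t • mv p u := by
  funext a
  unfold mv
  rw [Pi.smul_apply, smul_eq_mul, Finset.mul_sum]
  exact Finset.sum_congr rfl fun _ _ => by simp only [Pi.smul_apply, smul_eq_mul]; ring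

omit [Fintype α] in
theorem mv_sub_left (p q : α → ι → ℝ) (u : ι → ℝ) :
    mv (fun a i => q a i - p a i) u = mv q u - mv p u := by
  funext a
  unfold mv
  rw [Pi.sub_apply, ← Finset.sum_sub_distrib]
  exact Finset.sum_congr rfl fun _ _ => by ring

theorem nm_mv_sm {p : α → ι → ℝ} {u : ι → ℝ} {s t ν : ℝ} (hs : 0 ≤ s) (ht : 0 ≤ t)
    (hα : (Fintype.card α : ℝ) + 1 ≤ ν) (hι : (Fintype.card ι : ℝ) + 1 ≤ ν)
    (hp : ∀ a i, |p a i| ≤ s) (hu : ∀ i, |u i| ≤ t) : nm (mv p u) ≤ ν ^ 2 * (s * t) := by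
  have h0 : (0 : ℝ) ≤ Fintype.card ι := Nat.cast_nonneg _
  have h1 : ∀ a, |mv p u a| ≤ ν * (s * t) := by
    intro a
    refine (Finset.abs_sum_le_sum_abs _ _).trans ?_
    have h2 : ∑ i, |p a i * u i| ≤ ∑ _i : ι, s * t := Finset.sum_le_sum fun i _ => by
      rw [abs_mul]; exact mul_le_mul (hp a i) (hu i) (abs_nonneg _) hs
    rw [Finset.sum_const, Finset.card_univ, nsmul_eq_mul] at h2
    exact h2.trans (mul_le_mul_of_nonneg_right (by linarith) (mul_nonneg hs ht))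
  have h3 := nm_card (mul_nonneg (by linarith) (mul_nonneg hs ht)) hα h1
  calc _ ≤ _ := h3
    _ = _ := by ring

/-- `s(A, B)` in a frame. -/
theorem dt_mv {p : α → ι → ℝ} {s : ι → ι → ℝ} (fr : ∀ i j, ∑ a, p a i * p a j = s i j)
    (A B : ι → ℝ) : dt (mv p A) (mv p B) = ∑ i, ∑ j, s i j * A i * B j := by
  unfold dt mv
  have e : ∀ a, (∑ i, p a i * A i) * (∑ j, p a j * B j) =
      ∑ i, ∑ j, p a i * p a j * A i * B j := fun a => by
    rw [Finset.sum_mul_sum]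
    exact Finset.sum_congr rfl fun i _ => Finset.sum_congr rfl fun j _ => by ring
  rw [Finset.sum_congr rfl fun a _ => e a, Finset.sum_comm]
  refine Finset.sum_congr rfl fun i _ => ?_
  rw [Finset.sum_comm]
  refine Finset.sum_congr rfl fun j _ => ?_
  rw [← fr, Finset.sum_mul, Finset.sum_mul]

theorem nm_mv_el {p : α → ι → ℝ} {s : ι → ι → ℝ} (fr : ∀ i j, ∑ a, p a i * p a j = s i j)
    (up : ∀ A : ι → ℝ, ∑ i, ∑ j, s i j * A i * A j ≤ 2 * ∑ i, A i ^ 2) {u : ι → ℝ} {t ν : ℝ}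
    (ht : 0 ≤ t) (hι : (Fintype.card ι : ℝ) + 1 ≤ ν) (hu : ∀ i, |u i| ≤ t) :
    nm (mv p u) ≤ 2 * ν * t := by
  have h1 := nm_card ht hι hu
  have h0 : (0 : ℝ) ≤ Fintype.card ι := Nat.cast_nonneg _
  have hν : 0 ≤ ν := by linarith
  refine nm_le_of (by positivity) ?_
  rw [dt_mv fr]
  have h2 := up u
  have h3 : ∑ i, u i ^ 2 = nm u ^ 2 := by
    rw [nm_sq]; exact Finset.sum_congr rfl fun _ _ => sq _
  have h4 := pow_le_pow_left₀ (nm_nonneg u) h1 2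
  rw [h3] at h2
  nlinarith

/-! ## The nine bounds, in frames -/

/-- The constant of a point. -/
def KC (ν A : ℝ) : ℝ := 4 * ν ^ 2 * A ^ 3

variable {P Q : α → ι → ℝ} {s s' : ι → ι → ℝ} {d d' D₁ D₂ w w' : ι → ℝ}
  {A En N r κ h ν b M : ℝ}

theorem KC_ge {s t : ℝ} (hA : 1 ≤ A) (hν : 1 ≤ ν) (hs : 0 ≤ s) (h1 : s ≤ A ^ 3)
    (h2 : t ≤ A ^ 3) : 2 * ν * s + ν ^ 2 * t ≤ KC ν A := by
  have a1 : 2 * ν * s ≤ 2 * ν ^ 2 * A ^ 3 :=
    mul_le_mul (by nlinarith) h1 hs (by positivity)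
  have a2 : ν ^ 2 * t ≤ ν ^ 2 * A ^ 3 := mul_le_mul_of_nonneg_left h2 (by positivity)
  have : 0 ≤ ν ^ 2 * A ^ 3 := by positivity
  unfold KC; linarith

theorem KC_one (hA : 1 ≤ A) (hν : 1 ≤ ν) : 1 ≤ KC ν A := by
  have : 1 ≤ ν ^ 2 * A ^ 3 :=
    one_le_mul_of_one_le_of_one_le (one_le_pow₀ hν) (one_le_pow₀ hA)
  unfold KC; linarith

theorem one3 (hA : 1 ≤ A) : 1 ≤ A ^ 3 := one_le_pow₀ hA
theorem A13 (hA : 1 ≤ A) : A ≤ A ^ 3 := le_self_pow₀ hA (by norm_num)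
theorem A23 (hA : 1 ≤ A) : A ^ 2 ≤ A ^ 3 := pow_le_pow_right₀ hA (by norm_num)

theorem geo_x (hA : 1 ≤ A) (hι : (Fintype.card ι : ℝ) + 1 ≤ ν) (hr : 0 < r) (hh : 0 ≤ h)
    (hb : 1 ≤ b) (f₁ : ∀ i j, ∑ a, P a i * P a j = s i j)
    (u1 : ∀ A : ι → ℝ, ∑ i, ∑ j, s i j * A i * A j ≤ 2 * ∑ i, A i ^ 2)
    (cx : ∀ i, |d i| ≤ h / r) : nm (mv P d) ≤ KC ν A * h * (b / r) := by
  have hν : 1 ≤ ν := by
    have : (0 : ℝ) ≤ Fintype.card ι := Nat.cast_nonneg _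
    linarith
  have a1 := nm_mv_el f₁ u1 (div_nonneg hh hr.le) hι cx
  have a2 := KC_ge (t := 0) hA hν (zero_le_one) (one3 hA) (by positivity)
  have K0 : 0 ≤ KC ν A := zero_le_one.trans (KC_one hA hν)
  have a3 : 2 * ν * (h / r) ≤ KC ν A * (h / r) :=
    mul_le_mul_of_nonneg_right (by linarith) (by positivity)
  have a4 : KC ν A * (h / r) ≤ KC ν A * (h / r) * b :=
    le_mul_of_one_le_right (by positivity) hb
  calc _ ≤ _ := a1
    _ ≤ _ := a3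
    _ ≤ _ := a4
    _ = _ := by ring

theorem geo_s (hA : 1 ≤ A) (hα : (Fintype.card α : ℝ) + 1 ≤ ν)
    (hι : (Fintype.card ι : ℝ) + 1 ≤ ν) (hr : 0 < r) (hh : 0 ≤ h)
    (hb : 1 ≤ b) (hM : 1 ≤ M) (f₁ : ∀ i j, ∑ a, P a i * P a j = s i j)
    (u1 : ∀ A : ι → ℝ, ∑ i, ∑ j, s i j * A i * A j ≤ 2 * ∑ i, A i ^ 2)
    (ed : ∀ a i, |P a i - Q a i| ≤ A * r)
    (cy : ∀ i, |d' i| ≤ h / r) (cs : ∀ i, |d i + d' i| ≤ h) :
    nm (mv P d + mv Q d') ≤ KC ν A * h * (b * M) := by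
  have hν : 1 ≤ ν := by
    have : (0 : ℝ) ≤ Fintype.card ι := Nat.cast_nonneg _
    linarith
  have hA0 : 0 ≤ A := by linarith
  have r0 : 0 ≤ A * r := mul_nonneg hA0 hr.le
  have ed' : ∀ a i, |Q a i - P a i| ≤ A * r := fun a i => by rw [abs_sub_comm]; exact ed a i
  have e : mv P d + mv Q d' = mv P (d + d') + mv (fun a i => Q a i - P a i) d' := by
    rw [mv_add, mv_sub_left]; abel
  rw [e]
  have a1 := nm_mv_el f₁ u1 hh hι (u := d + d') cs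
  have a2 := nm_mv_sm r0 (div_nonneg hh hr.le) hα hι ed' cy
  have a3 := nm_add_le (mv P (d + d')) (mv (fun a i => Q a i - P a i) d')
  have a4 : A * r * (h / r) = A * h := by field_simp
  rw [a4] at a2
  have a5 := mul_le_mul_of_nonneg_right (KC_ge hA hν zero_le_one (one3 hA) (A13 hA)) hh
  have K0 : 0 ≤ KC ν A := zero_le_one.trans (KC_one hA hν)
  have a6 : KC ν A * h ≤ KC ν A * h * (b * M) :=
    le_mul_of_one_le_right (by positivity) (one_le_mul_of_one_le_of_one_le hb hM)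
  linarith

theorem geo_c (hA : 1 ≤ A) (hι : (Fintype.card ι : ℝ) + 1 ≤ ν)
    (f₁ : ∀ i j, ∑ a, P a i * P a j = s i j)
    (u1 : ∀ A : ι → ℝ, ∑ i, ∑ j, s i j * A i * A j ≤ 2 * ∑ i, A i ^ 2)
    (fc : ∀ i, |D₁ i| ≤ A) : nm (mv P D₁) ≤ KC ν A := by
  have hν : 1 ≤ ν := by
    have : (0 : ℝ) ≤ Fintype.card ι := Nat.cast_nonneg _
    linarith
  have hA0 : 0 ≤ A := by linarith
  have a1 := nm_mv_el f₁ u1 hA0 hι fc
  have a2 := KC_ge (t := 0) hA hν hA0 (A13 hA) (by positivity)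
  linarith

theorem geo_d (hA : 1 ≤ A) (hα : (Fintype.card α : ℝ) + 1 ≤ ν)
    (hι : (Fintype.card ι : ℝ) + 1 ≤ ν) (hr : 0 < r) (hM : 1 ≤ M) (hb : 1 ≤ b)
    (f₁ : ∀ i j, ∑ a, P a i * P a j = s i j)
    (u1 : ∀ A : ι → ℝ, ∑ i, ∑ j, s i j * A i * A j ≤ 2 * ∑ i, A i ^ 2)
    (ed : ∀ a i, |P a i - Q a i| ≤ A * r)
    (fc : ∀ i, |D₂ i| ≤ A) (fd : ∀ i, |D₁ i - D₂ i| ≤ A * (r * M)) :
    b / r * nm (mv P D₁ - mv Q D₂) ≤ KC ν A * (b * M) := by
  have hν : 1 ≤ ν := by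
    have : (0 : ℝ) ≤ Fintype.card ι := Nat.cast_nonneg _
    linarith
  have hA0 : 0 ≤ A := by linarith
  have r0 : 0 ≤ A * r := mul_nonneg hA0 hr.le
  have ed' : ∀ a i, |Q a i - P a i| ≤ A * r := fun a i => by rw [abs_sub_comm]; exact ed a i
  have e : mv P D₁ - mv Q D₂ = mv P (D₁ - D₂) - mv (fun a i => Q a i - P a i) D₂ := by
    rw [mv_sub, mv_sub_left]; abel
  rw [e]
  have rM : 0 ≤ r * M := by positivity
  have a1 := nm_mv_el f₁ u1 (mul_nonneg hA0 rM) hι (u := D₁ - D₂) fd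
  have a2 := nm_mv_sm r0 hA0 hα hι ed' fc
  have a3 := nm_sub_le (mv P (D₁ - D₂)) (mv (fun a i => Q a i - P a i) D₂)
  have a5 : ν ^ 2 * (A * r * A) ≤ ν ^ 2 * (A ^ 2 * (r * M)) := by
    have e1 : A * r * A = A ^ 2 * r := by ring
    rw [e1]
    have : A ^ 2 * r ≤ A ^ 2 * (r * M) :=
      mul_le_mul_of_nonneg_left (le_mul_of_one_le_right hr.le hM) (by positivity)
    exact mul_le_mul_of_nonneg_left this (by positivity)
  have a6 := mul_le_mul_of_nonneg_right (KC_ge hA hν hA0 (A13 hA) (A23 hA)) rM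
  have a7 : nm (mv P (D₁ - D₂) - mv (fun a i => Q a i - P a i) D₂) ≤ KC ν A * (r * M) := by
    linarith
  have a8 := mul_le_mul_of_nonneg_left a7 (by positivity : 0 ≤ b / r)
  have a9 : b / r * (KC ν A * (r * M)) = KC ν A * (b * M) := by field_simp
  linarith

theorem geo_w (hA : 1 ≤ A) (hα : (Fintype.card α : ℝ) + 1 ≤ ν)
    (hι : (Fintype.card ι : ℝ) + 1 ≤ ν) (hr : 0 < r) (hEn : 0 < En) (hN : 0 ≤ N) (hb : 1 ≤ b)
    (hM : 1 + N / (En * r ^ 2) ≤ M)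
    (f₁ : ∀ i j, ∑ a, P a i * P a j = s i j)
    (u1 : ∀ A : ι → ℝ, ∑ i, ∑ j, s i j * A i * A j ≤ 2 * ∑ i, A i ^ 2)
    (ed : ∀ a i, |P a i - Q a i| ≤ A * r)
    (wy : ∀ i, |w' i| ≤ A * (En * r)) (ws : ∀ i, |w i + w' i| ≤ A * (N + En * r ^ 2))
    {V : α → ℝ} (hV : (En * r) ^ 2 ≤ A * dt V V) :
    b / r * nm (mv P w + mv Q w') ≤ KC ν A * (b * M) * nm V := by
  have hν : 1 ≤ ν := by
    have : (0 : ℝ) ≤ Fintype.card ι := Nat.cast_nonneg _
    linarith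
  have hA0 : 0 ≤ A := by linarith
  have r0 : 0 ≤ A * r := mul_nonneg hA0 hr.le
  have Er : 0 ≤ En * r := by positivity
  have n0 := nm_nonneg V
  have hV' : En * r ≤ A * nm V := by
    rw [← nm_sq] at hV
    refine le_of_sq_le_sq ?_ (mul_nonneg hA0 n0)
    have : A * nm V ^ 2 ≤ A ^ 2 * nm V ^ 2 :=
      mul_le_mul_of_nonneg_right (by nlinarith) (sq_nonneg _)
    rw [mul_pow]; linarith
  have ed' : ∀ a i, |Q a i - P a i| ≤ A * r := fun a i => by rw [abs_sub_comm]; exact ed a i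
  have h6 : nm (mv P w + mv Q w') ≤ (2 * ν * A + ν ^ 2 * A ^ 2) * (N + En * r ^ 2) := by
    have e : mv P w + mv Q w' = mv P (w + w') + mv (fun a i => Q a i - P a i) w' := by
      rw [mv_add, mv_sub_left]; abel
    rw [e]
    have p1 : 0 ≤ N + En * r ^ 2 := by positivity
    have a1 := nm_mv_el f₁ u1 (mul_nonneg hA0 p1) hι (u := w + w') ws
    have a2 := nm_mv_sm r0 (mul_nonneg hA0 Er) hα hι ed' (u := w') wy
    have a3 := nm_add_le (mv P (w + w')) (mv (fun a i => Q a i - P a i) w')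
    have a4 : ν ^ 2 * (A * r * (A * (En * r))) ≤ ν ^ 2 * A ^ 2 * (N + En * r ^ 2) := by
      have : ν ^ 2 * (A * r * (A * (En * r))) = ν ^ 2 * A ^ 2 * (En * r ^ 2) := by ring
      rw [this]
      exact mul_le_mul_of_nonneg_left (by linarith) (by positivity)
    linarith
  have a1 := mul_le_mul_of_nonneg_left h6 (by positivity : 0 ≤ b / r)
  have a2 : b / r * ((2 * ν * A + ν ^ 2 * A ^ 2) * (N + En * r ^ 2)) =
      (2 * ν * A + ν ^ 2 * A ^ 2) * (b * (1 + N / (En * r ^ 2))) * (En * r) := by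
    field_simp
    ring
  have nn : 0 ≤ N / (En * r ^ 2) := by positivity
  have a4 : (2 * ν * A + ν ^ 2 * A ^ 2) * (b * (1 + N / (En * r ^ 2))) * (En * r) ≤
      (2 * ν * A + ν ^ 2 * A ^ 2) * (b * M) * (A * nm V) := by
    have c1 : b * (1 + N / (En * r ^ 2)) ≤ b * M := mul_le_mul_of_nonneg_left hM (by linarith)
    have c2 : 0 ≤ 2 * ν * A + ν ^ 2 * A ^ 2 := by positivity
    have c3 : 0 ≤ b * M := by nlinarith
    exact mul_le_mul (mul_le_mul_of_nonneg_left c1 c2) hV' Er (mul_nonneg c2 c3)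
  have c3 : 0 ≤ b * M := by nlinarith
  have a5 := mul_le_mul_of_nonneg_right (KC_ge (s := A ^ 2) (t := A ^ 3) hA hν (by positivity)
    (A23 hA) le_rfl) (mul_nonneg c3 n0)
  calc _ ≤ _ := a1
    _ = _ := a2
    _ ≤ _ := a4
    _ = (2 * ν * A ^ 2 + ν ^ 2 * A ^ 3) * (b * M * nm V) := by ring
    _ ≤ _ := a5
    _ = _ := by ring

theorem geo_W (hA : 1 ≤ A) (hι : (Fintype.card ι : ℝ) + 1 ≤ ν) (hr : 0 < r) (hEn : 0 < En)
    (hb : 1 ≤ b) (f₁ : ∀ i j, ∑ a, P a i * P a j = s i j)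
    (u1 : ∀ A : ι → ℝ, ∑ i, ∑ j, s i j * A i * A j ≤ 2 * ∑ i, A i ^ 2)
    (wx : ∀ i, |w i| ≤ A * (En * r)) : b / r * nm (mv P w) ≤ KC ν A * (b * En) := by
  have hν : 1 ≤ ν := by
    have : (0 : ℝ) ≤ Fintype.card ι := Nat.cast_nonneg _
    linarith
  have hA0 : 0 ≤ A := by linarith
  have Er : 0 ≤ En * r := by positivity
  have hV := nm_mv_el f₁ u1 (mul_nonneg hA0 Er) hι wx
  have a1 := mul_le_mul_of_nonneg_left hV (by positivity : 0 ≤ b / r)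
  have a2 : b / r * (2 * ν * (A * (En * r))) = 2 * ν * A * (b * En) := by field_simp
  have a3 := mul_le_mul_of_nonneg_right (KC_ge (t := 0) hA hν hA0 (A13 hA) (by positivity))
    (by positivity : 0 ≤ b * En)
  linarith

end size

variable {E ι α : Type*} [NormedAddCommGroup E] [NormedSpace ℝ E] [Fintype ι] [Fintype α]

/-- The constant. -/
def KO (ν A : ℝ) : ℝ := 2176 * KC ν A ^ 3

section slot

variable {σ τ : Sl E ι} {W χ v₁ v₂ k g e Z : E → ℝ} {C₁ C₂ c c' : ι → E → ℝ}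
  {p q : α → ι → E → ℝ} {z : E} {A En N r κ h ν β : ℝ}

/-- The turn-on density of a slot in a frame. -/
theorem on_fr {P : α → ι → ℝ} {C : ι → ℝ} (fr : ∀ i j, ∑ a, P a i * P a j = σ.s i j z)
    (hc : ∀ i, c i z = ∑ j, σ.s i j z * C j) (X : ι → ℝ) (x : ℝ) :
    8 * onf σ c χ z (fun i => 2 * x * σ.D i W z - X i) +
      16 * (cD σ c χ z * σ.F W z * x ^ 2) =
      Qn (mv P fun i => σ.D i χ z) (mv P C) (mv P X) (x • mv P fun i => σ.D i W z) := by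
  set d : ι → ℝ := fun i => σ.D i χ z with hd
  set w : ι → ℝ := fun i => σ.D i W z with hw
  have sy : ∀ i j, σ.s i j z = σ.s j i z := fun i j => by
    rw [← fr, ← fr]; exact Finset.sum_congr rfl fun _ _ => mul_comm _ _
  have e1 : ∀ u : ι → ℝ, ∑ l, c l z * u l = dt (mv P C) (mv P u) := by
    intro u
    rw [dt_mv fr, Finset.sum_comm]
    refine Finset.sum_congr rfl fun l _ => ?_
    rw [hc, Finset.sum_mul]
    exact Finset.sum_congr rfl fun j _ => by rw [sy l j]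
  have e2 : cD σ c χ z = dt (mv P C) (mv P d) := e1 d
  have e3 : σ.F W z = dt (mv P w) (mv P w) := by
    rw [dt_mv fr]; rfl
  have e4 : (fun i => 2 * x * σ.D i W z - X i) = (2 * x) • w - X := by
    funext i; simp only [Pi.sub_apply, Pi.smul_apply, smul_eq_mul, hw]
  have e5 : (2 : ℝ) • (x • mv P w) - mv P X = mv P ((2 * x) • w - X) := by
    rw [mv_sub, mv_smul, smul_smul]
  unfold Qn tq onf
  rw [e4, e5, e2, e3, e1, dt_smul_left, dt_smul_right, dt_mv fr d, dt_mv fr ((2 * x) • w - X)]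
  ring

omit [Fintype α] in
theorem on_fin {s₁ s₂ t₁ t₂ T u b M K h zz X : ℝ}
    (key : |8 * s₁ + 16 * t₁ + (8 * s₂ + 16 * t₂)| ≤ 1088 * K ^ 2 * (K * h * (b * M)) * T)
    (hT : T ≤ u) (hu : 0 ≤ u) (hZ : 2176 * K ^ 3 * (b * |X| * h * M) ≤ zz) (hM : 1 ≤ M)
    (hb : 1 ≤ b) (hK : 1 ≤ K) (hh : 0 ≤ h) :
    |2 * X * (8 * (s₁ + s₂) + 16 * (t₁ + t₂))| ≤ zz * u := by
  have c0 : 0 ≤ 1088 * K ^ 2 * (K * h * (b * M)) := by positivity
  have e2 : 8 * (s₁ + s₂) + 16 * (t₁ + t₂) = 8 * s₁ + 16 * t₁ + (8 * s₂ + 16 * t₂) := by ring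
  rw [abs_mul, abs_mul, abs_of_nonneg (by norm_num : (0 : ℝ) ≤ 2), e2]
  have s1 := mul_le_mul_of_nonneg_left (key.trans (mul_le_mul_of_nonneg_left hT c0))
    (mul_nonneg (by norm_num : (0 : ℝ) ≤ 2) (abs_nonneg X))
  have s2 : 2 * |X| * (1088 * K ^ 2 * (K * h * (b * M)) * u) =
      2176 * K ^ 3 * (b * |X| * h * M) * u := by ring
  exact (s1.trans_eq s2).trans (mul_le_mul_of_nonneg_right hZ hu)

theorem on_of (hA : 1 ≤ A) (hα : (Fintype.card α : ℝ) + 1 ≤ ν) (hι : (Fintype.card ι : ℝ) + 1 ≤ ν)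
    (hEn : 0 < En) (hr : 0 < r) (hN : 0 ≤ N) (hκ : 0 ≤ κ) (hh : 0 ≤ h) (hβ : 1 ≤ β)
    (el₁ : El σ z) (el₂ : El τ z) (mb : MB σ τ p q A r z)
    (fb : FB σ τ C₁ C₂ c c' A En N r κ z) (cb : CB σ τ χ h r z) (wb : W1 σ τ W A En N r z)
    (hg : g z = β / r ^ 2) (he : e z = β * En ^ 2)
    (hZ : KO ν A * (√β * |χ z| * h * (1 + (N + κ) / (En * r ^ 2))) ≤ Z z)
    (X Y : ι → ℝ) (x y : ℝ) :
    |2 * χ z * (8 * (onf σ c χ z (fun i => 2 * x * σ.D i W z - X i) +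
        onf τ c' χ z (fun i => 2 * y * τ.D i W z - Y i)) +
      16 * (cD σ c χ z * σ.F W z * x ^ 2 + cD τ c' χ z * τ.F W z * y ^ 2))| ≤
    Z z * uf σ τ W g e p q z X Y x y := by
  set P : α → ι → ℝ := fun a i => p a i z with hP
  set Q : α → ι → ℝ := fun a i => q a i z with hQ
  set d : ι → ℝ := fun i => σ.D i χ z with hd
  set d' : ι → ℝ := fun i => τ.D i χ z with hd'
  set w : ι → ℝ := fun i => σ.D i W z with hw
  set w' : ι → ℝ := fun i => τ.D i W z with hw'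
  set D₁ : ι → ℝ := fun j => C₁ j z with hD₁
  set D₂ : ι → ℝ := fun j => C₂ j z with hD₂
  have o1 := on_fr (σ := σ) (W := W) (χ := χ) (c := c) (C := D₁) (P := P) mb.f₁ fb.e₁ X x
  have o2 := on_fr (σ := τ) (W := W) (χ := χ) (c := c') (C := D₂) (P := Q) mb.f₂ fb.e₂ Y y
  have u1 := el₁.up
  have u2 := el₂.up
  have hν : 1 ≤ ν := by
    have : (0 : ℝ) ≤ Fintype.card ι := Nat.cast_nonneg _
    linarith
  -- numbers
  set M : ℝ := 1 + (N + κ) / (En * r ^ 2) with hM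
  have M1 : 1 ≤ M := by
    have : 0 ≤ (N + κ) / (En * r ^ 2) := by positivity
    linarith
  have M2 : 1 + N / (En * r ^ 2) ≤ M := by
    have : N / (En * r ^ 2) ≤ (N + κ) / (En * r ^ 2) := by gcongr; linarith
    linarith
  set b : ℝ := √β with hb
  have b1 : 1 ≤ b := by rw [hb]; exact Real.one_le_sqrt.2 hβ
  have b2 : b ^ 2 = β := Real.sq_sqrt (by linarith)
  have K1 := KC_one hA hν
  have fd : ∀ i, |D₁ i - D₂ i| ≤ A * (r * M) := by
    have a4 : r + (N + κ) / (En * r) = r * M := by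
      rw [hM]; field_simp
    intro i
    rw [← a4]; exact fb.df i
  have F1 : σ.F W z = dt (mv P w) (mv P w) := by rw [dt_mv mb.f₁]; rfl
  have F2 : τ.F W z = dt (mv Q w') (mv Q w') := by rw [dt_mv mb.f₂]; rfl
  have key := Qn_pair (g := mv P d) (h := mv P d + mv Q d') (c := mv P D₁) (d := mv Q D₂)
    (A := mv P X) (B := mv Q Y) (v := mv P w) (w := mv Q w') (x := x) (y := y)
    (G := b / r) (E := b * En) (M := b * M) (C := KC ν A) (η := KC ν A * h)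
    (mul_nonneg (zero_le_one.trans K1) hh) K1
    (one_le_mul_of_one_le_of_one_le b1 M1) (by positivity)
    (geo_x hA hι hr hh b1 mb.f₁ u1 cb.x)
    (geo_s hA hα hι hr hh b1 M1 mb.f₁ u1 mb.df cb.y cb.s)
    (geo_c hA hι mb.f₁ u1 fb.b₁) (geo_c hA hι mb.f₂ u2 fb.b₂)
    (geo_d hA hα hι hr M1 b1 mb.f₁ u1 mb.df fb.b₂ fd)
    (geo_w hA hα hι hr hEn hN b1 M2 mb.f₁ u1 mb.df wb.y wb.s (by rw [← F1]; exact wb.F₁))
    (geo_w hA hα hι hr hEn hN b1 M2 mb.f₁ u1 mb.df wb.y wb.s (by rw [← F2]; exact wb.F₂))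
    (geo_W hA hι hr hEn b1 mb.f₁ u1 wb.x) (geo_W hA hι hr hEn b1 mb.f₂ u2 wb.y)
  have e1 : mv P d + mv Q d' - mv P d = mv Q d' := by abel
  rw [e1, ← o1, ← o2] at key
  -- the unit density
  have t3 : dt (mv P X) (mv P X) / 2 + dt (mv Q Y) (mv Q Y) / 2 ≤
      (∑ i, X i ^ 2) + ∑ i, Y i ^ 2 := by
    have t1 := u1 X
    have t2 := u2 Y
    rw [dt_mv mb.f₁, dt_mv mb.f₂]; linarith
  have t4 : wq p q z X Y = dt (mv P X - mv Q Y) (mv P X - mv Q Y) := by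
    unfold wq dt
    exact Finset.sum_congr rfl fun a _ => by rw [sq]; rfl
  have uf0 : (b / r) ^ 2 * dt (mv P X - mv Q Y) (mv P X - mv Q Y) +
      (b * En) ^ 2 * (x + y) ^ 2 + (dt (mv P X) (mv P X) / 2 + dt (mv Q Y) (mv Q Y) / 2) +
      (dt (mv P w) (mv P w) * x ^ 2 + dt (mv Q w') (mv Q w') * y ^ 2) ≤
      uf σ τ W g e p q z X Y x y := by
    unfold uf
    rw [hg, he, t4, div_pow, mul_pow, b2, ← F1, ← F2]
    linarith
  have ufn : 0 ≤ uf σ τ W g e p q z X Y x y := by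
    refine le_trans ?_ uf0
    have := dt_self_nonneg (mv P X)
    have := dt_self_nonneg (mv Q Y)
    have := dt_self_nonneg (mv P w)
    have := dt_self_nonneg (mv Q w')
    have := dt_self_nonneg (mv P X - mv Q Y)
    positivity
  exact on_fin key uf0 ufn hZ M1 b1 K1 hh

end slot

end Vale.Agent.P088.R2.H870.Z2
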