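import Vale.Agent.P088.R2.H870.Z2.On2

/-!
# P088, stage 3, zone II: the turn-on terms, sharp form

Every direct term of the turn-on form contains a factor `√u₀`, where
`u₀ = |A|² + |B|² + F x² + F' y²`.  Hence it is at most `Z u + η χ² k u₀` with
`Z = K (d M + dp)² / (η k)`, `d = r |Dχ|`, `dp = |(D_x + D_y) χ|`, `M = 1 + (N + k) / (E r²)`:
no smallness of `Dχ` is needed, only `k` large with respect to `M²`.
-/

open Set Filter
open scoped ContDiff Topology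

noncomputable section

namespace Vale.Agent.P088.R2.H870.Z2

open Vale.Agent.P088.R2.H961.GW Vale.Agent.P088.R2.H960.W Vale.Agent.P088.R2.H86.Z

/-! ## Numbers -/

theorem yg {ρ : ℝ} (hρ : 0 < ρ) (x y : ℝ) : 2 * (x * y) ≤ ρ * x ^ 2 + y ^ 2 / ρ := by
  have h : ρ * x ^ 2 + y ^ 2 / ρ - 2 * (x * y) = (ρ * x - y) ^ 2 / ρ := by
    field_simp; ring
  have : 0 ≤ (ρ * x - y) ^ 2 / ρ := by positivity
  linarith

theorem num_T2 (p q a b : ℝ) :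
    (2 * (p + q) + (a + b)) ^ 2 ≤ 16 * (a ^ 2 / 2 + b ^ 2 / 2 + (p ^ 2 + q ^ 2)) ∧
      b ^ 2 + q ^ 2 ≤ 2 * (a ^ 2 / 2 + b ^ 2 / 2 + (p ^ 2 + q ^ 2)) := by
  have a2 := sq_nonneg a
  have b2 := sq_nonneg b
  have p2 := sq_nonneg p
  have q2 := sq_nonneg q
  have y1 : (2 * (p + q) + (a + b)) ^ 2 ≤ 8 * (p + q) ^ 2 + 2 * (a + b) ^ 2 := by
    linarith [sq_nonneg (2 * (p + q) - (a + b))]
  have y2 : (p + q) ^ 2 ≤ 2 * (p ^ 2 + q ^ 2) := by linarith [sq_nonneg (p - q)]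
  have y3 : (a + b) ^ 2 ≤ 2 * (a ^ 2 + b ^ 2) := by linarith [sq_nonneg (a - b)]
  exact ⟨by linarith, by linarith⟩

theorem num_M2 {Q₁ Q₂ Q₃ g c h d cd S L G C M B w u T η η₁ W : ℝ} (hη : 0 ≤ η) (hη₁ : 0 ≤ η₁)
    (hC : 1 ≤ C) (hM : 1 ≤ M) (hS : 0 ≤ S) (hL : 0 ≤ L) (hW : 0 ≤ W) (hc : 0 ≤ c) (hd : 0 ≤ d)
    (hcd : 0 ≤ cd) (hG : 0 ≤ G) (hu : 0 ≤ u) (hB : 0 ≤ B)
    (q₁ : Q₁ ≤ 32 * (g * c) * (S * L)) (q₂ : Q₂ ≤ 112 * (g * cd) * W)
    (q₃ : Q₃ ≤ 112 * (h * d) * W) (h1 : g ≤ η * G) (h2 : h ≤ η₁) (h3 : c ≤ C) (h4 : d ≤ C)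
    (h5 : G * cd ≤ C * M) (k : G * L ≤ C * B + C * M * w)
    (hT : B ^ 2 ≤ 2 * T) (hSu : S ^ 2 ≤ 16 * u) (hwS : w ≤ S / 4) (T4 : W ≤ 2 * u) (hT0 : 0 ≤ T)
    {ρ : ℝ} (hρ : 0 < ρ) {X Λ : ℝ} (hX : 0 ≤ X) (hΛ : C ^ 2 * (η * M + η₁) ≤ Λ) :
    2 * X * (Q₁ + Q₂ + Q₃) ≤ 250000 * Λ ^ 2 / ρ * (T + u) + ρ * (X ^ 2 * u) := by
  have hC0 : 0 ≤ C := by linarith
  have hM0 : 0 ≤ M := by linarith
  have hCM : 0 ≤ C * M := mul_nonneg hC0 hM0
  have hηG : 0 ≤ η * G := mul_nonneg hη hG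
  have CC : C ≤ C ^ 2 := by nlinarith
  -- first part
  have e1 : Q₁ ≤ 32 * (η * C ^ 2) * (S * B) + 128 * (η * C ^ 2 * M) * u := by
    have a1 : g * c ≤ η * G * C := mul_le_mul h1 h3 hc hηG
    have a2 : g * c * (S * L) ≤ η * G * C * (S * L) :=
      mul_le_mul_of_nonneg_right a1 (mul_nonneg hS hL)
    have a3 : S * (G * L) ≤ S * (C * B + C * M * w) := mul_le_mul_of_nonneg_left k hS
    have a4 : S * w ≤ 4 * u := by
      have : S * w ≤ S * (S / 4) := mul_le_mul_of_nonneg_left hwS hS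
      have e : S * (S / 4) = S ^ 2 / 4 := by ring
      linarith
    have a5 : C * M * (S * w) ≤ C * M * (4 * u) := mul_le_mul_of_nonneg_left a4 hCM
    have a8 : S * (G * L) ≤ C * (S * B) + C * M * (4 * u) := by
      have : S * (C * B + C * M * w) = C * (S * B) + C * M * (S * w) := by ring
      linarith
    have a9 : η * C * (S * (G * L)) ≤ η * C * (C * (S * B) + C * M * (4 * u)) :=
      mul_le_mul_of_nonneg_left a8 (mul_nonneg hη hC0)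
    have e : η * G * C * (S * L) = η * C * (S * (G * L)) := by ring
    have e' : η * C * (C * (S * B) + C * M * (4 * u)) =
      (η * C ^ 2) * (S * B) + 4 * (η * C ^ 2 * M) * u := by ring
    linarith
  have e2 : Q₂ ≤ 224 * (η * C ^ 2 * M) * u := by
    have a1 : g * cd ≤ η * G * cd := mul_le_mul_of_nonneg_right h1 hcd
    have a2 : η * (G * cd) ≤ η * (C * M) := mul_le_mul_of_nonneg_left h5 hη
    have a3 : g * cd ≤ η * (C * M) := by linarith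
    have a4 : g * cd * W ≤ η * (C * M) * (2 * u) :=
      mul_le_mul a3 T4 hW (mul_nonneg hη hCM)
    have a5 : η * (C * M) * (2 * u) ≤ η * (C ^ 2 * M) * (2 * u) := by
      have : C * M ≤ C ^ 2 * M := mul_le_mul_of_nonneg_right CC hM0
      exact mul_le_mul_of_nonneg_right (mul_le_mul_of_nonneg_left this hη) (by linarith)
    linarith
  have e3 : Q₃ ≤ 224 * (C ^ 2 * η₁) * u := by
    have a3 : h * d ≤ η₁ * C := mul_le_mul h2 h4 hd hη₁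
    have a4 : h * d * W ≤ η₁ * C * (2 * u) := mul_le_mul a3 T4 hW (mul_nonneg hη₁ hC0)
    have a5 : η₁ * C * (2 * u) ≤ η₁ * C ^ 2 * (2 * u) :=
      mul_le_mul_of_nonneg_right (mul_le_mul_of_nonneg_left CC hη₁) (by linarith)
    linarith
  have n1 : 0 ≤ C ^ 2 * η₁ := mul_nonneg (sq_nonneg _) hη₁
  have n2 : 0 ≤ η * C ^ 2 * M := mul_nonneg (mul_nonneg hη (sq_nonneg _)) hM0
  have n3 : η * C ^ 2 ≤ η * C ^ 2 * M :=
    le_mul_of_one_le_right (mul_nonneg hη (sq_nonneg _)) hM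
  have n4 : 0 ≤ η * C ^ 2 := mul_nonneg hη (sq_nonneg _)
  have hΛ' : η * C ^ 2 * M + C ^ 2 * η₁ ≤ Λ := by linarith
  have Λ0 : 0 ≤ Λ := by linarith
  -- Young
  have y1 : 2 * X * (32 * (η * C ^ 2) * (S * B)) ≤
      65536 * Λ ^ 2 / ρ * T + 1 / 2 * (ρ * (X ^ 2 * u)) := by
    have b2 : 2 * X * (32 * (η * C ^ 2) * (S * B)) ≤ 2 * X * (32 * Λ * (S * B)) := by
      have h1 : 32 * (η * C ^ 2) * (S * B) ≤ 32 * Λ * (S * B) :=
        mul_le_mul_of_nonneg_right (by linarith) (mul_nonneg hS hB)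
      exact mul_le_mul_of_nonneg_left h1 (by linarith)
    have b3 := yg (by positivity : 0 < ρ / 32) (X * S) (32 * Λ * B)
    have b4 : ρ / 32 * (X * S) ^ 2 ≤ 1 / 2 * (ρ * (X ^ 2 * u)) := by
      have := mul_le_mul_of_nonneg_left hSu (by positivity : 0 ≤ ρ / 32 * X ^ 2)
      calc _ = ρ / 32 * X ^ 2 * S ^ 2 := by ring
        _ ≤ _ := this
        _ = _ := by ring
    have b5 : (32 * Λ * B) ^ 2 / (ρ / 32) ≤ 65536 * Λ ^ 2 / ρ * T := by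
      have := mul_le_mul_of_nonneg_left hT (by positivity : 0 ≤ 32768 * Λ ^ 2 / ρ)
      calc _ = 32768 * Λ ^ 2 / ρ * B ^ 2 := by field_simp; ring
        _ ≤ _ := this
        _ = _ := by ring
    linarith
  have y2 : 2 * X * ((352 * (η * C ^ 2 * M) + 224 * (C ^ 2 * η₁)) * u) ≤
      247808 * Λ ^ 2 / ρ * u + 1 / 2 * (ρ * (X ^ 2 * u)) := by
    have b2 : (352 * (η * C ^ 2 * M) + 224 * (C ^ 2 * η₁)) * u ≤ 352 * Λ * u :=
      mul_le_mul_of_nonneg_right (by linarith) hu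
    have b3 := mul_le_mul_of_nonneg_right (yg (by positivity : 0 < ρ / 2) X (352 * Λ)) hu
    have b4 := mul_le_mul_of_nonneg_left b2 (by linarith : 0 ≤ 2 * X)
    have b5 : (352 * Λ) ^ 2 / (ρ / 2) * u = 247808 * Λ ^ 2 / ρ * u := by field_simp; ring
    rw [add_mul, b5] at b3
    linarith
  have z1 := mul_le_mul_of_nonneg_left (add_le_add (add_le_add e1 e2) e3)
    (by linarith : 0 ≤ 2 * X)
  have z2 : 65536 * Λ ^ 2 / ρ * T ≤ 250000 * Λ ^ 2 / ρ * T := by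
    have : 0 ≤ Λ ^ 2 / ρ * T := by positivity
    have e4 : 65536 * Λ ^ 2 / ρ * T = 65536 * (Λ ^ 2 / ρ * T) := by ring
    have e5 : 250000 * Λ ^ 2 / ρ * T = 250000 * (Λ ^ 2 / ρ * T) := by ring
    linarith
  have z3 : 247808 * Λ ^ 2 / ρ * u ≤ 250000 * Λ ^ 2 / ρ * u := by
    have : 0 ≤ Λ ^ 2 / ρ * u := by positivity
    have e4 : 247808 * Λ ^ 2 / ρ * u = 247808 * (Λ ^ 2 / ρ * u) := by ring
    have e5 : 250000 * Λ ^ 2 / ρ * u = 250000 * (Λ ^ 2 / ρ * u) := by ring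
    linarith
  linarith

/-- The sum over the two slots, in frames, sharp form. -/
theorem Qn_pair2 {α : Type*} [Fintype α] {g h c d A B v w : α → ℝ}
    {x y G E M C η η₁ ρ X Λ : ℝ} (hη : 0 ≤ η) (hη₁ : 0 ≤ η₁) (hC : 1 ≤ C)
    (hM : 1 ≤ M) (hG : 0 ≤ G) (hE : 0 ≤ E)
    (h1 : nm g ≤ η * G) (h2 : nm h ≤ η₁) (h3 : nm c ≤ C) (h4 : nm d ≤ C)
    (h5 : G * nm (c - d) ≤ C * M)
    (h6 : G * nm (v + w) ≤ C * M * nm v) (h6' : G * nm (v + w) ≤ C * M * nm w)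
    (h7 : G * nm v ≤ C * E) (h7' : G * nm w ≤ C * E) (hρ : 0 < ρ) (hX : 0 ≤ X)
    (hΛ : C ^ 2 * (η * M + η₁) ≤ Λ) :
    2 * X * |Qn g c A (x • v) + Qn (h - g) d B (y • w)| ≤ 250000 * Λ ^ 2 / ρ *
      (G ^ 2 * dt (A - B) (A - B) + E ^ 2 * (x + y) ^ 2 + (dt A A / 2 + dt B B / 2 +
        (dt v v * x ^ 2 + dt w w * y ^ 2))) +
      ρ * (X ^ 2 * (dt A A / 2 + dt B B / 2 + (dt v v * x ^ 2 + dt w w * y ^ 2))) := by
  have e0 : Qn g c A (x • v) + Qn (h - g) d B (y • w) =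
      (Qn g c A (x • v) - Qn g c B (y • w)) + Qn g (c - d) B (y • w) + Qn h d B (y • w) := by
    rw [Qn_lin_g, Qn_lin_c]; ring
  have t1 := Qn_sub_le g c A B (x • v) (y • w)
  have t2 := Qn_le g (c - d) B (y • w)
  have t3 := Qn_le h d B (y • w)
  rw [nm_smul] at t2 t3
  rw [nm_smul, nm_smul] at t1
  have p0 : 0 ≤ |x| * nm v := mul_nonneg (abs_nonneg x) (nm_nonneg v)
  have q0 : 0 ≤ |y| * nm w := mul_nonneg (abs_nonneg y) (nm_nonneg w)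
  have A0 := nm_nonneg A
  have B0 := nm_nonneg B
  have D0 := nm_nonneg (A - B)
  have k5 : G * (nm (x • v - y • w) + nm (A - B)) ≤ C * (|x + y| * E + G * nm (A - B)) +
      C * M * ((|x| * nm v + |y| * nm w) / 2) := by
    have a1 := nm_xy' (x := x) (y := y) hG h6 h6' h7 h7'
    have a2 : G * nm (A - B) ≤ C * (G * nm (A - B)) :=
      le_mul_of_one_le_left (mul_nonneg hG D0) hC
    rw [mul_add]
    linarith
  obtain ⟨sS, T4⟩ := num_T2 (|x| * nm v) (|y| * nm w) (nm A) (nm B)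
  have hT : (|x + y| * E + G * nm (A - B)) ^ 2 ≤
      2 * (G ^ 2 * nm (A - B) ^ 2 + E ^ 2 * |x + y| ^ 2) := by
    linarith [sq_nonneg (|x + y| * E - G * nm (A - B))]
  have key := num_M2 hη hη₁ hC hM (by linarith)
    (add_nonneg (nm_nonneg (x • v - y • w)) D0)
    (by positivity) (nm_nonneg c) (nm_nonneg d) (nm_nonneg (c - d)) hG (by positivity)
    (by positivity)
    t1 t2 t3 h1 h2 h3 h4 h5 k5 hT sS (by linarith) T4 (by positivity) hρ hX hΛ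
  have eT : G ^ 2 * dt (A - B) (A - B) + E ^ 2 * (x + y) ^ 2 =
      G ^ 2 * nm (A - B) ^ 2 + E ^ 2 * |x + y| ^ 2 := by
    rw [nm_sq, sq_abs]
  have eu : dt A A / 2 + dt B B / 2 + (dt v v * x ^ 2 + dt w w * y ^ 2) =
      nm A ^ 2 / 2 + nm B ^ 2 / 2 + ((|x| * nm v) ^ 2 + (|y| * nm w) ^ 2) := by
    rw [mul_pow, mul_pow, nm_sq, nm_sq, nm_sq, nm_sq, sq_abs, sq_abs]
    ring
  rw [eT, eu, e0]
  refine le_trans ?_ key
  refine mul_le_mul_of_nonneg_left ?_ (by linarith)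
  have z1 := abs_add_le (Qn g c A (x • v) - Qn g c B (y • w) + Qn g (c - d) B (y • w))
    (Qn h d B (y • w))
  have z2 := abs_add_le (Qn g c A (x • v) - Qn g c B (y • w)) (Qn g (c - d) B (y • w))
  linarith

/-- The cut-off, with separate numbers for the fast and the slow directions. -/
structure CB2 {E ι : Type*} [NormedAddCommGroup E] [NormedSpace ℝ E] (σ τ : Sl E ι) (χ : E → ℝ)
    (d dp r : ℝ) (z : E) : Prop where
  x : ∀ i, |σ.D i χ z| ≤ d / r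
  y : ∀ i, |τ.D i χ z| ≤ d / r
  s : ∀ i, |σ.D i χ z + τ.D i χ z| ≤ dp

/-- The constant of the sharp form. -/
def KO2 (ν A : ℝ) : ℝ := 1000000 * KC ν A ^ 6

variable {E ι α : Type*} [NormedAddCommGroup E] [NormedSpace ℝ E] [Fintype ι] [Fintype α]
  {σ τ : Sl E ι} {W χ g e Z : E → ℝ} {C₁ C₂ c c' : ι → E → ℝ}
  {p q : α → ι → E → ℝ} {z : E} {A En N r κ d₀ dp ν ρ : ℝ}

theorem on_fin2 {s₁ s₂ t₁ t₂ T u T' u' c X ρ zz : ℝ}
    (key : 2 * |X| * |8 * s₁ + 16 * t₁ + (8 * s₂ + 16 * t₂)| ≤ c / ρ * (T + u) +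
      ρ * (|X| ^ 2 * u)) (hT : T ≤ T') (hu : u ≤ u') (hT0 : 0 ≤ T' + u')
    (hZ : c ≤ zz * ρ) (hc : 0 ≤ c) (hρ : 0 < ρ) :
    |2 * X * (8 * (s₁ + s₂) + 16 * (t₁ + t₂))| ≤ zz * (T' + u') + ρ * (X ^ 2 * u') := by
  have e2 : 8 * (s₁ + s₂) + 16 * (t₁ + t₂) = 8 * s₁ + 16 * t₁ + (8 * s₂ + 16 * t₂) := by ring
  rw [abs_mul, abs_mul, abs_of_nonneg (by norm_num : (0 : ℝ) ≤ 2), e2]
  rw [sq_abs] at key
  have h1 : c / ρ * (T + u) ≤ c / ρ * (T' + u') :=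
    mul_le_mul_of_nonneg_left (by linarith) (by positivity)
  have h2 : c / ρ * (T' + u') ≤ zz * (T' + u') :=
    mul_le_mul_of_nonneg_right ((div_le_iff₀ hρ).2 hZ) hT0
  have h3 : ρ * (X ^ 2 * u) ≤ ρ * (X ^ 2 * u') :=
    mul_le_mul_of_nonneg_left (mul_le_mul_of_nonneg_left hu (sq_nonneg _)) hρ.le
  linarith

/-- **The turn-on terms, sharp form.** -/
theorem on_of2 (hA : 1 ≤ A) (hα : (Fintype.card α : ℝ) + 1 ≤ ν)
    (hι : (Fintype.card ι : ℝ) + 1 ≤ ν) (hEn : 0 < En) (hr : 0 < r) (hN : 0 ≤ N) (hκ : 0 ≤ κ)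
    (hd : 0 ≤ d₀) (hdp : 0 ≤ dp) (hρ : 0 < ρ)
    (el₁ : El σ z) (el₂ : El τ z) (mb : MB σ τ p q A r z)
    (fb : FB σ τ C₁ C₂ c c' A En N r κ z) (cb : CB2 σ τ χ d₀ dp r z) (wb : W1 σ τ W A En N r z)
    (hg : 1 ≤ g z * r ^ 2) (he : En ^ 2 ≤ e z)
    (hZ : KO2 ν A * (d₀ * (1 + (N + κ) / (En * r ^ 2)) + dp) ^ 2 ≤ Z z * ρ)
    (X Y : ι → ℝ) (x y : ℝ) :
    |2 * χ z * (8 * (onf σ c χ z (fun i => 2 * x * σ.D i W z - X i) +
        onf τ c' χ z (fun i => 2 * y * τ.D i W z - Y i)) +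
      16 * (cD σ c χ z * σ.F W z * x ^ 2 + cD τ c' χ z * τ.F W z * y ^ 2))| ≤
    Z z * uf σ τ W g e p q z X Y x y +
      ρ * (χ z ^ 2 * (((∑ i, X i ^ 2) + ∑ i, Y i ^ 2) + (σ.F W z * x ^ 2 + τ.F W z * y ^ 2))) := by
  set P : α → ι → ℝ := fun a i => p a i z with hP
  set Q : α → ι → ℝ := fun a i => q a i z with hQ
  set d : ι → ℝ := fun i => σ.D i χ z with hd
  set d' : ι → ℝ := fun i => τ.D i χ z with hd'
  set w : ι → ℝ := fun i => σ.D i W z with hw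
  set w' : ι → ℝ := fun i => τ.D i W z with hw'
  set D₁ : ι → ℝ := fun j => C₁ j z with hD₁
  set D₂ : ι → ℝ := fun j => C₂ j z with hD₂
  have o1 := on_fr (σ := σ) (W := W) (χ := χ) (c := c) (C := D₁) (P := P) mb.f₁ fb.e₁ X x
  have o2 := on_fr (σ := τ) (W := W) (χ := χ) (c := c') (C := D₂) (P := Q) mb.f₂ fb.e₂ Y y
  have u1 := el₁.up
  have u2 := el₂.up
  have hν : 1 ≤ ν := by
    have : (0 : ℝ) ≤ Fintype.card ι := Nat.cast_nonneg _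
    linarith
  -- numbers
  set M : ℝ := 1 + (N + κ) / (En * r ^ 2) with hM
  have M1 : 1 ≤ M := by
    have : 0 ≤ (N + κ) / (En * r ^ 2) := by positivity
    linarith
  have M2 : 1 + N / (En * r ^ 2) ≤ M := by
    have : N / (En * r ^ 2) ≤ (N + κ) / (En * r ^ 2) := by gcongr; linarith
    linarith
  have K1 := KC_one hA hν
  have K0 : 0 ≤ KC ν A := zero_le_one.trans K1
  have fd : ∀ i, |D₁ i - D₂ i| ≤ A * (r * M) := by
    have a4 : r + (N + κ) / (En * r) = r * M := by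
      rw [hM]; field_simp
    intro i
    rw [← a4]; exact fb.df i
  have F1 : σ.F W z = dt (mv P w) (mv P w) := by rw [dt_mv mb.f₁]; rfl
  have F2 : τ.F W z = dt (mv Q w') (mv Q w') := by rw [dt_mv mb.f₂]; rfl
  have dd : 0 ≤ d₀ + dp := by linarith
  have cy : ∀ i, |d' i| ≤ (d₀ + dp) / r := fun i =>
    (cb.y i).trans (div_le_div_of_nonneg_right (by linarith) hr.le)
  have cs : ∀ i, |d i + d' i| ≤ d₀ + dp := fun i => (cb.s i).trans (by linarith)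
  have hΛ : KC ν A ^ 2 * (KC ν A * d₀ * M + KC ν A * (d₀ + dp)) ≤
      2 * KC ν A ^ 3 * (d₀ * M + dp) := by
    have a1 : d₀ ≤ d₀ * M := le_mul_of_one_le_right ‹0 ≤ d₀› M1
    have a2 : 0 ≤ KC ν A ^ 3 := by positivity
    have := mul_le_mul_of_nonneg_left a1 a2
    have := mul_nonneg a2 hdp
    linarith
  have g2 := geo_s hA hα hι hr dd le_rfl le_rfl mb.f₁ u1 mb.df cy cs
  rw [one_mul, mul_one] at g2
  have g1 := geo_x hA hι hr ‹0 ≤ d₀› le_rfl mb.f₁ u1 cb.x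
  have g5 := geo_d hA hα hι hr M1 le_rfl mb.f₁ u1 mb.df fb.b₂ fd
  have g6 := geo_w hA hα hι hr hEn hN le_rfl M2 mb.f₁ u1 mb.df wb.y wb.s
    (V := mv P w) (by rw [← F1]; exact wb.F₁)
  have g7 := geo_w hA hα hι hr hEn hN le_rfl M2 mb.f₁ u1 mb.df wb.y wb.s
    (V := mv Q w') (by rw [← F2]; exact wb.F₂)
  have g8 := geo_W hA hι hr hEn le_rfl mb.f₁ u1 wb.x
  have g9 := geo_W hA hι hr hEn le_rfl mb.f₂ u2 wb.y
  rw [one_mul] at g5 g6 g7 g8 g9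
  have key := Qn_pair2 (g := mv P d) (h := mv P d + mv Q d') (c := mv P D₁) (d := mv Q D₂)
    (A := mv P X) (B := mv Q Y) (v := mv P w) (w := mv Q w') (x := x) (y := y)
    (G := 1 / r) (E := En) (M := M) (C := KC ν A) (η := KC ν A * d₀)
    (η₁ := KC ν A * (d₀ + dp)) (mul_nonneg K0 ‹0 ≤ d₀›) (mul_nonneg K0 dd) K1 M1
    (by positivity) hEn.le g1 g2 (geo_c hA hι mb.f₁ u1 fb.b₁) (geo_c hA hι mb.f₂ u2 fb.b₂)
    g5 g6 g7 g8 g9 hρ (abs_nonneg (χ z)) hΛ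
  have e1 : mv P d + mv Q d' - mv P d = mv Q d' := by abel
  rw [e1, ← o1, ← o2] at key
  -- the unit density
  have t3 : dt (mv P X) (mv P X) / 2 + dt (mv Q Y) (mv Q Y) / 2 ≤
      (∑ i, X i ^ 2) + ∑ i, Y i ^ 2 := by
    have t1 := u1 X
    have t2 := u2 Y
    rw [dt_mv mb.f₁, dt_mv mb.f₂]; linarith
  have t4 : wq p q z X Y = dt (mv P X - mv Q Y) (mv P X - mv Q Y) := by
    unfold wq dt
    exact Finset.sum_congr rfl fun a _ => by rw [sq]; rfl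
  have t5 : dt (mv P X) (mv P X) / 2 + dt (mv Q Y) (mv Q Y) / 2 +
      (dt (mv P w) (mv P w) * x ^ 2 + dt (mv Q w') (mv Q w') * y ^ 2) ≤
      ((∑ i, X i ^ 2) + ∑ i, Y i ^ 2) + (σ.F W z * x ^ 2 + τ.F W z * y ^ 2) := by
    rw [← F1, ← F2]; linarith
  have t6 : (1 / r) ^ 2 * dt (mv P X - mv Q Y) (mv P X - mv Q Y) + En ^ 2 * (x + y) ^ 2 ≤
      g z * wq p q z X Y + e z * (x + y) ^ 2 := by
    rw [← t4]
    have a1 : (1 / r) ^ 2 ≤ g z := by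
      rw [div_pow, one_pow, div_le_iff₀ (by positivity)]; exact hg
    exact add_le_add (mul_le_mul_of_nonneg_right a1 (wq_nonneg p q z X Y))
      (mul_le_mul_of_nonneg_right he (sq_nonneg _))
  have ufe : uf σ τ W g e p q z X Y x y = g z * wq p q z X Y + e z * (x + y) ^ 2 +
      (((∑ i, X i ^ 2) + ∑ i, Y i ^ 2) + (σ.F W z * x ^ 2 + τ.F W z * y ^ 2)) := by
    unfold uf; ring
  have ufn : 0 ≤ g z * wq p q z X Y + e z * (x + y) ^ 2 +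
      (((∑ i, X i ^ 2) + ∑ i, Y i ^ 2) + (σ.F W z * x ^ 2 + τ.F W z * y ^ 2)) := by
    have a1 := dt_self_nonneg (mv P X - mv Q Y)
    have a2 := dt_self_nonneg (mv P X)
    have a3 := dt_self_nonneg (mv Q Y)
    have a4 := dt_self_nonneg (mv P w)
    have a5 := dt_self_nonneg (mv Q w')
    have a6 : 0 ≤ (1 / r) ^ 2 * dt (mv P X - mv Q Y) (mv P X - mv Q Y) + En ^ 2 * (x + y) ^ 2 := by
      positivity
    have a7 : 0 ≤ dt (mv P X) (mv P X) / 2 + dt (mv Q Y) (mv Q Y) / 2 +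
      (dt (mv P w) (mv P w) * x ^ 2 + dt (mv Q w') (mv Q w') * y ^ 2) := by positivity
    linarith
  rw [ufe]
  have hZ' : 250000 * (2 * KC ν A ^ 3 * (d₀ * M + dp)) ^ 2 ≤ Z z * ρ := by
    refine le_trans (le_of_eq ?_) hZ
    unfold KO2; ring
  exact on_fin2 key t6 t5 ufn hZ' (by positivity) hρ

end Vale.Agent.P088.R2.H870.Z2
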