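import Vale.Agent.P088.R2.H870.Z2.On3
import Vale.Agent.P088.R2.H972.E.Abs2

/-!
# P088, stage 3, zone II: the two cut-off conditions `HP'.on` and `HS'.ch` of `zoneII'`

One condition: `K (d M + dp)² ≤ Z η k`, where `d = r |Dχ|`, `dp = |(D_x + D_y) χ|`,
`M = 1 + (N + k) / (E r²)`.
-/

open Set Filter
open scoped ContDiff Topology

noncomputable section

namespace Vale.Agent.P088.R2.H870.Z2

open Vale.Agent.P088.R2.H961.GW Vale.Agent.P088.R2.H960.W Vale.Agent.P088.R2.H86.Z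
  Vale.Agent.P088.R2.H972.E

section size

variable {α ι : Type*} [Fintype α] [Fintype ι]

/-- `|Γ(χ, W)|`, in a frame. -/
theorem geo_g {P : α → ι → ℝ} {s : ι → ι → ℝ} {d w : ι → ℝ} {A En r h ν : ℝ} (hA : 1 ≤ A)
    (hι : (Fintype.card ι : ℝ) + 1 ≤ ν) (hr : 0 < r) (hh : 0 ≤ h) (hEn : 0 < En)
    (f₁ : ∀ i j, ∑ a, P a i * P a j = s i j)
    (u1 : ∀ A : ι → ℝ, ∑ i, ∑ j, s i j * A i * A j ≤ 2 * ∑ i, A i ^ 2)
    (cx : ∀ i, |d i| ≤ h / r) (hV : (En * r) ^ 2 ≤ A * dt (mv P w) (mv P w)) :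
    |∑ i, ∑ j, s i j * d i * w j| ≤
      KC ν A * A * (h / (En * r ^ 2)) * dt (mv P w) (mv P w) := by
  have g1 := geo_x hA hι hr hh le_rfl f₁ u1 cx
  have g2 := abs_dt_le (mv P d) (mv P w)
  have n0 := nm_nonneg (mv P w)
  have hA0 : 0 ≤ A := by linarith
  have hV' : En * r ≤ A * nm (mv P w) := by
    rw [← nm_sq] at hV
    refine le_of_sq_le_sq ?_ (mul_nonneg hA0 n0)
    have : A * nm (mv P w) ^ 2 ≤ A ^ 2 * nm (mv P w) ^ 2 :=
      mul_le_mul_of_nonneg_right (by nlinarith) (sq_nonneg _)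
    rw [mul_pow]; linarith
  rw [dt_mv f₁] at g2
  have hν : 1 ≤ ν := by
    have : (0 : ℝ) ≤ Fintype.card ι := Nat.cast_nonneg _
    linarith
  have K0 : 0 ≤ KC ν A := zero_le_one.trans (KC_one hA hν)
  refine g2.trans ?_
  rw [← nm_sq]
  have a1 := mul_le_mul_of_nonneg_right g1 n0
  have a2 : KC ν A * h * (1 / r) * nm (mv P w) =
      KC ν A * (h / (En * r ^ 2)) * ((En * r) * nm (mv P w)) := by field_simp
  have a3 : KC ν A * (h / (En * r ^ 2)) * ((En * r) * nm (mv P w)) ≤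
      KC ν A * (h / (En * r ^ 2)) * (A * nm (mv P w) * nm (mv P w)) :=
    mul_le_mul_of_nonneg_left (mul_le_mul_of_nonneg_right hV' n0) (by positivity)
  calc _ ≤ _ := a1
    _ = _ := a2
    _ ≤ _ := a3
    _ = _ := by ring

end size

variable {E ι α : Type*} [NormedAddCommGroup E] [NormedSpace ℝ E] [Fintype ι] [Fintype α]
  {σ τ : Sl E ι} {W χ k g e Z : E → ℝ} {C₁ C₂ c c' : ι → E → ℝ}
  {p q : α → ι → E → ℝ} {z : E} {A En N r d₀ dp ν η : ℝ}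

/-- The cut-off conditions of zone II at a point. -/
structure Cut (σ τ : Sl E ι) (χ k Z : E → ℝ) (ν A η En N r d₀ dp : ℝ) (z : E) : Prop where
  cb : CB2 σ τ χ d₀ dp r z
  d0 : 0 ≤ d₀
  dp0 : 0 ≤ dp
  k0 : 0 < k z
  le : KO2 ν A * (d₀ * (1 + (N + k z) / (En * r ^ 2)) + dp) ^ 2 ≤ Z z * (η * k z)

/-- **The field `on` of `HP'`.** -/
theorem on' (hA : 1 ≤ A) (hα : (Fintype.card α : ℝ) + 1 ≤ ν)
    (hι : (Fintype.card ι : ℝ) + 1 ≤ ν) (hEn : 0 < En) (hr : 0 < r) (hN : 0 ≤ N)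
    (hη : 0 < η) (el₁ : El σ z) (el₂ : El τ z) (mb : MB σ τ p q A r z)
    (fb : FB σ τ C₁ C₂ c c' A En N r (k z) z) (ct : Cut σ τ χ k Z ν A η En N r d₀ dp z)
    (wb : W1 σ τ W A En N r z) (hg : 1 ≤ g z * r ^ 2) (he : En ^ 2 ≤ e z)
    (X Y : ι → ℝ) (x y : ℝ) :
    |2 * χ z * (8 * (onf σ c χ z (fun i => 2 * x * σ.D i W z - X i) +
        onf τ c' χ z (fun i => 2 * y * τ.D i W z - Y i)) +
      16 * (cD σ c χ z * σ.F W z * x ^ 2 + cD τ c' χ z * τ.F W z * y ^ 2))| ≤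
    Z z * uf σ τ W g e p q z X Y x y + η * (χ z ^ 2 * um σ τ W k g e p q z X Y x y) := by
  have h := on_of2 hA hα hι hEn hr hN ct.k0.le ct.d0 ct.dp0 (mul_pos hη ct.k0) el₁ el₂ mb fb
    ct.cb wb hg he ct.le X Y x y
  refine h.trans ?_
  have g0 : 0 ≤ g z := by
    by_contra hc
    have : g z * r ^ 2 ≤ 0 := mul_nonpos_of_nonpos_of_nonneg (not_le.1 hc).le (sq_nonneg r)
    linarith
  have e0 : 0 ≤ e z := (sq_nonneg En).trans he
  have h1 := mul_nonneg g0 (wq_nonneg p q z X Y)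
  have h2 := mul_nonneg e0 (sq_nonneg (x + y))
  have h3 : η * k z * (χ z ^ 2 * (((∑ i, X i ^ 2) + ∑ i, Y i ^ 2) +
      (σ.F W z * x ^ 2 + τ.F W z * y ^ 2))) ≤ η * (χ z ^ 2 * um σ τ W k g e p q z X Y x y) := by
    have e1 : η * k z * (χ z ^ 2 * (((∑ i, X i ^ 2) + ∑ i, Y i ^ 2) +
      (σ.F W z * x ^ 2 + τ.F W z * y ^ 2))) = η * (χ z ^ 2 * (k z * ((∑ i, X i ^ 2) +
        ∑ i, Y i ^ 2) + (k z * σ.F W z * x ^ 2 + k z * τ.F W z * y ^ 2))) := by ring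
    rw [e1]
    refine mul_le_mul_of_nonneg_left (mul_le_mul_of_nonneg_left ?_ (sq_nonneg _)) hη.le
    unfold um
    linarith
  linarith

theorem KO2_ge (hA : 1 ≤ A) (hν : 1 ≤ ν) : (KC ν A * A) ^ 2 ≤ KO2 ν A := by
  have K1 := KC_one hA hν
  have a1 : A ≤ KC ν A := by
    have h1 : A ≤ A ^ 3 := le_self_pow₀ hA (by norm_num)
    have h2 : 1 ≤ ν ^ 2 := one_le_pow₀ hν
    have h3 : A ^ 3 ≤ ν ^ 2 * A ^ 3 := le_mul_of_one_le_left (by positivity) h2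
    have h4 : 0 ≤ ν ^ 2 * A ^ 3 := by positivity
    unfold KC; linarith
  have a2 : KC ν A * A ≤ KC ν A ^ 2 := by
    rw [sq]; exact mul_le_mul_of_nonneg_left a1 (by linarith)
  have a3 : (KC ν A * A) ^ 2 ≤ (KC ν A ^ 2) ^ 2 :=
    pow_le_pow_left₀ (by positivity) a2 2
  have a4 : (KC ν A ^ 2) ^ 2 ≤ KC ν A ^ 6 := by
    rw [← pow_mul]; exact pow_le_pow_right₀ K1 (by norm_num)
  have a5 : 0 ≤ KC ν A ^ 6 := by positivity
  unfold KO2; linarith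

/-- The arithmetic of `ch`. -/
theorem ch_fin {G F Zz X kk m M dd D q : ℝ} (hF : 0 ≤ F) (hη : 0 < η) (hk : 0 < kk)
    (hq : 0 ≤ q) (hG : |G| ≤ q * (dd / m) * F) (hm : 0 < m) (hdd : 0 ≤ dd)
    (hM : kk / m ≤ M) (hD : 0 ≤ D)
    (hZ : q ^ 2 * (dd * M + D) ^ 2 ≤ Zz * (η * kk)) :
    |2 * X * (kk * G)| ≤ (Zz + η * (X ^ 2 * kk)) * F := by
  have hηk : 0 < η * kk := mul_pos hη hk
  have a1 : q * (dd * (kk / m)) ≤ q * (dd * M + D) := by
    have := mul_le_mul_of_nonneg_left hM hdd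
    exact mul_le_mul_of_nonneg_left (by linarith) hq
  have a0 : 0 ≤ q * (dd * (kk / m)) := by positivity
  have a2 : (q * (dd * (kk / m))) ^ 2 ≤ Zz * (η * kk) := by
    refine (pow_le_pow_left₀ a0 a1 2).trans (le_trans (le_of_eq ?_) hZ)
    ring
  have a3 := yg hηk |X| (q * (dd * (kk / m)))
  have a4 : (q * (dd * (kk / m))) ^ 2 / (η * kk) ≤ Zz := (div_le_iff₀ hηk).2 a2
  have a5 : |2 * X * (kk * G)| ≤ 2 * (|X| * (q * (dd * (kk / m)))) * F := by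
    rw [abs_mul, abs_mul, abs_mul, abs_of_nonneg (by norm_num : (0 : ℝ) ≤ 2), abs_of_pos hk]
    have := mul_le_mul_of_nonneg_left hG (by positivity : 0 ≤ 2 * |X| * kk)
    calc _ = 2 * |X| * kk * |G| := by ring
      _ ≤ _ := this
      _ = _ := by ring
  rw [sq_abs] at a3
  refine a5.trans (mul_le_mul_of_nonneg_right ?_ hF)
  have : η * kk * X ^ 2 = η * (X ^ 2 * kk) := by ring
  linarith

/-- **The field `ch` of `HS'`, first slot.** -/
theorem ch₁ (hA : 1 ≤ A) (hι : (Fintype.card ι : ℝ) + 1 ≤ ν) (hEn : 0 < En) (hr : 0 < r)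
    (hN : 0 ≤ N) (hη : 0 < η) (el₁ : El σ z) (mb : MB σ τ p q A r z)
    (ct : Cut σ τ χ k Z ν A η En N r d₀ dp z) (wb : W1 σ τ W A En N r z) :
    |2 * χ z * (k z * σ.Γ χ W z)| ≤ (Z z + η * (χ z ^ 2 * k z)) * σ.F W z := by
  have hν : 1 ≤ ν := by
    have : (0 : ℝ) ≤ Fintype.card ι := Nat.cast_nonneg _
    linarith
  have F1 : σ.F W z = dt (mv (fun a i => p a i z) fun i => σ.D i W z)
      (mv (fun a i => p a i z) fun i => σ.D i W z) := by rw [dt_mv mb.f₁]; rfl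
  have hV := wb.F₁
  rw [F1] at hV
  have h := geo_g hA hι hr ct.d0 hEn mb.f₁ el₁.up ct.cb.x hV
  rw [← F1] at h
  have m0 : 0 < En * r ^ 2 := by positivity
  have hM : k z / (En * r ^ 2) ≤ 1 + (N + k z) / (En * r ^ 2) := by
    have : k z / (En * r ^ 2) ≤ (N + k z) / (En * r ^ 2) := by gcongr; linarith
    linarith
  refine ch_fin (m := En * r ^ 2) (q := KC ν A * A) (dd := d₀) (el₁.F0 W) hη ct.k0 ?_ ?_ m0
    ct.d0 hM ct.dp0 ?_
  · have := KC_one hA hν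
    positivity
  · exact h
  · exact (mul_le_mul_of_nonneg_right (KO2_ge hA hν) (sq_nonneg _)).trans ct.le

/-- **The field `ch` of `HS'`, second slot.** -/
theorem ch₂ (hA : 1 ≤ A) (hι : (Fintype.card ι : ℝ) + 1 ≤ ν) (hEn : 0 < En) (hr : 0 < r)
    (hN : 0 ≤ N) (hη : 0 < η) (el₂ : El τ z) (mb : MB σ τ p q A r z)
    (ct : Cut σ τ χ k Z ν A η En N r d₀ dp z) (wb : W1 σ τ W A En N r z) :
    |2 * χ z * (k z * τ.Γ χ W z)| ≤ (Z z + η * (χ z ^ 2 * k z)) * τ.F W z := by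
  have hν : 1 ≤ ν := by
    have : (0 : ℝ) ≤ Fintype.card ι := Nat.cast_nonneg _
    linarith
  have F1 : τ.F W z = dt (mv (fun a i => q a i z) fun i => τ.D i W z)
      (mv (fun a i => q a i z) fun i => τ.D i W z) := by rw [dt_mv mb.f₂]; rfl
  have hV := wb.F₂
  rw [F1] at hV
  have h := geo_g hA hι hr ct.d0 hEn mb.f₂ el₂.up ct.cb.y hV
  rw [← F1] at h
  have m0 : 0 < En * r ^ 2 := by positivity
  have hM : k z / (En * r ^ 2) ≤ 1 + (N + k z) / (En * r ^ 2) := by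
    have : k z / (En * r ^ 2) ≤ (N + k z) / (En * r ^ 2) := by gcongr; linarith
    linarith
  refine ch_fin (m := En * r ^ 2) (q := KC ν A * A) (dd := d₀) (el₂.F0 W) hη ct.k0 ?_ ?_ m0
    ct.d0 hM ct.dp0 ?_
  · have := KC_one hA hν
    positivity
  · exact h
  · exact (mul_le_mul_of_nonneg_right (KO2_ge hA hν) (sq_nonneg _)).trans ct.le

end Vale.Agent.P088.R2.H870.Z2
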